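import Mathlib

/-! # Heat-bath chains on finite sets: averages over classes and mixing -/

namespace CT2

open Finset
open scoped Classical

variable {α : Type}

/-- the average of `f` over the class of `x` -/
noncomputable def av (X : Finset α) (R : α → α → Prop) (f : α → ℝ) (x : α) : ℝ :=
  (∑ y ∈ X.filter (fun y => R x y), f y) / ((X.filter (fun y => R x y)).card : ℝ)

/-- kernel of one block -/
noncomputable def kb (X : Finset α) (R : α → α → Prop) (x y : α) : ℝ :=
  if R x y then 1 / ((X.filter (fun z => R x z)).card : ℝ) else 0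

theorem filter_congr_class (X : Finset α) {R : α → α → Prop} (hR : Equivalence R) {x y : α}
    (h : R x y) : X.filter (fun z => R x z) = X.filter (fun z => R y z) := by
  apply filter_congr
  intro z _
  exact ⟨fun h1 => hR.trans (hR.symm h) h1, fun h1 => hR.trans h h1⟩

theorem kb_nonneg (X : Finset α) (R : α → α → Prop) (x y : α) : 0 ≤ kb X R x y := by
  unfold kb
  split_ifs
  · positivity
  · exact le_rfl

theorem kb_symm (X : Finset α) {R : α → α → Prop} (hR : Equivalence R) (x y : α) :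
    kb X R x y = kb X R y x := by
  unfold kb
  by_cases h : R x y
  · rw [if_pos h, if_pos (hR.symm h), filter_congr_class X hR h]
  · rw [if_neg h, if_neg (fun h1 => h (hR.symm h1))]

theorem av_eq (X : Finset α) (R : α → α → Prop) (f : α → ℝ) (x : α) :
    av X R f x = ∑ y ∈ X, kb X R x y * f y := by
  unfold av kb
  rw [sum_filter, sum_div]
  apply sum_congr rfl
  intro y _
  split_ifs
  · ring
  · simp

theorem card_class_pos {X : Finset α} {R : α → α → Prop} (hR : Equivalence R) {x : α}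
    (hx : x ∈ X) : (0 : ℝ) < ((X.filter (fun z => R x z)).card : ℝ) := by
  have : 0 < (X.filter (fun z => R x z)).card :=
    card_pos.2 ⟨x, mem_filter.2 ⟨hx, hR.refl x⟩⟩
  exact_mod_cast this

theorem av_one {X : Finset α} {R : α → α → Prop} (hR : Equivalence R) {x : α} (hx : x ∈ X)
    (c : ℝ) : av X R (fun _ => c) x = c := by
  unfold av
  rw [sum_const, nsmul_eq_mul]
  have := card_class_pos hR hx
  field_simp

theorem av_symm (X : Finset α) {R : α → α → Prop} (hR : Equivalence R) (f g : α → ℝ) :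
    ∑ x ∈ X, f x * av X R g x = ∑ x ∈ X, av X R f x * g x := by
  simp_rw [av_eq, mul_sum, sum_mul]
  rw [sum_comm]
  apply sum_congr rfl
  intro x _
  apply sum_congr rfl
  intro y _
  rw [kb_symm X hR y x]
  ring

theorem av_class (X : Finset α) {R : α → α → Prop} (hR : Equivalence R) (f : α → ℝ) {x y : α}
    (h : R x y) : av X R f x = av X R f y := by
  unfold av
  rw [filter_congr_class X hR h]

theorem av_av {X : Finset α} {R : α → α → Prop} (hR : Equivalence R) (f : α → ℝ) {x : α}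
    (hx : x ∈ X) : av X R (av X R f) x = av X R f x := by
  have h1 : av X R (av X R f) x = av X R (fun _ => av X R f x) x := by
    unfold av
    congr 1
    apply sum_congr rfl
    intro y hy
    rw [mem_filter] at hy
    rw [filter_congr_class X hR hy.2]
  rw [h1, av_one hR hx]

theorem av_congr {X : Finset α} {R : α → α → Prop} {f g : α → ℝ} (h : ∀ y ∈ X, f y = g y)
    (x : α) : av X R f x = av X R g x := by
  unfold av
  congr 1
  apply sum_congr rfl
  intro y hy
  exact h y (mem_filter.1 hy).1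

theorem av_sum {X : Finset α} {R : α → α → Prop} (hR : Equivalence R) (f : α → ℝ) :
    ∑ x ∈ X, av X R f x = ∑ x ∈ X, f x := by
  have h1 := av_symm X hR (fun _ => 1) f
  simp only [one_mul] at h1
  rw [h1]
  apply sum_congr rfl
  intro x hx
  rw [av_one hR hx, one_mul]

theorem av_sub (X : Finset α) (R : α → α → Prop) (f g : α → ℝ) (x : α) :
    av X R (fun y => f y - g y) x = av X R f x - av X R g x := by
  unfold av
  rw [sum_sub_distrib, sub_div]

theorem av_add (X : Finset α) (R : α → α → Prop) (f g : α → ℝ) (x : α) :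
    av X R (fun y => f y + g y) x = av X R f x + av X R g x := by
  unfold av
  rw [sum_add_distrib, add_div]

theorem av_smul (X : Finset α) (R : α → α → Prop) (c : ℝ) (f : α → ℝ) (x : α) :
    av X R (fun y => c * f y) x = c * av X R f x := by
  unfold av
  rw [← mul_sum, mul_div_assoc]

/-- variance identity -/
theorem av_var {X : Finset α} {R : α → α → Prop} (hR : Equivalence R) (f : α → ℝ) :
    ∑ x ∈ X, (f x - av X R f x) ^ 2 = ∑ x ∈ X, f x ^ 2 - ∑ x ∈ X, f x * av X R f x := by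
  have h1 : ∑ x ∈ X, av X R f x ^ 2 = ∑ x ∈ X, f x * av X R f x := by
    rw [av_symm X hR f f]
    have h2 := av_symm X hR (av X R f) f
    have h3 : ∑ x ∈ X, av X R f x ^ 2 = ∑ x ∈ X, av X R f x * av X R f x :=
      sum_congr rfl fun x _ => by ring
    rw [h3, h2]
    apply sum_congr rfl
    intro x hx
    rw [av_av hR f hx]
  have h4 : ∀ x, (f x - av X R f x) ^ 2 = f x ^ 2 - 2 * (f x * av X R f x) + av X R f x ^ 2 := by
    intro x
    ring
  simp_rw [h4]
  rw [sum_add_distrib, sum_sub_distrib, ← mul_sum, h1]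
  ring

theorem av_sq_le {X : Finset α} {R : α → α → Prop} (hR : Equivalence R) (f : α → ℝ) :
    ∑ x ∈ X, av X R f x ^ 2 ≤ ∑ x ∈ X, f x ^ 2 := by
  have h1 : ∑ x ∈ X, av X R f x ^ 2 = ∑ x ∈ X, f x * av X R f x := by
    rw [av_symm X hR f f]
    have h2 := av_symm X hR (av X R f) f
    have h3 : ∑ x ∈ X, av X R f x ^ 2 = ∑ x ∈ X, av X R f x * av X R f x :=
      sum_congr rfl fun x _ => by ring
    rw [h3, h2]
    apply sum_congr rfl
    intro x hx
    rw [av_av hR f hx]
  have h2 := av_var hR (X := X) f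
  have h3 : 0 ≤ ∑ x ∈ X, (f x - av X R f x) ^ 2 := sum_nonneg fun x _ => sq_nonneg _
  rw [h1]
  linarith

/-! ### the heat-bath chain -/

variable {ι : Type} [Fintype ι]

/-- the heat-bath operator -/
noncomputable def hop (X : Finset α) (R : ι → α → α → Prop) (f : α → ℝ) (x : α) : ℝ :=
  (∑ p, av X (R p) f x) / (Fintype.card ι : ℝ)

/-- transition probabilities of the heat-bath chain: choose a block uniformly and resample -/
noncomputable def hst (X : Finset α) (R : ι → α → α → Prop) (x y : α) : ℝ :=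
  (∑ p, kb X (R p) x y) / (Fintype.card ι : ℝ)

/-- the law after `t` steps -/
noncomputable def hlaw (X : Finset α) (R : ι → α → α → Prop) (x0 : α) : ℕ → α → ℝ
  | 0 => fun y => if y = x0 then 1 else 0
  | t + 1 => fun y => ∑ x ∈ X, hlaw X R x0 t x * hst X R x y

/-- total variation distance to the uniform law -/
noncomputable def htv (X : Finset α) (mu : α → ℝ) : ℝ :=
  (1 / 2) * ∑ x ∈ X, |mu x - 1 / (X.card : ℝ)|

theorem hop_symm (X : Finset α) {R : ι → α → α → Prop} (hR : ∀ p, Equivalence (R p))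
    (f g : α → ℝ) : ∑ x ∈ X, f x * hop X R g x = ∑ x ∈ X, hop X R f x * g x := by
  unfold hop
  have h1 : ∀ x, f x * ((∑ p, av X (R p) g x) / (Fintype.card ι : ℝ))
      = (∑ p, f x * av X (R p) g x) / (Fintype.card ι : ℝ) := by
    intro x
    rw [← mul_sum, mul_div_assoc]
  have h2 : ∀ x, (∑ p, av X (R p) f x) / (Fintype.card ι : ℝ) * g x
      = (∑ p, av X (R p) f x * g x) / (Fintype.card ι : ℝ) := by
    intro x
    rw [← sum_mul]
    ring
  simp_rw [h1, h2]
  rw [← sum_div, ← sum_div]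
  congr 1
  rw [sum_comm]
  rw [sum_comm (s := X)]
  apply sum_congr rfl
  intro p _
  exact av_symm X (hR p) f g

theorem hop_form (X : Finset α) (R : ι → α → α → Prop) (f : α → ℝ) :
    ∑ x ∈ X, f x * hop X R f x
      = (∑ p, ∑ x ∈ X, f x * av X (R p) f x) / (Fintype.card ι : ℝ) := by
  unfold hop
  have h1 : ∀ x, f x * ((∑ p, av X (R p) f x) / (Fintype.card ι : ℝ))
      = (∑ p, f x * av X (R p) f x) / (Fintype.card ι : ℝ) := by
    intro x
    rw [← mul_sum, mul_div_assoc]
  simp_rw [h1]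
  rw [← sum_div, sum_comm]

theorem hop_nonneg (X : Finset α) {R : ι → α → α → Prop} (hR : ∀ p, Equivalence (R p))
    (f : α → ℝ) : 0 ≤ ∑ x ∈ X, f x * hop X R f x := by
  rw [hop_form]
  apply div_nonneg _ (by positivity)
  apply sum_nonneg
  intro p _
  have h1 : ∑ x ∈ X, av X (R p) f x ^ 2 = ∑ x ∈ X, f x * av X (R p) f x := by
    rw [av_symm X (hR p) f f]
    have h2 := av_symm X (hR p) (av X (R p) f) f
    have h3 : ∑ x ∈ X, av X (R p) f x ^ 2 = ∑ x ∈ X, av X (R p) f x * av X (R p) f x :=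
      sum_congr rfl fun x _ => by ring
    rw [h3, h2]
    apply sum_congr rfl
    intro x hx
    rw [av_av (hR p) f hx]
  rw [← h1]
  exact sum_nonneg fun x _ => sq_nonneg _

theorem hop_sum (X : Finset α) {R : ι → α → α → Prop} (hR : ∀ p, Equivalence (R p))
    [Nonempty ι] (f : α → ℝ) : ∑ x ∈ X, hop X R f x = ∑ x ∈ X, f x := by
  unfold hop
  rw [← sum_div, sum_comm]
  simp_rw [fun p => av_sum (hR p) (X := X) f]
  rw [sum_const, card_univ, nsmul_eq_mul]
  have : (Fintype.card ι : ℝ) ≠ 0 := by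
    have := Fintype.card_pos (α := ι)
    positivity
  field_simp

theorem hop_le (X : Finset α) {R : ι → α → α → Prop} (hR : ∀ p, Equivalence (R p))
    [Nonempty ι] (K : ℝ) (hK : 0 < K)
    (hP : ∀ f : α → ℝ, ∑ x ∈ X, f x = 0 →
      ∑ x ∈ X, f x ^ 2 ≤ K * ∑ p, ∑ x ∈ X, (f x - av X (R p) f x) ^ 2)
    (g : α → ℝ) (hg : ∑ x ∈ X, g x = 0) :
    ∑ x ∈ X, g x * hop X R g x
      ≤ (1 - 1 / (K * (Fintype.card ι : ℝ))) * ∑ x ∈ X, g x ^ 2 := by
  have hc : (0 : ℝ) < (Fintype.card ι : ℝ) := by exact_mod_cast Fintype.card_pos (α := ι)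
  have h1 := hP g hg
  have h2 : ∑ p, ∑ x ∈ X, (g x - av X (R p) g x) ^ 2
      = (Fintype.card ι : ℝ) * ∑ x ∈ X, g x ^ 2
        - (Fintype.card ι : ℝ) * ∑ x ∈ X, g x * hop X R g x := by
    simp_rw [fun p => av_var (hR p) (X := X) g]
    rw [sum_sub_distrib, hop_form, sum_const, card_univ, nsmul_eq_mul]
    congr 1
    field_simp
  rw [h2] at h1
  have h3 : (1 / (K * (Fintype.card ι : ℝ))) * ∑ x ∈ X, g x ^ 2
      ≤ (1 / (K * (Fintype.card ι : ℝ))) * (K * ((Fintype.card ι : ℝ) * ∑ x ∈ X, g x ^ 2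
        - (Fintype.card ι : ℝ) * ∑ x ∈ X, g x * hop X R g x)) :=
    mul_le_mul_of_nonneg_left h1 (by positivity)
  have h4 : (1 / (K * (Fintype.card ι : ℝ))) * (K * ((Fintype.card ι : ℝ) * ∑ x ∈ X, g x ^ 2
        - (Fintype.card ι : ℝ) * ∑ x ∈ X, g x * hop X R g x))
      = ∑ x ∈ X, g x ^ 2 - ∑ x ∈ X, g x * hop X R g x := by
    field_simp
  rw [h4] at h3
  linarith

theorem hop_lin (X : Finset α) (R : ι → α → α → Prop) (c : ℝ) (f g : α → ℝ) (x : α) :
    hop X R (fun y => c * f y - g y) x = c * hop X R f x - hop X R g x := by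
  unfold hop
  have h1 : ∀ p, av X (R p) (fun y => c * f y - g y) x
      = c * av X (R p) f x - av X (R p) g x := by
    intro p
    rw [av_sub X (R p) (fun y => c * f y) g x, av_smul]
  simp_rw [h1]
  rw [sum_sub_distrib, ← mul_sum]
  ring

/-- contraction of the heat-bath operator on mean zero functions -/
theorem hop_contr (X : Finset α) {R : ι → α → α → Prop} (hR : ∀ p, Equivalence (R p))
    [Nonempty ι] (K : ℝ) (hK : 1 ≤ K)
    (hP : ∀ f : α → ℝ, ∑ x ∈ X, f x = 0 →
      ∑ x ∈ X, f x ^ 2 ≤ K * ∑ p, ∑ x ∈ X, (f x - av X (R p) f x) ^ 2)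
    (g : α → ℝ) (hg : ∑ x ∈ X, g x = 0) :
    ∑ x ∈ X, hop X R g x ^ 2
      ≤ (1 - 1 / (K * (Fintype.card ι : ℝ))) ^ 2 * ∑ x ∈ X, g x ^ 2 := by
  have hc : (1 : ℝ) ≤ (Fintype.card ι : ℝ) := by exact_mod_cast Fintype.card_pos (α := ι)
  have hKp : 0 < K := by linarith
  set lam : ℝ := 1 - 1 / (K * (Fintype.card ι : ℝ)) with hlam
  have hlnn : 0 ≤ lam := by
    have h1 : 1 ≤ K * (Fintype.card ι : ℝ) := by nlinarith
    have : 1 / (K * (Fintype.card ι : ℝ)) ≤ 1 := by
      rw [div_le_one (by linarith)]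
      exact h1
    rw [hlam]
    linarith
  set h : α → ℝ := hop X R g with hh
  have hsumh : ∑ x ∈ X, h x = 0 := by rw [hh, hop_sum X hR, hg]
  have a2 := hop_le X hR K hKp hP g hg
  have a3 := hop_le X hR K hKp hP h hsumh
  have a4 := hop_symm X hR g h
  rw [← hlam] at a2 a3
  have a6 : ∑ x ∈ X, hop X R g x * h x = ∑ x ∈ X, h x ^ 2 := by
    apply sum_congr rfl
    intro S _
    rw [sq]
  rcases hlnn.eq_or_lt with h0 | hpos
  · -- lam = 0: h = 0 on X
    have b1 : ∑ x ∈ X, g x * h x ≤ 0 := by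
      have : ∑ x ∈ X, g x * h x ≤ lam * ∑ x ∈ X, g x ^ 2 := a2
      rw [← h0] at this
      linarith
    -- use positivity of the form at g - s h with s large
    have b2 : ∑ x ∈ X, h x * hop X R h x ≤ 0 := by
      have : ∑ x ∈ X, h x * hop X R h x ≤ lam * ∑ x ∈ X, h x ^ 2 := a3
      rw [← h0] at this
      linarith
    have b3 : ∀ s : ℝ, 0 ≤ s ^ 2 * (∑ x ∈ X, g x * h x) - 2 * s * (∑ x ∈ X, h x ^ 2)
        + ∑ x ∈ X, h x * hop X R h x := by
      intro s
      have a1 := hop_nonneg X hR (fun y => s * g y - h y)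
      have a5 : ∑ x ∈ X, (s * g x - h x) * hop X R (fun y => s * g y - h y) x
          = s ^ 2 * (∑ x ∈ X, g x * h x) - s * (∑ x ∈ X, g x * hop X R h x)
            - s * (∑ x ∈ X, h x * h x) + ∑ x ∈ X, h x * hop X R h x := by
        rw [mul_sum, mul_sum, mul_sum, ← sum_sub_distrib, ← sum_sub_distrib, ← sum_add_distrib]
        apply sum_congr rfl
        intro x _
        rw [hop_lin]
        have : h x = hop X R g x := rfl
        rw [← this]
        ring
      rw [a5, a4, a6] at a1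
      linarith
    have b4 := b3 1
    have b5 : ∑ x ∈ X, h x ^ 2 ≤ 0 := by nlinarith
    have b6 : 0 ≤ lam ^ 2 * ∑ x ∈ X, g x ^ 2 :=
      mul_nonneg (sq_nonneg _) (sum_nonneg fun x _ => sq_nonneg _)
    linarith
  · have a1 := hop_nonneg X hR (fun y => lam * g y - h y)
    have a5 : ∑ x ∈ X, (lam * g x - h x) * hop X R (fun y => lam * g y - h y) x
        = lam ^ 2 * (∑ x ∈ X, g x * h x) - lam * (∑ x ∈ X, g x * hop X R h x)
          - lam * (∑ x ∈ X, h x * h x) + ∑ x ∈ X, h x * hop X R h x := by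
      rw [mul_sum, mul_sum, mul_sum, ← sum_sub_distrib, ← sum_sub_distrib, ← sum_add_distrib]
      apply sum_congr rfl
      intro x _
      rw [hop_lin]
      have : h x = hop X R g x := rfl
      rw [← this]
      ring
    rw [a5, a4, a6] at a1
    have a8 : lam ^ 2 * ∑ x ∈ X, g x * h x ≤ lam ^ 2 * (lam * ∑ x ∈ X, g x ^ 2) :=
      mul_le_mul_of_nonneg_left a2 (by positivity)
    have a9 : lam * ∑ x ∈ X, h x ^ 2 ≤ lam * (lam ^ 2 * ∑ x ∈ X, g x ^ 2) := by
      have e1 : lam ^ 2 * (lam * ∑ x ∈ X, g x ^ 2)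
          = lam * (lam ^ 2 * ∑ x ∈ X, g x ^ 2) := by ring
      rw [e1] at a8
      linarith
    exact le_of_mul_le_mul_left a9 hpos

theorem hop_congr (X : Finset α) (R : ι → α → α → Prop) {f g : α → ℝ}
    (h : ∀ x ∈ X, f x = g x) (x : α) : hop X R f x = hop X R g x := by
  unfold hop
  congr 1
  apply sum_congr rfl
  intro p _
  exact av_congr h x

theorem hlaw_step (X : Finset α) {R : ι → α → α → Prop} (hR : ∀ p, Equivalence (R p))
    (x0 : α) (t : ℕ) (y : α) : hlaw X R x0 (t + 1) y = hop X R (hlaw X R x0 t) y := by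
  have e1 : hlaw X R x0 (t + 1) y = ∑ x ∈ X, hlaw X R x0 t x * hst X R x y := rfl
  rw [e1]
  unfold hop hst
  have e2 : ∀ x, hlaw X R x0 t x * ((∑ p, kb X (R p) x y) / (Fintype.card ι : ℝ))
      = (∑ p, kb X (R p) y x * hlaw X R x0 t x) / (Fintype.card ι : ℝ) := by
    intro x
    rw [← sum_mul, mul_comm, div_mul_eq_mul_div]
    congr 2
    apply sum_congr rfl
    intro p _
    exact kb_symm X (hR p) x y
  simp_rw [e2]
  rw [← sum_div, sum_comm]
  congr 1
  apply sum_congr rfl
  intro p _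
  rw [av_eq]

/-- Mixing of the heat-bath chain from the Poincare inequality. -/
theorem hb_mix (X : Finset α) {R : ι → α → α → Prop} (hR : ∀ p, Equivalence (R p))
    [Nonempty ι] (K : ℝ) (hK : 1 ≤ K)
    (hP : ∀ f : α → ℝ, ∑ x ∈ X, f x = 0 →
      ∑ x ∈ X, f x ^ 2 ≤ K * ∑ p, ∑ x ∈ X, (f x - av X (R p) f x) ^ 2)
    (x0 : α) (hx0 : x0 ∈ X) (eps : ℝ) (he : 0 < eps) (t : ℕ)
    (ht : K * (Fintype.card ι : ℝ) * ((1 / 2) * Real.log (X.card : ℝ) + Real.log (1 / eps)) ≤ t) :
    htv X (hlaw X R x0 t) ≤ eps := by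
  have hc : (1 : ℝ) ≤ (Fintype.card ι : ℝ) := by exact_mod_cast Fintype.card_pos (α := ι)
  have hXpos : (0 : ℝ) < X.card := by exact_mod_cast card_pos.2 ⟨x0, hx0⟩
  have hKc : 1 ≤ K * (Fintype.card ι : ℝ) := by nlinarith
  set lam : ℝ := 1 - 1 / (K * (Fintype.card ι : ℝ)) with hlam
  have hlnn : 0 ≤ lam := by
    have : 1 / (K * (Fintype.card ι : ℝ)) ≤ 1 := by
      rw [div_le_one (by linarith)]
      exact hKc
    rw [hlam]
    linarith
  set g : ℕ → α → ℝ := fun n y => hlaw X R x0 n y - 1 / (X.card : ℝ) with hg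
  have hgstep : ∀ n, ∀ y ∈ X, g (n + 1) y = hop X R (g n) y := by
    intro n y hy
    rw [hg]
    simp only
    rw [hlaw_step X hR]
    unfold hop
    have e1 : ∀ p, av X (R p) (fun y => hlaw X R x0 n y - 1 / (X.card : ℝ)) y
        = av X (R p) (hlaw X R x0 n) y - 1 / (X.card : ℝ) := by
      intro p
      rw [av_sub X (R p) (hlaw X R x0 n) (fun _ => 1 / (X.card : ℝ)) y, av_one (hR p) hy]
    simp_rw [e1]
    rw [sum_sub_distrib, sum_const, card_univ, nsmul_eq_mul, sub_div]
    congr 1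
    field_simp
  have hmain : ∀ n, ∑ y ∈ X, g n y = 0 ∧ ∑ y ∈ X, g n y ^ 2 ≤ lam ^ (2 * n) := by
    intro n
    induction n with
    | zero =>
      have e0 : ∀ S, hlaw X R x0 0 S = if S = x0 then (1 : ℝ) else 0 := fun S => rfl
      have e1 : ∑ S ∈ X, hlaw X R x0 0 S = 1 := by
        simp_rw [e0]
        rw [sum_ite_eq', if_pos hx0]
      have e2 : ∑ S ∈ X, g 0 S = 0 := by
        rw [hg]
        simp only
        rw [sum_sub_distrib, e1, sum_const, nsmul_eq_mul, mul_one_div_cancel hXpos.ne', sub_self]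
      refine ⟨e2, ?_⟩
      rw [mul_zero, pow_zero]
      have e4 : ∀ S, g 0 S ^ 2 = hlaw X R x0 0 S - (2 / (X.card : ℝ)) * hlaw X R x0 0 S
          + 1 / (X.card : ℝ) ^ 2 := by
        intro S
        rw [hg]
        simp only
        rw [e0]
        split_ifs
        · field_simp
          ring
        · field_simp
          ring
      simp_rw [e4]
      rw [sum_add_distrib, sum_sub_distrib, ← mul_sum, e1, sum_const, nsmul_eq_mul]
      have e5 : (X.card : ℝ) * (1 / (X.card : ℝ) ^ 2) = 1 / (X.card : ℝ) := by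
        field_simp
      rw [e5]
      have : 0 < 1 / (X.card : ℝ) := by positivity
      have e6 : 2 / (X.card : ℝ) = 2 * (1 / (X.card : ℝ)) := by ring
      rw [e6]
      linarith
    | succ n ih =>
      have e1 : ∑ y ∈ X, g (n + 1) y = ∑ y ∈ X, hop X R (g n) y :=
        sum_congr rfl fun S hS => hgstep n S hS
      have e2 : ∑ y ∈ X, g (n + 1) y ^ 2 = ∑ y ∈ X, hop X R (g n) y ^ 2 :=
        sum_congr rfl fun S hS => by rw [hgstep n S hS]
      refine ⟨?_, ?_⟩
      · rw [e1, hop_sum X hR, ih.1]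
      · rw [e2]
        refine (hop_contr X hR K hK hP (g n) ih.1).trans ?_
        rw [← hlam]
        have : lam ^ (2 * (n + 1)) = lam ^ 2 * lam ^ (2 * n) := by
          rw [← pow_add]
          congr 1
          ring
        rw [this]
        exact mul_le_mul_of_nonneg_left ih.2 (sq_nonneg _)
  -- Cauchy-Schwarz
  have hcs : (∑ y ∈ X, |g t y|) ^ 2 ≤ (X.card : ℝ) * ∑ y ∈ X, g t y ^ 2 := by
    have := sq_sum_le_card_mul_sum_sq (s := X) (f := fun y => |g t y|)
    simpa only [sq_abs] using this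
  have h2 : (∑ y ∈ X, |g t y|) ^ 2 ≤ (X.card : ℝ) * (lam ^ t) ^ 2 := by
    refine hcs.trans ?_
    have := (hmain t).2
    rw [show (lam ^ t) ^ 2 = lam ^ (2 * t) by rw [← pow_mul, mul_comm]]
    exact mul_le_mul_of_nonneg_left this hXpos.le
  have hexp : lam ≤ Real.exp (-(1 / (K * (Fintype.card ι : ℝ)))) := by
    have := Real.add_one_le_exp (-(1 / (K * (Fintype.card ι : ℝ))))
    rw [hlam]
    linarith
  have h3 : lam ^ t ≤ Real.exp (-((t : ℝ) / (K * (Fintype.card ι : ℝ)))) := by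
    calc lam ^ t ≤ Real.exp (-(1 / (K * (Fintype.card ι : ℝ)))) ^ t :=
          pow_le_pow_left₀ hlnn hexp t
      _ = Real.exp ((t : ℝ) * (-(1 / (K * (Fintype.card ι : ℝ))))) := by
          rw [← Real.exp_nat_mul]
      _ = _ := by
          congr 1
          ring
  have h4 : (1 / 2) * Real.log (X.card : ℝ) + Real.log (1 / eps)
      ≤ (t : ℝ) / (K * (Fintype.card ι : ℝ)) := by
    rw [le_div_iff₀ (by linarith)]
    linarith
  have h5 : lam ^ t ≤ Real.exp (-((1 / 2) * Real.log (X.card : ℝ) + Real.log (1 / eps))) :=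
    h3.trans (Real.exp_le_exp.2 (by linarith))
  have h6 : Real.exp (-((1 / 2) * Real.log (X.card : ℝ) + Real.log (1 / eps)))
      = eps / Real.sqrt (X.card : ℝ) := by
    rw [neg_add, Real.exp_add, Real.log_div one_ne_zero he.ne', Real.log_one, zero_sub, neg_neg,
      Real.exp_log he, show -(1 / 2 * Real.log (X.card : ℝ)) = -(Real.log (X.card : ℝ) / 2) by ring,
      ← Real.log_sqrt hXpos.le, Real.exp_neg, Real.exp_log (Real.sqrt_pos.2 hXpos)]
    ring
  rw [h6] at h5
  have hsq : 0 < Real.sqrt (X.card : ℝ) := Real.sqrt_pos.2 hXpos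
  have h7 : (∑ y ∈ X, |g t y|) ^ 2 ≤ eps ^ 2 := by
    refine h2.trans ?_
    calc (X.card : ℝ) * (lam ^ t) ^ 2 ≤ (X.card : ℝ) * (eps / Real.sqrt (X.card : ℝ)) ^ 2 :=
          mul_le_mul_of_nonneg_left (pow_le_pow_left₀ (pow_nonneg hlnn t) h5 2) hXpos.le
      _ = eps ^ 2 := by
          rw [div_pow, Real.sq_sqrt hXpos.le]
          field_simp
  have h8 : ∑ y ∈ X, |g t y| ≤ eps := abs_le_of_sq_le_sq' h7 he.le |>.2
  have h9 : 0 ≤ ∑ y ∈ X, |g t y| := sum_nonneg fun _ _ => abs_nonneg _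
  unfold htv
  show (1 / 2) * ∑ y ∈ X, |g t y| ≤ eps
  linarith

end CT2
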