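import Mathlib

/-!
# P328: contingency tables and the 2×2 heat-bath chain (definitions for the statement)
-/

namespace CTHeat2

open Finset
open scoped Classical

/-- `T` is a contingency table with row sums `r` and column sums `c`. -/
def IsTable {m n : ℕ} (r : Fin m → ℕ) (c : Fin n → ℕ) (T : Fin m → Fin n → ℕ) : Prop :=
  (∀ i, ∑ j, T i j = r i) ∧ (∀ j, ∑ i, T i j = c j)

/-- The finite set `Ω(r,c)` of all contingency tables with these margins (every entry of a table
in column `j` is at most `c j`, so no table is lost; see `mem_tables`). -/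
noncomputable def tables {m n : ℕ} (r : Fin m → ℕ) (c : Fin n → ℕ) :
    Finset (Fin m → Fin n → ℕ) :=
  (Fintype.piFinset fun _ : Fin m => Fintype.piFinset fun j : Fin n => range (c j + 1)).filter
    (IsTable r c)

theorem mem_tables {m n : ℕ} {r : Fin m → ℕ} {c : Fin n → ℕ} {T : Fin m → Fin n → ℕ} :
    T ∈ tables r c ↔ IsTable r c T := by
  unfold tables
  rw [mem_filter]
  refine ⟨fun h => h.2, fun h => ⟨?_, h⟩⟩
  rw [Fintype.mem_piFinset]
  intro i
  rw [Fintype.mem_piFinset]
  intro j
  rw [mem_range, Nat.lt_succ_iff, ← h.2 j]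
  exact single_le_sum (f := fun i => T i j) (fun _ _ => Nat.zero_le _) (mem_univ i)

/-- Put `u` at `(i,a)` and change the entries at `(i,b)`, `(j,a)`, `(j,b)` so that the row and
column sums are kept (for `u` in `values T i j a b` no subtraction is truncated). -/
def step {m n : ℕ} (T : Fin m → Fin n → ℕ) (i j : Fin m) (a b : Fin n) (u : ℕ) :
    Fin m → Fin n → ℕ := fun l s =>
  if l = i ∧ s = a then u
  else if l = i ∧ s = b then T i a + T i b - u
  else if l = j ∧ s = a then T i a + T j a - u
  else if l = j ∧ s = b then T j b + u - T i a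
  else T l s

/-- The values of `u` for which the four new entries are nonnegative: the integers from
`max(0, T i a - T j b)` to `T i a + min(T i b, T j a)`. -/
def values {m n : ℕ} (T : Fin m → Fin n → ℕ) (i j : Fin m) (a b : Fin n) : Finset ℕ :=
  Finset.Icc (T i a - T j b) (T i a + min (T i b) (T j a))

/-- Transition probability of the 2×2 heat-bath chain from `T` to `S`: choose rows `i, j` and
columns `a, b`, uniformly and independently with repetition; if `i ≠ j` and `a ≠ b`, choose `u`
uniformly in the interval `values T i j a b` and go to `step T i j a b u`; otherwise stay. -/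
noncomputable def trans {m n : ℕ} (T S : Fin m → Fin n → ℕ) : ℝ :=
  (∑ i : Fin m, ∑ j : Fin m, ∑ a : Fin n, ∑ b : Fin n,
    if i ≠ j ∧ a ≠ b then
      (((values T i j a b).filter fun u => step T i j a b u = S).card : ℝ)
        / ((values T i j a b).card : ℝ)
    else if S = T then 1 else 0) / ((m : ℝ) ^ 2 * (n : ℝ) ^ 2)

/-- The law of the chain after `t` steps, started from the table `T₀`. -/
noncomputable def law {m n : ℕ} (r : Fin m → ℕ) (c : Fin n → ℕ) (T₀ : Fin m → Fin n → ℕ) :
    ℕ → (Fin m → Fin n → ℕ) → ℝ
  | 0 => fun S => if S = T₀ then 1 else 0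
  | t + 1 => fun S => ∑ T ∈ tables r c, law r c T₀ t T * trans T S

/-- Total variation distance between `mu` and the uniform law on `Ω(r,c)`. -/
noncomputable def tvUnif {m n : ℕ} (r : Fin m → ℕ) (c : Fin n → ℕ)
    (mu : (Fin m → Fin n → ℕ) → ℝ) : ℝ :=
  (1 / 2) * ∑ T ∈ tables r c, |mu T - 1 / ((tables r c).card : ℝ)|

end CTHeat2
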