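import Mathlib

/-!
# P328: contingency tables and the 3×3 heat-bath chain (definitions for the statement)
-/

namespace CTHeat

open Finset
open scoped Classical

/-- `T` is a contingency table with row sums `r` and column sums `c`. -/
def IsTable {m n : ℕ} (r : Fin m → ℕ) (c : Fin n → ℕ) (T : Fin m → Fin n → ℕ) : Prop :=
  (∀ i, ∑ j, T i j = r i) ∧ (∀ j, ∑ i, T i j = c j)

/-- The finite set `Ω(r,c)` of all contingency tables with these margins (every entry of a table
in column `j` is at most `c j`, so no table is lost; see `mem_tables`). -/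
noncomputable def tables {m n : ℕ} (r : Fin m → ℕ) (c : Fin n → ℕ) :
    Finset (Fin m → Fin n → ℕ) :=
  (Fintype.piFinset fun _ : Fin m => Fintype.piFinset fun j : Fin n => range (c j + 1)).filter
    (IsTable r c)

theorem mem_tables {m n : ℕ} {r : Fin m → ℕ} {c : Fin n → ℕ} {T : Fin m → Fin n → ℕ} :
    T ∈ tables r c ↔ IsTable r c T := by
  unfold tables
  rw [mem_filter]
  refine ⟨fun h => h.2, fun h => ⟨?_, h⟩⟩
  rw [Fintype.mem_piFinset]
  intro i
  rw [Fintype.mem_piFinset]
  intro j
  rw [mem_range, Nat.lt_succ_iff, ← h.2 j]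
  exact single_le_sum (f := fun i => T i j) (fun _ _ => Nat.zero_le _) (mem_univ i)

/-- The cell `(l, s)` lies in one of the rows `p.1, p.2.1, p.2.2` and in one of the columns
`q.1, q.2.1, q.2.2`. -/
def InBlock {m n : ℕ} (p : Fin m × Fin m × Fin m) (q : Fin n × Fin n × Fin n)
    (l : Fin m) (s : Fin n) : Prop :=
  (l = p.1 ∨ l = p.2.1 ∨ l = p.2.2) ∧ (s = q.1 ∨ s = q.2.1 ∨ s = q.2.2)

/-- All tables with margins `r, c` that agree with `T` outside the block `p, q`: the ways to
replace this subtable of `T` (at most 3×3) by one with the same margins. -/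
noncomputable def fibre {m n : ℕ} (r : Fin m → ℕ) (c : Fin n → ℕ) (p : Fin m × Fin m × Fin m)
    (q : Fin n × Fin n × Fin n) (T : Fin m → Fin n → ℕ) : Finset (Fin m → Fin n → ℕ) :=
  (tables r c).filter fun S => ∀ l s, ¬ InBlock p q l s → S l s = T l s

/-- Transition probability of the 3×3 heat-bath chain from `T` to `S`: choose three rows `p` and
three columns `q`, uniformly and independently with repetition, and replace `T` by a uniformly
random element of `fibre r c p q T`. -/
noncomputable def trans {m n : ℕ} (r : Fin m → ℕ) (c : Fin n → ℕ) (T S : Fin m → Fin n → ℕ) : ℝ :=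
  (∑ p : Fin m × Fin m × Fin m, ∑ q : Fin n × Fin n × Fin n,
    if S ∈ fibre r c p q T then 1 / ((fibre r c p q T).card : ℝ) else 0) /
      ((m : ℝ) ^ 3 * (n : ℝ) ^ 3)

/-- The law of the chain after `t` steps, started from the table `T₀`. -/
noncomputable def law {m n : ℕ} (r : Fin m → ℕ) (c : Fin n → ℕ) (T₀ : Fin m → Fin n → ℕ) :
    ℕ → (Fin m → Fin n → ℕ) → ℝ
  | 0 => fun S => if S = T₀ then 1 else 0
  | t + 1 => fun S => ∑ T ∈ tables r c, law r c T₀ t T * trans r c T S

/-- Total variation distance between `mu` and the uniform law on `Ω(r,c)`. -/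
noncomputable def tvUnif {m n : ℕ} (r : Fin m → ℕ) (c : Fin n → ℕ)
    (mu : (Fin m → Fin n → ℕ) → ℝ) : ℝ :=
  (1 / 2) * ∑ T ∈ tables r c, |mu T - 1 / ((tables r c).card : ℝ)|

end CTHeat
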