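import Vale.Agent.CT2.Heat2
import Vale.Agent.CT2.HB
import Vale.Agent.CT.Mix
import Vale.Agent.CT.BDefs

/-! # P328: mixing of the 2x2 heat-bath chain from its Poincare inequality -/

namespace CTHeat2

open Finset
open scoped Classical

theorem hlaw_zero2 {α ι : Type} [Fintype ι] (X : Finset α) (R : ι → α → α → Prop) (x0 y : α) :
    CT2.hlaw X R x0 0 y = (if y = x0 then 1 else 0) := rfl

theorem hlaw_succ2 {α ι : Type} [Fintype ι] (X : Finset α) (R : ι → α → α → Prop) (x0 y : α)
    (t : ℕ) : CT2.hlaw X R x0 (t + 1) y = ∑ x ∈ X, CT2.hlaw X R x0 t x * CT2.hst X R x y := rfl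

variable {m n : ℕ}

theorem law_zero2 (r : Fin m → ℕ) (c : Fin n → ℕ) (T₀ S : Fin m → Fin n → ℕ) :
    law r c T₀ 0 S = (if S = T₀ then 1 else 0) := rfl

theorem law_succ2 (r : Fin m → ℕ) (c : Fin n → ℕ) (T₀ S : Fin m → Fin n → ℕ) (t : ℕ) :
    law r c T₀ (t + 1) S = ∑ T ∈ tables r c, law r c T₀ t T * trans T S := rfl

/-- the blocks -/
abbrev Blk (m n : ℕ) : Type := (Fin m × Fin m) × (Fin n × Fin n)

/-- agreement outside a block -/
def RR (q : Blk m n) (T S : Fin m → Fin n → ℕ) : Prop :=
  ∀ l s, ¬ ((l = q.1.1 ∨ l = q.1.2) ∧ (s = q.2.1 ∨ s = q.2.2)) → S l s = T l s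

theorem RR_equiv (q : Blk m n) : Equivalence (RR q) := by
  refine ⟨fun T l j _ => rfl, fun h l j hl => (h l j hl).symm, fun h1 h2 l j hl => ?_⟩
  rw [h2 l j hl, h1 l j hl]

theorem mem_fib2 {I J : Type} [Fintype I] [DecidableEq I] [Fintype J] [DecidableEq J]
    {r : I → ℕ} {c : J → ℕ} {B : Finset (I × J)} {T S : I → J → ℕ} :
    S ∈ CT.fib r c B T ↔ S ∈ CT.TT r c ∧ ∀ i j, (i, j) ∉ B → S i j = T i j := by
  unfold CT.fib
  exact Finset.mem_filter

theorem card_Blk : (Fintype.card (Blk m n) : ℝ) = (m : ℝ) ^ 2 * (n : ℝ) ^ 2 := by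
  rw [Fintype.card_prod, Fintype.card_prod, Fintype.card_prod, Fintype.card_fin, Fintype.card_fin]
  push_cast
  ring

theorem sum_two {ι : Type} [Fintype ι] [DecidableEq ι] (f g : ι → ℕ) (a b : ι) (hab : a ≠ b)
    (h : ∀ s, s ≠ a → s ≠ b → f s = g s) :
    ∑ s, f s = ∑ s, g s ↔ f a + f b = g a + g b := by
  have hb : b ∈ (univ : Finset ι).erase a := Finset.mem_erase.2 ⟨Ne.symm hab, mem_univ b⟩
  rw [← Finset.add_sum_erase _ f (mem_univ a), ← Finset.add_sum_erase _ g (mem_univ a),
    ← Finset.add_sum_erase _ f hb, ← Finset.add_sum_erase _ g hb]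
  have e : ∑ x ∈ ((univ : Finset ι).erase a).erase b, f x
      = ∑ x ∈ ((univ : Finset ι).erase a).erase b, g x := by
    refine Finset.sum_congr rfl fun s hs => ?_
    rw [Finset.mem_erase, Finset.mem_erase] at hs
    exact h s hs.2.1 hs.1
  omega

theorem sum_one {ι : Type} [Fintype ι] [DecidableEq ι] (f g : ι → ℕ) (a : ι)
    (h : ∀ s, s ≠ a → f s = g s) (hs : ∑ s, f s = ∑ s, g s) : f a = g a := by
  rw [← Finset.add_sum_erase _ f (mem_univ a), ← Finset.add_sum_erase _ g (mem_univ a)] at hs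
  have e : ∑ x ∈ (univ : Finset ι).erase a, f x = ∑ x ∈ (univ : Finset ι).erase a, g x := by
    refine Finset.sum_congr rfl fun s hs => ?_
    exact h s (Finset.ne_of_mem_erase hs)
  omega

section
variable {r : Fin m → ℕ} {c : Fin n → ℕ} {T S : Fin m → Fin n → ℕ} {i j : Fin m} {a b : Fin n}

theorem class_distinct (hT : IsTable r c T) (hij : i ≠ j) (hab : a ≠ b) :
    (IsTable r c S ∧ RR ((i, j), (a, b)) T S)
      ↔ (S i a ∈ values T i j a b ∧ step T i j a b (S i a) = S) := by
  constructor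
  · rintro ⟨hS, hR⟩
    have hR' : ∀ l s, ¬ ((l = i ∨ l = j) ∧ (s = a ∨ s = b)) → S l s = T l s := hR
    have h1 : S i a + S i b = T i a + T i b := by
      refine (sum_two (fun s => S i s) (fun s => T i s) a b hab fun s h1 h2 => ?_).1 ?_
      · exact hR' i s (fun h => by rcases h.2 with h | h <;> contradiction)
      · rw [hS.1 i, hT.1 i]
    have h2 : S j a + S j b = T j a + T j b := by
      refine (sum_two (fun s => S j s) (fun s => T j s) a b hab fun s h1 h2 => ?_).1 ?_
      · exact hR' j s (fun h => by rcases h.2 with h | h <;> contradiction)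
      · rw [hS.1 j, hT.1 j]
    have h3 : S i a + S j a = T i a + T j a := by
      refine (sum_two (fun l => S l a) (fun l => T l a) i j hij fun l h1 h2 => ?_).1 ?_
      · exact hR' l a (fun h => by rcases h.1 with h | h <;> contradiction)
      · rw [hS.2 a, hT.2 a]
    have h4 : S i b + S j b = T i b + T j b := by
      refine (sum_two (fun l => S l b) (fun l => T l b) i j hij fun l h1 h2 => ?_).1 ?_
      · exact hR' l b (fun h => by rcases h.1 with h | h <;> contradiction)
      · rw [hS.2 b, hT.2 b]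
    refine ⟨?_, ?_⟩
    · unfold values
      rw [Finset.mem_Icc]
      omega
    · funext l s
      unfold step
      split_ifs with g1 g2 g3 g4
      · rw [g1.1, g1.2]
      · rw [g2.1, g2.2]
        omega
      · rw [g3.1, g3.2]
        omega
      · rw [g4.1, g4.2]
        omega
      · exact (hR' l s (fun h => by
          rcases h with ⟨h5 | h5, h6 | h6⟩
          · exact g1 ⟨h5, h6⟩
          · exact g2 ⟨h5, h6⟩
          · exact g3 ⟨h5, h6⟩
          · exact g4 ⟨h5, h6⟩)).symm
  · rintro ⟨hu, hst⟩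
    have hji := Ne.symm hij
    have hba := Ne.symm hab
    unfold values at hu
    rw [Finset.mem_Icc] at hu
    have eib : S i b = T i a + T i b - S i a := by
      conv_lhs => rw [← hst]
      simp [step, hba]
    have eja : S j a = T i a + T j a - S i a := by
      conv_lhs => rw [← hst]
      simp [step, hji]
    have ejb : S j b = T j b + S i a - T i a := by
      conv_lhs => rw [← hst]
      simp [step, hji, hba]
    have eout : ∀ l s, ¬ ((l = i ∨ l = j) ∧ (s = a ∨ s = b)) → S l s = T l s := by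
      intro l s h
      conv_lhs => rw [← hst]
      unfold step
      rw [if_neg, if_neg, if_neg, if_neg]
      · exact fun g => h ⟨Or.inr g.1, Or.inr g.2⟩
      · exact fun g => h ⟨Or.inr g.1, Or.inl g.2⟩
      · exact fun g => h ⟨Or.inl g.1, Or.inr g.2⟩
      · exact fun g => h ⟨Or.inl g.1, Or.inl g.2⟩
    refine ⟨⟨fun l => ?_, fun s => ?_⟩, eout⟩
    · rw [← hT.1 l]
      by_cases hl : l = i ∨ l = j
      · refine (sum_two (fun s => S l s) (fun s => T l s) a b hab fun s h1 h2 => ?_).2 ?_
        · exact eout l s (fun h => by rcases h.2 with h | h <;> contradiction)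
        · rcases hl with hl | hl
          · subst hl
            show S l a + S l b = T l a + T l b
            omega
          · subst hl
            show S l a + S l b = T l a + T l b
            omega
      · exact Finset.sum_congr rfl fun s _ => eout l s (fun h => hl h.1)
    · rw [← hT.2 s]
      by_cases hs : s = a ∨ s = b
      · refine (sum_two (fun l => S l s) (fun l => T l s) i j hij fun l h1 h2 => ?_).2 ?_
        · exact eout l s (fun h => by rcases h.1 with h | h <;> contradiction)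
        · rcases hs with hs | hs
          · subst hs
            show S i s + S j s = T i s + T j s
            omega
          · subst hs
            show S i s + S j s = T i s + T j s
            omega
      · exact Finset.sum_congr rfl fun l _ => eout l s (fun h => hs h.2)

theorem class_same (hT : IsTable r c T) (h : ¬ (i ≠ j ∧ a ≠ b)) :
    (IsTable r c S ∧ RR ((i, j), (a, b)) T S) ↔ S = T := by
  constructor
  · rintro ⟨hS, hR⟩
    have hR' : ∀ l s, ¬ ((l = i ∨ l = j) ∧ (s = a ∨ s = b)) → S l s = T l s := hR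
    funext l s
    by_cases hls : (l = i ∨ l = j) ∧ (s = a ∨ s = b)
    · by_cases hij : i = j
      · -- only row `i`: use column sums
        subst hij
        have hl : l = i := by simpa using hls.1
        subst hl
        refine sum_one (fun l' => S l' s) (fun l' => T l' s) l (fun l' hl' => ?_) ?_
        · exact hR' l' s (fun g => by
            rcases g.1 with g | g <;> exact hl' g)
        · rw [hS.2 s, hT.2 s]
      · have hab : a = b := by
          by_contra hne
          exact h ⟨hij, hne⟩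
        subst hab
        have hs : s = a := by simpa using hls.2
        subst hs
        refine sum_one (fun s' => S l s') (fun s' => T l s') s (fun s' hs' => ?_) ?_
        · exact hR' l s' (fun g => by
            rcases g.2 with g | g <;> exact hs' g)
        · rw [hS.1 l, hT.1 l]
    · exact hR' l s hls
  · rintro rfl
    exact ⟨hT, fun _ _ _ => rfl⟩

end

theorem step_ia (T : Fin m → Fin n → ℕ) (i j : Fin m) (a b : Fin n) (u : ℕ) :
    step T i j a b u i a = u := by simp [step]

theorem class_eq {r : Fin m → ℕ} {c : Fin n → ℕ} {T : Fin m → Fin n → ℕ} {i j : Fin m}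
    {a b : Fin n} (hT : IsTable r c T) (hij : i ≠ j) (hab : a ≠ b) :
    (tables r c).filter (fun z => RR ((i, j), (a, b)) T z)
      = (values T i j a b).image (step T i j a b) := by
  ext S
  rw [Finset.mem_filter, mem_tables, class_distinct hT hij hab, Finset.mem_image]
  constructor
  · rintro ⟨h1, h2⟩
    exact ⟨S i a, h1, h2⟩
  · rintro ⟨u, h1, h2⟩
    have h3 : S i a = u := by rw [← h2, step_ia]
    rw [h3]
    exact ⟨h1, h2⟩

theorem kb_eq {r : Fin m → ℕ} {c : Fin n → ℕ} {T S : Fin m → Fin n → ℕ}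
    (hT : T ∈ tables r c) (hS : S ∈ tables r c) (i j : Fin m) (a b : Fin n) :
    (if i ≠ j ∧ a ≠ b then
      (((values T i j a b).filter fun u => step T i j a b u = S).card : ℝ)
        / ((values T i j a b).card : ℝ)
    else if S = T then 1 else 0) = CT2.kb (tables r c) (RR ((i, j), (a, b))) T S := by
  rw [mem_tables] at hT hS
  unfold CT2.kb
  by_cases h : i ≠ j ∧ a ≠ b
  · rw [if_pos h]
    have hcl := class_eq hT h.1 h.2
    have hinj : Set.InjOn (step T i j a b) (values T i j a b) := by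
      intro u _ u' _ huu
      have := congrFun (congrFun huu i) a
      rwa [step_ia, step_ia] at this
    have hcard : ((tables r c).filter (fun z => RR ((i, j), (a, b)) T z)).card
        = (values T i j a b).card := by
      rw [hcl, Finset.card_image_of_injOn hinj]
    rw [hcard]
    split_ifs with hR
    · have h1 := (class_distinct hT h.1 h.2).1 ⟨hS, hR⟩
      have h2 : (values T i j a b).filter (fun u => step T i j a b u = S) = {S i a} := by
        ext u
        rw [Finset.mem_filter, Finset.mem_singleton]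
        constructor
        · rintro ⟨_, h3⟩
          rw [← h3, step_ia]
        · rintro rfl
          exact h1
      rw [h2, Finset.card_singleton]
      push_cast
      rfl
    · have h2 : (values T i j a b).filter (fun u => step T i j a b u = S) = ∅ := by
        rw [Finset.filter_eq_empty_iff]
        intro u hu hst
        apply hR
        have h3 : S i a = u := by rw [← hst, step_ia]
        exact ((class_distinct hT h.1 h.2).2 ⟨by rw [h3]; exact hu, by rw [h3]; exact hst⟩).2
      rw [h2, Finset.card_empty]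
      simp
  · rw [if_neg h]
    have hcl : (tables r c).filter (fun z => RR ((i, j), (a, b)) T z) = {T} := by
      ext z
      rw [Finset.mem_filter, mem_tables, class_same hT h, Finset.mem_singleton]
    rw [hcl, Finset.card_singleton]
    have hiff : RR ((i, j), (a, b)) T S ↔ S = T := by
      rw [← class_same (S := S) hT h]
      exact ⟨fun g => ⟨hS, g⟩, fun g => g.2⟩
    by_cases hST : S = T
    · rw [if_pos hST, if_pos (hiff.2 hST)]
      simp
    · rw [if_neg hST, if_neg (fun g => hST (hiff.1 g))]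

theorem trans_eq {r : Fin m → ℕ} {c : Fin n → ℕ} {T S : Fin m → Fin n → ℕ}
    (hT : T ∈ tables r c) (hS : S ∈ tables r c) : trans T S = CT2.hst (tables r c) RR T S := by
  unfold trans CT2.hst
  rw [card_Blk, Fintype.sum_prod_type, Fintype.sum_prod_type]
  congr 1
  refine Finset.sum_congr rfl fun i _ => Finset.sum_congr rfl fun j _ => ?_
  rw [Fintype.sum_prod_type]
  refine Finset.sum_congr rfl fun a _ => Finset.sum_congr rfl fun b _ => ?_
  exact kb_eq hT hS i j a b

theorem law_eq (r : Fin m → ℕ) (c : Fin n → ℕ) (T₀ : Fin m → Fin n → ℕ) (t : ℕ) :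
    ∀ S ∈ tables r c, law r c T₀ t S = CT2.hlaw (tables r c) RR T₀ t S := by
  induction t with
  | zero =>
    intro S _
    rw [law_zero2, hlaw_zero2]
    split_ifs <;> rfl
  | succ t ih =>
    intro S hS
    rw [law_succ2, hlaw_succ2]
    refine Finset.sum_congr rfl fun T hT => ?_
    rw [ih T hT, trans_eq hT hS]

theorem tv_eq (r : Fin m → ℕ) (c : Fin n → ℕ) (T₀ : Fin m → Fin n → ℕ) (t : ℕ) :
    tvUnif r c (law r c T₀ t) = CT2.htv (tables r c) (CT2.hlaw (tables r c) RR T₀ t) := by
  unfold tvUnif CT2.htv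
  congr 1
  exact Finset.sum_congr rfl fun T hT => by rw [law_eq r c T₀ t T hT]

theorem card_tables_le (r : Fin m → ℕ) (c : Fin n → ℕ) (N : ℕ) (hc : ∑ j, c j = N) :
    ((tables r c).card : ℝ) ≤ ((N : ℝ) + 1) ^ (m * n) := by
  have h1 : (tables r c).card ≤ (N + 1) ^ (m * n) := by
    unfold tables
    refine (card_filter_le _ _).trans ?_
    rw [Fintype.card_piFinset, prod_const, Fintype.card_piFinset, card_univ, Fintype.card_fin]
    have h2 : ∏ j : Fin n, (range (c j + 1)).card ≤ (N + 1) ^ n := by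
      calc ∏ j : Fin n, (range (c j + 1)).card ≤ ∏ _j : Fin n, (N + 1) := by
            apply prod_le_prod'
            intro j _
            rw [card_range, ← hc]
            have := single_le_sum (f := c) (fun _ _ => Nat.zero_le _) (mem_univ j)
            omega
        _ = (N + 1) ^ n := by rw [prod_const, card_univ, Fintype.card_fin]
    calc (∏ j : Fin n, (range (c j + 1)).card) ^ m ≤ ((N + 1) ^ n) ^ m :=
          Nat.pow_le_pow_left h2 m
      _ = (N + 1) ^ (m * n) := by rw [← pow_mul, mul_comm]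
  exact_mod_cast h1

theorem tables_eq_TT (r : Fin m → ℕ) (c : Fin n → ℕ) : tables r c = CT.TT r c := by
  ext T
  rw [mem_tables, CT.mem_TT]
  unfold IsTable CT.sz
  refine and_congr Iff.rfl ?_
  constructor
  · intro h
    funext j
    rw [Finset.sum_apply]
    exact h j
  · intro h j
    have := congrFun h j
    rw [Finset.sum_apply] at this
    exact this

/-- the block variance of `BDefs` is the one of `HB` -/
theorem VV_eq (r : Fin m → ℕ) (c : Fin n → ℕ) (f : (Fin m → Fin n → ℕ) → ℝ)
    (i j : Fin m) (a b : Fin n) :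
    CT.VV r c (({i, j} : Finset (Fin m)) ×ˢ ({a, b} : Finset (Fin n))) f
      = ∑ x ∈ tables r c, (f x - CT2.av (tables r c) (RR ((i, j), (a, b))) f x) ^ 2 := by
  unfold CT.VV CT.CE CT2.av
  rw [tables_eq_TT]
  refine Finset.sum_congr rfl fun T _ => ?_
  have e : CT.fib r c (({i, j} : Finset (Fin m)) ×ˢ ({a, b} : Finset (Fin n))) T
      = (CT.TT r c).filter (fun y => RR ((i, j), (a, b)) T y) := by
    ext S
    rw [mem_fib2, Finset.mem_filter]
    refine and_congr Iff.rfl ?_
    unfold RR
    simp only [mem_product, mem_insert, mem_singleton]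
  rw [e]

/-- mixing time of the 2x2 heat-bath chain from its Poincare inequality -/
theorem heat_mixing (hm : 1 ≤ m) (hn : 1 ≤ n) (r : Fin m → ℕ) (c : Fin n → ℕ) (N : ℕ)
    (hc : ∑ j, c j = N) (K : ℝ) (hK : 1 ≤ K)
    (hP : ∀ f : (Fin m → Fin n → ℕ) → ℝ,
      ((CT.TT r c).card : ℝ) * (∑ T ∈ CT.TT r c, f T ^ 2) - (∑ T ∈ CT.TT r c, f T) ^ 2
      ≤ K * ((CT.TT r c).card : ℝ) *
        ∑ i : Fin m, ∑ j : Fin m, ∑ a : Fin n, ∑ b : Fin n,
          CT.VV r c (({i, j} : Finset (Fin m)) ×ˢ ({a, b} : Finset (Fin n))) f)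
    (T₀ : Fin m → Fin n → ℕ) (hT : IsTable r c T₀)
    (ε : ℝ) (h0 : 0 < ε) (t : ℕ)
    (ht : K * (m : ℝ) ^ 2 * (n : ℝ) ^ 2 *
      ((m : ℝ) * n * Real.log ((N : ℝ) + 1) + Real.log (1 / ε)) ≤ t) :
    tvUnif r c (law r c T₀ t) ≤ ε := by
  have hmI : Nonempty (Fin m) := ⟨⟨0, hm⟩⟩
  have hnJ : Nonempty (Fin n) := ⟨⟨0, hn⟩⟩
  have hne : Nonempty (Blk m n) := inferInstance
  rw [tv_eq]
  have hT' : T₀ ∈ tables r c := mem_tables.2 hT
  have hXpos : (0 : ℝ) < (tables r c).card := by exact_mod_cast card_pos.2 ⟨T₀, hT'⟩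
  have hX1 : (1 : ℝ) ≤ (tables r c).card := by exact_mod_cast card_pos.2 ⟨T₀, hT'⟩
  have hP' : ∀ f : (Fin m → Fin n → ℕ) → ℝ, ∑ x ∈ tables r c, f x = 0 →
      ∑ x ∈ tables r c, f x ^ 2
        ≤ K * ∑ p : Blk m n, ∑ x ∈ tables r c, (f x - CT2.av (tables r c) (RR p) f x) ^ 2 := by
    intro f hf
    have h2 := hP f
    rw [← tables_eq_TT, hf] at h2
    have h3 : ∑ i : Fin m, ∑ j : Fin m, ∑ a : Fin n, ∑ b : Fin n,
          CT.VV r c (({i, j} : Finset (Fin m)) ×ˢ ({a, b} : Finset (Fin n))) f
        = ∑ p : Blk m n, ∑ x ∈ tables r c,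
          (f x - CT2.av (tables r c) (RR p) f x) ^ 2 := by
      rw [Fintype.sum_prod_type, Fintype.sum_prod_type]
      refine Finset.sum_congr rfl fun i _ => Finset.sum_congr rfl fun j _ => ?_
      rw [Fintype.sum_prod_type]
      refine Finset.sum_congr rfl fun a _ => Finset.sum_congr rfl fun b _ => ?_
      exact VV_eq r c f i j a b
    rw [h3] at h2
    have h4 : ((tables r c).card : ℝ) * ∑ x ∈ tables r c, f x ^ 2
        ≤ ((tables r c).card : ℝ) * (K * ∑ p : Blk m n, ∑ x ∈ tables r c,
          (f x - CT2.av (tables r c) (RR p) f x) ^ 2) := by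
      calc ((tables r c).card : ℝ) * ∑ x ∈ tables r c, f x ^ 2
          = ((tables r c).card : ℝ) * ∑ x ∈ tables r c, f x ^ 2 - 0 ^ 2 := by ring
        _ ≤ _ := h2
        _ = _ := by ring
    exact le_of_mul_le_mul_left h4 hXpos
  refine CT2.hb_mix (tables r c) RR_equiv K hK hP' T₀ hT' ε h0 t ?_
  rw [card_Blk]
  refine le_trans ?_ ht
  have hlog1 : Real.log ((tables r c).card : ℝ) ≤ (m : ℝ) * n * Real.log ((N : ℝ) + 1) := by
    have := Real.log_le_log hXpos (card_tables_le r c N hc)
    rw [Real.log_pow] at this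
    push_cast at this
    exact this
  have hlog0 : 0 ≤ Real.log ((tables r c).card : ℝ) := Real.log_nonneg hX1
  have hcoef : 0 ≤ K * ((m : ℝ) ^ 2 * (n : ℝ) ^ 2) := by positivity
  calc K * ((m : ℝ) ^ 2 * (n : ℝ) ^ 2) * (1 / 2 * Real.log ((tables r c).card : ℝ)
        + Real.log (1 / ε))
      ≤ K * ((m : ℝ) ^ 2 * (n : ℝ) ^ 2) * ((m : ℝ) * n * Real.log ((N : ℝ) + 1)
        + Real.log (1 / ε)) := by
        apply mul_le_mul_of_nonneg_left _ hcoef
        linarith
    _ = _ := by ring

theorem trans_nonneg (T S : Fin m → Fin n → ℕ) : 0 ≤ trans T S := by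
  unfold trans
  apply div_nonneg
  · refine sum_nonneg fun i _ => sum_nonneg fun j _ => sum_nonneg fun a _ => sum_nonneg fun b _ => ?_
    split_ifs <;> positivity
  · positivity

theorem trans_sum (hm : 1 ≤ m) (hn : 1 ≤ n) {r : Fin m → ℕ} {c : Fin n → ℕ}
    {T : Fin m → Fin n → ℕ} (hT : T ∈ tables r c) : ∑ S ∈ tables r c, trans T S = 1 := by
  have h1 : ∑ S ∈ tables r c, trans T S = ∑ S ∈ tables r c, CT2.hst (tables r c) RR T S :=
    Finset.sum_congr rfl fun S hS => trans_eq hT hS
  rw [h1]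
  unfold CT2.hst
  rw [← Finset.sum_div, Finset.sum_comm]
  have h2 : ∀ q : Blk m n, ∑ S ∈ tables r c, CT2.kb (tables r c) (RR q) T S = 1 := by
    intro q
    have h3 := CT2.av_one (RR_equiv q) hT 1
    rw [CT2.av_eq] at h3
    rw [← h3]
    refine Finset.sum_congr rfl fun S _ => ?_
    ring
  rw [Finset.sum_congr rfl fun q _ => h2 q, Finset.sum_const, Finset.card_univ, nsmul_eq_mul,
    mul_one]
  have hm' : 0 < m := hm
  have hn' : 0 < n := hn
  rw [card_Blk]
  exact div_self (by positivity)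

/-- the final bound, from the 2x2 Poincare inequality with the constant of `p2_all` -/
theorem mixing_of (hm : 1 ≤ m) (hn : 1 ≤ n) (r : Fin m → ℕ) (c : Fin n → ℕ) (N : ℕ)
    (hc : ∑ j, c j = N)
    (hP : ∀ f : (Fin m → Fin n → ℕ) → ℝ,
      ((CT.TT r c).card : ℝ) * (∑ T ∈ CT.TT r c, f T ^ 2) - (∑ T ∈ CT.TT r c, f T) ^ 2
      ≤ (10 ^ 50 * ((Fintype.card (Fin m) : ℝ) + 1) ^ 4 * ((Fintype.card (Fin n) : ℝ) + 1) ^ 15
          * CT.lg (CT.sz c) ^ 4) * ((CT.TT r c).card : ℝ) *
        ∑ i : Fin m, ∑ j : Fin m, ∑ a : Fin n, ∑ b : Fin n,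
          CT.VV r c (({i, j} : Finset (Fin m)) ×ˢ ({a, b} : Finset (Fin n))) f)
    (T₀ : Fin m → Fin n → ℕ) (hT : IsTable r c T₀) (ε : ℝ) (h0 : 0 < ε) (t : ℕ)
    (ht : 10 ^ 50 * (m : ℝ) ^ 2 * (n : ℝ) ^ 2 * ((m : ℝ) + 1) ^ 4 * ((n : ℝ) + 1) ^ 15 *
      (1 + Real.log ((N : ℝ) + 1)) ^ 4 *
      ((m : ℝ) * n * Real.log ((N : ℝ) + 1) + Real.log (1 / ε)) ≤ t) :
    tvUnif r c (law r c T₀ t) ≤ ε := by
  have hszc : CT.sz c = N := hc
  rw [hszc, Fintype.card_fin, Fintype.card_fin] at hP
  unfold CT.lg at hP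
  refine heat_mixing hm hn r c N hc _ ?_ hP T₀ hT ε h0 t ?_
  · have ha : (1 : ℝ) ≤ ((m : ℝ) + 1) ^ 4 := by
      apply one_le_pow₀
      have : (0 : ℝ) ≤ (m : ℝ) := by positivity
      linarith
    have hb : (1 : ℝ) ≤ ((n : ℝ) + 1) ^ 15 := by
      apply one_le_pow₀
      have : (0 : ℝ) ≤ (n : ℝ) := by positivity
      linarith
    have hd : (1 : ℝ) ≤ (1 + Real.log ((N : ℝ) + 1)) ^ 4 := by
      apply one_le_pow₀
      have : 0 ≤ Real.log ((N : ℝ) + 1) := Real.log_nonneg (by
        have : (0 : ℝ) ≤ N := Nat.cast_nonneg _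
        linarith)
      linarith
    have h10 : (1 : ℝ) ≤ 10 ^ 50 := by norm_num
    exact one_le_mul_of_one_le_of_one_le (one_le_mul_of_one_le_of_one_le
      (one_le_mul_of_one_le_of_one_le h10 ha) hb) hd
  · refine le_trans (le_of_eq ?_) ht
    ring

end CTHeat2
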