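import Vale.Agent.CT2.Heat3
import Vale.Agent.CT2.HB
import Vale.Agent.CT.Mix
import Vale.Agent.CT.BBlk

/-! # P328: mixing of the 3x3 heat-bath chain -/

namespace CTHeat

open Finset
open scoped Classical

variable {m n : ℕ}

/-- the blocks -/
abbrev Blk (m n : ℕ) : Type := (Fin m × Fin m × Fin m) × (Fin n × Fin n × Fin n)

/-- agreement outside a block -/
def RR (q : Blk m n) (T S : Fin m → Fin n → ℕ) : Prop :=
  ∀ l s, ¬ InBlock q.1 q.2 l s → S l s = T l s

theorem RR_equiv (q : Blk m n) : Equivalence (RR q) := by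
  refine ⟨fun T l j _ => rfl, fun h l j hl => (h l j hl).symm, fun h1 h2 l j hl => ?_⟩
  rw [h2 l j hl, h1 l j hl]

theorem mem_fibre {r : Fin m → ℕ} {c : Fin n → ℕ} {p : Fin m × Fin m × Fin m}
    {q : Fin n × Fin n × Fin n} {T S : Fin m → Fin n → ℕ} :
    S ∈ fibre r c p q T ↔ S ∈ tables r c ∧ RR (p, q) T S := by
  unfold fibre
  exact Finset.mem_filter

theorem mem_fib {I J : Type} [Fintype I] [DecidableEq I] [Fintype J] [DecidableEq J]
    {r : I → ℕ} {c : J → ℕ} {B : Finset (I × J)} {T S : I → J → ℕ} :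
    S ∈ CT.fib r c B T ↔ S ∈ CT.TT r c ∧ ∀ i j, (i, j) ∉ B → S i j = T i j := by
  unfold CT.fib
  exact Finset.mem_filter

theorem card_Blk : (Fintype.card (Blk m n) : ℝ) = (m : ℝ) ^ 3 * (n : ℝ) ^ 3 := by
  rw [Fintype.card_prod, Fintype.card_prod, Fintype.card_prod, Fintype.card_prod,
    Fintype.card_prod, Fintype.card_fin, Fintype.card_fin]
  push_cast
  ring

theorem trans_eq (r : Fin m → ℕ) (c : Fin n → ℕ) (T : Fin m → Fin n → ℕ) {S : Fin m → Fin n → ℕ}
    (hS : S ∈ tables r c) : trans r c T S = CT2.hst (tables r c) RR T S := by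
  unfold trans CT2.hst CT2.kb
  rw [card_Blk]
  congr 1
  rw [Fintype.sum_prod_type (f := fun x : Blk m n => if RR x T S then
    1 / (((tables r c).filter (fun z => RR x T z)).card : ℝ) else 0)]
  refine Finset.sum_congr rfl fun p _ => Finset.sum_congr rfl fun q _ => ?_
  have e1 : (tables r c).filter (fun z => RR (p, q) T z) = fibre r c p q T := by
    ext z
    rw [mem_fibre]
    exact Finset.mem_filter
  rw [e1]
  have e2 : S ∈ fibre r c p q T ↔ RR (p, q) T S := by
    rw [mem_fibre]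
    exact ⟨fun h => h.2, fun h => ⟨hS, h⟩⟩
  simp only [e2]

theorem law_eq (r : Fin m → ℕ) (c : Fin n → ℕ) (T₀ : Fin m → Fin n → ℕ) (t : ℕ) :
    ∀ S ∈ tables r c, law r c T₀ t S = CT2.hlaw (tables r c) RR T₀ t S := by
  induction t with
  | zero =>
    intro S _
    unfold law CT2.hlaw
    split_ifs <;> rfl
  | succ t ih =>
    intro S hS
    unfold law CT2.hlaw
    refine Finset.sum_congr rfl fun T hT => ?_
    rw [ih T hT, trans_eq r c T hS]

theorem tv_eq (r : Fin m → ℕ) (c : Fin n → ℕ) (T₀ : Fin m → Fin n → ℕ) (t : ℕ) :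
    tvUnif r c (law r c T₀ t) = CT2.htv (tables r c) (CT2.hlaw (tables r c) RR T₀ t) := by
  unfold tvUnif CT2.htv
  congr 1
  exact Finset.sum_congr rfl fun T hT => by rw [law_eq r c T₀ t T hT]

theorem card_tables_le (r : Fin m → ℕ) (c : Fin n → ℕ) (N : ℕ) (hc : ∑ j, c j = N) :
    ((tables r c).card : ℝ) ≤ ((N : ℝ) + 1) ^ (m * n) := by
  have h1 : (tables r c).card ≤ (N + 1) ^ (m * n) := by
    unfold tables
    refine (card_filter_le _ _).trans ?_
    rw [Fintype.card_piFinset, prod_const, Fintype.card_piFinset, card_univ, Fintype.card_fin]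
    have h2 : ∏ j : Fin n, (range (c j + 1)).card ≤ (N + 1) ^ n := by
      calc ∏ j : Fin n, (range (c j + 1)).card ≤ ∏ _j : Fin n, (N + 1) := by
            apply prod_le_prod'
            intro j _
            rw [card_range, ← hc]
            have := single_le_sum (f := c) (fun _ _ => Nat.zero_le _) (mem_univ j)
            omega
        _ = (N + 1) ^ n := by rw [prod_const, card_univ, Fintype.card_fin]
    calc (∏ j : Fin n, (range (c j + 1)).card) ^ m ≤ ((N + 1) ^ n) ^ m :=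
          Nat.pow_le_pow_left h2 m
      _ = (N + 1) ^ (m * n) := by rw [← pow_mul, mul_comm]
  exact_mod_cast h1

theorem tables_eq_TT (r : Fin m → ℕ) (c : Fin n → ℕ) : tables r c = CT.TT r c := by
  ext T
  rw [mem_tables, CT.mem_TT]
  unfold IsTable CT.sz
  refine and_congr Iff.rfl ?_
  constructor
  · intro h
    funext j
    rw [Finset.sum_apply]
    exact h j
  · intro h j
    have := congrFun h j
    rw [Finset.sum_apply] at this
    exact this

/-- the block variance of `BDefs` is the one of `HB` -/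
theorem VV_eq (r : Fin m → ℕ) (c : Fin n → ℕ) (f : (Fin m → Fin n → ℕ) → ℝ)
    (i j k : Fin m) (a b d : Fin n) :
    CT.VV r c (({i, j, k} : Finset (Fin m)) ×ˢ ({a, b, d} : Finset (Fin n))) f
      = ∑ x ∈ tables r c, (f x - CT2.av (tables r c) (RR ((i, j, k), (a, b, d))) f x) ^ 2 := by
  unfold CT.VV CT.CE CT2.av
  rw [tables_eq_TT]
  refine Finset.sum_congr rfl fun T _ => ?_
  have e : CT.fib r c (({i, j, k} : Finset (Fin m)) ×ˢ ({a, b, d} : Finset (Fin n))) T
      = (CT.TT r c).filter (fun y => RR ((i, j, k), (a, b, d)) T y) := by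
    ext S
    rw [mem_fib, Finset.mem_filter]
    refine and_congr Iff.rfl ?_
    unfold RR InBlock
    simp only [mem_product, mem_insert, mem_singleton]
  rw [e]

/-- mixing time of the 3x3 heat-bath chain from its Poincare inequality -/
theorem heat_mixing (hm : 1 ≤ m) (hn : 1 ≤ n) (r : Fin m → ℕ) (c : Fin n → ℕ) (N : ℕ)
    (hc : ∑ j, c j = N) (K : ℝ) (hK : 1 ≤ K) (hP : CT.P3 r c K)
    (T₀ : Fin m → Fin n → ℕ) (hT : IsTable r c T₀)
    (ε : ℝ) (h0 : 0 < ε) (t : ℕ)
    (ht : K * (m : ℝ) ^ 3 * (n : ℝ) ^ 3 *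
      ((m : ℝ) * n * Real.log ((N : ℝ) + 1) + Real.log (1 / ε)) ≤ t) :
    tvUnif r c (law r c T₀ t) ≤ ε := by
  have hmI : Nonempty (Fin m) := ⟨⟨0, hm⟩⟩
  have hnJ : Nonempty (Fin n) := ⟨⟨0, hn⟩⟩
  have hne : Nonempty (Blk m n) := inferInstance
  rw [tv_eq]
  have hT' : T₀ ∈ tables r c := mem_tables.2 hT
  have hXpos : (0 : ℝ) < (tables r c).card := by exact_mod_cast card_pos.2 ⟨T₀, hT'⟩
  have hX1 : (1 : ℝ) ≤ (tables r c).card := by exact_mod_cast card_pos.2 ⟨T₀, hT'⟩
  have hP' : ∀ f : (Fin m → Fin n → ℕ) → ℝ, ∑ x ∈ tables r c, f x = 0 →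
      ∑ x ∈ tables r c, f x ^ 2
        ≤ K * ∑ p : Blk m n, ∑ x ∈ tables r c, (f x - CT2.av (tables r c) (RR p) f x) ^ 2 := by
    intro f hf
    have h2 := hP f
    rw [← tables_eq_TT, hf] at h2
    have h3 : ∑ i : Fin m, ∑ j : Fin m, ∑ k : Fin m, ∑ a : Fin n, ∑ b : Fin n, ∑ d : Fin n,
          CT.VV r c (({i, j, k} : Finset (Fin m)) ×ˢ ({a, b, d} : Finset (Fin n))) f
        = ∑ p : Blk m n, ∑ x ∈ tables r c,
          (f x - CT2.av (tables r c) (RR p) f x) ^ 2 := by
      rw [Fintype.sum_prod_type, Fintype.sum_prod_type]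
      refine Finset.sum_congr rfl fun i _ => ?_
      rw [Fintype.sum_prod_type]
      refine Finset.sum_congr rfl fun j _ => Finset.sum_congr rfl fun k _ => ?_
      rw [Fintype.sum_prod_type]
      refine Finset.sum_congr rfl fun a _ => ?_
      rw [Fintype.sum_prod_type]
      refine Finset.sum_congr rfl fun b _ => Finset.sum_congr rfl fun d _ => ?_
      exact VV_eq r c f i j k a b d
    rw [h3] at h2
    have h4 : ((tables r c).card : ℝ) * ∑ x ∈ tables r c, f x ^ 2
        ≤ ((tables r c).card : ℝ) * (K * ∑ p : Blk m n, ∑ x ∈ tables r c,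
          (f x - CT2.av (tables r c) (RR p) f x) ^ 2) := by
      calc ((tables r c).card : ℝ) * ∑ x ∈ tables r c, f x ^ 2
          = ((tables r c).card : ℝ) * ∑ x ∈ tables r c, f x ^ 2 - 0 ^ 2 := by ring
        _ ≤ _ := h2
        _ = _ := by ring
    exact le_of_mul_le_mul_left h4 hXpos
  refine CT2.hb_mix (tables r c) RR_equiv K hK hP' T₀ hT' ε h0 t ?_
  rw [card_Blk]
  refine le_trans ?_ ht
  have hlog1 : Real.log ((tables r c).card : ℝ) ≤ (m : ℝ) * n * Real.log ((N : ℝ) + 1) := by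
    have := Real.log_le_log hXpos (card_tables_le r c N hc)
    rw [Real.log_pow] at this
    push_cast at this
    exact this
  have hlog0 : 0 ≤ Real.log ((tables r c).card : ℝ) := Real.log_nonneg hX1
  have hcoef : 0 ≤ K * ((m : ℝ) ^ 3 * (n : ℝ) ^ 3) := by positivity
  calc K * ((m : ℝ) ^ 3 * (n : ℝ) ^ 3) * (1 / 2 * Real.log ((tables r c).card : ℝ)
        + Real.log (1 / ε))
      ≤ K * ((m : ℝ) ^ 3 * (n : ℝ) ^ 3) * ((m : ℝ) * n * Real.log ((N : ℝ) + 1)
        + Real.log (1 / ε)) := by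
        apply mul_le_mul_of_nonneg_left _ hcoef
        linarith
    _ = _ := by ring

theorem mixing (hm : 1 ≤ m) (hn : 1 ≤ n) (r : Fin m → ℕ) (c : Fin n → ℕ) (N : ℕ)
    (hr : ∑ i, r i = N) (hc : ∑ j, c j = N)
    (T₀ : Fin m → Fin n → ℕ) (hT : IsTable r c T₀) (ε : ℝ) (h0 : 0 < ε) (t : ℕ)
    (ht : 10 ^ 25 * (m : ℝ) ^ 3 * (n : ℝ) ^ 3 * ((m : ℝ) + 1) ^ 2 * ((n : ℝ) + 1) ^ 13 *
      (1 + Real.log ((N : ℝ) + 1)) ^ 4 *
      ((m : ℝ) * n * Real.log ((N : ℝ) + 1) + Real.log (1 / ε)) ≤ t) :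
    tvUnif r c (law r c T₀ t) ≤ ε := by
  have hszc : CT.sz c = N := hc
  have hg := CT.p3_all r c (by rw [hr, hszc])
  rw [hszc, Fintype.card_fin, Fintype.card_fin] at hg
  unfold CT.lg at hg
  refine heat_mixing hm hn r c N hc _ ?_ hg T₀ hT ε h0 t ?_
  · have ha : (1 : ℝ) ≤ ((m : ℝ) + 1) ^ 2 := by
      apply one_le_pow₀
      have : (0 : ℝ) ≤ (m : ℝ) := by positivity
      linarith
    have hb : (1 : ℝ) ≤ ((n : ℝ) + 1) ^ 13 := by
      apply one_le_pow₀
      have : (0 : ℝ) ≤ (n : ℝ) := by positivity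
      linarith
    have hd : (1 : ℝ) ≤ (1 + Real.log ((N : ℝ) + 1)) ^ 4 := by
      apply one_le_pow₀
      have : 0 ≤ Real.log ((N : ℝ) + 1) := Real.log_nonneg (by
        have : (0 : ℝ) ≤ N := Nat.cast_nonneg _
        linarith)
      linarith
    have h10 : (1 : ℝ) ≤ 10 ^ 25 := by norm_num
    exact one_le_mul_of_one_le_of_one_le (one_le_mul_of_one_le_of_one_le
      (one_le_mul_of_one_le_of_one_le h10 ha) hb) hd
  · refine le_trans (le_of_eq ?_) ht
    ring

end CTHeat
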