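import Mathlib

/-!
# P328: contingency tables and the 3 x 3 rejection chain (definitions for the statement)
-/

namespace CTSampler

open Finset
open scoped Classical

/-- `T` is a contingency table with row sums `r` and column sums `c`. -/
def IsTable {m n : ℕ} (r : Fin m → ℕ) (c : Fin n → ℕ) (T : Fin m → Fin n → ℕ) : Prop :=
  (∀ i, ∑ j, T i j = r i) ∧ (∀ j, ∑ i, T i j = c j)

/-- The finite set `Ω(r,c)` of all contingency tables with these margins (every entry of a table
in column `j` is at most `c j`, so no table is lost). -/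
noncomputable def tables {m n : ℕ} (r : Fin m → ℕ) (c : Fin n → ℕ) :
    Finset (Fin m → Fin n → ℕ) :=
  (Fintype.piFinset fun _ : Fin m => Fintype.piFinset fun j : Fin n => range (c j + 1)).filter
    (IsTable r c)

/-- row sum of row `i` inside the columns `a, b, d` -/
def rs {m n : ℕ} (T : Fin m → Fin n → ℕ) (i : Fin m) (a b d : Fin n) : ℕ := T i a + T i b + T i d

/-- column sum of column `a` inside the rows `i, j, k` -/
def cs {m n : ℕ} (T : Fin m → Fin n → ℕ) (i j k : Fin m) (a : Fin n) : ℕ := T i a + T j a + T k a

/-- One proposal.  Rows `i, j, k`, columns `a, b, d`, and four integers `u1, u2, u3, u4`, the new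
entries at `(i,a), (i,b), (j,a), (j,b)`.  If the rows are distinct, the columns are distinct and the
five other entries of the 3 x 3 block, which are then forced by the row and column sums of the
block, are nonnegative, the block is replaced; otherwise the table is kept. -/
noncomputable def nxt {m n : ℕ} (T : Fin m → Fin n → ℕ) (i j k : Fin m) (a b d : Fin n)
    (u1 u2 u3 u4 : ℕ) : Fin m → Fin n → ℕ :=
  if (i ≠ j ∧ i ≠ k ∧ j ≠ k) ∧ (a ≠ b ∧ a ≠ d ∧ b ≠ d) ∧
      u1 + u2 ≤ rs T i a b d ∧ u3 + u4 ≤ rs T j a b d ∧
      u1 + u3 ≤ cs T i j k a ∧ u2 + u4 ≤ cs T i j k b ∧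
      rs T i a b d + rs T j a b d ≤ cs T i j k d + (u1 + u2 + u3 + u4) then
    fun p q =>
      if p = i then
        if q = a then u1 else if q = b then u2
        else if q = d then rs T i a b d - (u1 + u2) else T p q
      else if p = j then
        if q = a then u3 else if q = b then u4
        else if q = d then rs T j a b d - (u3 + u4) else T p q
      else if p = k then
        if q = a then cs T i j k a - (u1 + u3) else if q = b then cs T i j k b - (u2 + u4)
        else if q = d then
          cs T i j k d + (u1 + u2 + u3 + u4) - (rs T i a b d + rs T j a b d) else T p q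
      else T p q
  else T

/-- Transition probability from `T` to `S`: choose `i, j, k` among the `m` rows and `a, b, d` among
the `n` columns, uniformly and independently; choose four independent integers, uniform on
`{0, ..., min(row sum, column sum)}` (sums inside the block), as new entries at `(i,a), (i,b), (j,a),
(j,b)`; go to `nxt`. -/
noncomputable def trans {m n : ℕ} (T S : Fin m → Fin n → ℕ) : ℝ :=
  (∑ i : Fin m, ∑ j : Fin m, ∑ k : Fin m, ∑ a : Fin n, ∑ b : Fin n, ∑ d : Fin n,
    (∑ u1 ∈ range (min (rs T i a b d) (cs T i j k a) + 1),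
      ∑ u2 ∈ range (min (rs T i a b d) (cs T i j k b) + 1),
        ∑ u3 ∈ range (min (rs T j a b d) (cs T i j k a) + 1),
          ∑ u4 ∈ range (min (rs T j a b d) (cs T i j k b) + 1),
            if nxt T i j k a b d u1 u2 u3 u4 = S then (1 : ℝ) else 0) /
      (((min (rs T i a b d) (cs T i j k a) + 1 : ℕ) : ℝ)
        * ((min (rs T i a b d) (cs T i j k b) + 1 : ℕ) : ℝ)
        * ((min (rs T j a b d) (cs T i j k a) + 1 : ℕ) : ℝ)
        * ((min (rs T j a b d) (cs T i j k b) + 1 : ℕ) : ℝ)))
    / ((m : ℝ) ^ 3 * (n : ℝ) ^ 3)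

/-- The law of the chain after `t` steps, started from the table `T₀`. -/
noncomputable def law {m n : ℕ} (r : Fin m → ℕ) (c : Fin n → ℕ) (T₀ : Fin m → Fin n → ℕ) :
    ℕ → (Fin m → Fin n → ℕ) → ℝ
  | 0 => fun S => if S = T₀ then 1 else 0
  | t + 1 => fun S => ∑ T ∈ tables r c, law r c T₀ t T * trans T S

/-- Total variation distance between `mu` and the uniform law on `Ω(r,c)`. -/
noncomputable def tvUnif {m n : ℕ} (r : Fin m → ℕ) (c : Fin n → ℕ)
    (mu : (Fin m → Fin n → ℕ) → ℝ) : ℝ :=
  (1 / 2) * ∑ T ∈ tables r c, |mu T - 1 / ((tables r c).card : ℝ)|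

end CTSampler
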