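import Mathlib

/-! # An explicit contingency table with given margins (north-west corner rule), definition -/

namespace CTSampler

/-- sum of the first `k` margins -/
def cum {m : ℕ} (r : Fin m → ℕ) (k : ℕ) : ℕ := ∑ l : Fin m, if (l : ℕ) < k then r l else 0

/-- the north-west corner table: entry `(i,j)` is the number of common points of the intervals
`[r 0 + ... + r (i-1), r 0 + ... + r i)` and `[c 0 + ... + c (j-1), c 0 + ... + c j)` -/
def start {m n : ℕ} (r : Fin m → ℕ) (c : Fin n → ℕ) (i : Fin m) (j : Fin n) : ℕ :=
  min (cum r (i + 1)) (cum c (j + 1)) - max (cum r i) (cum c j)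

end CTSampler
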