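import Mathlib

/-! # Acceptance probability for 3 x 3 blocks: proof -/

namespace CT2

open Finset

/-- validity of a proposal -/
def Val (p1 p2 g1 g2 g3 : ℕ) (u : ℕ × ℕ × ℕ × ℕ) : Prop :=
  u.1 + u.2.1 ≤ p1 ∧ u.2.2.1 + u.2.2.2 ≤ p2 ∧ u.1 + u.2.2.1 ≤ g1 ∧ u.2.1 + u.2.2.2 ≤ g2 ∧
    p1 + p2 ≤ g3 + (u.1 + u.2.1 + u.2.2.1 + u.2.2.2)

instance (p1 p2 g1 g2 g3 : ℕ) : DecidablePred (Val p1 p2 g1 g2 g3) := fun u => by
  unfold Val; infer_instance

/-- the box of proposals -/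
def Bx (p1 p2 g1 g2 : ℕ) : Finset (ℕ × ℕ × ℕ × ℕ) :=
  range (min p1 g1 + 1) ×ˢ range (min p1 g2 + 1) ×ˢ range (min p2 g1 + 1) ×ˢ range (min p2 g2 + 1)

theorem acc_div_le (p g R : ℕ) : R * (p * g / R) ≤ p * g := Nat.mul_div_le _ _

theorem acc_div_ge (p g R : ℕ) (hR : 0 < R) : p * g + 1 ≤ R * (p * g / R) + R := by
  have := Nat.lt_mul_div_succ (p * g) hR
  rw [Nat.mul_add, Nat.mul_one] at this
  omega

theorem acc_two (R p s1 s2 A B : ℕ) (hR : 0 < R) (hA : R * A ≤ p * s1) (hB : R * B ≤ p * s2)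
    (hs : 3 * (s1 + s2) ≤ 2 * R) : 3 * (A + B) ≤ 2 * p := by
  have h1 : R * (3 * (A + B)) ≤ R * (2 * p) := by
    calc R * (3 * (A + B)) = 3 * (R * A + R * B) := by ring
      _ ≤ 3 * (p * s1 + p * s2) := Nat.mul_le_mul_left _ (Nat.add_le_add hA hB)
      _ = p * (3 * (s1 + s2)) := by ring
      _ ≤ p * (2 * R) := Nat.mul_le_mul_left _ hs
      _ = R * (2 * p) := by ring
  exact Nat.le_of_mul_le_mul_left h1 hR

theorem acc_tot (p1 p2 p3 g1 g2 g3 A B C D : ℕ) (h : p1 + p2 + p3 = g1 + g2 + g3)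
    (h36 : 36 ≤ p1 + p2 + p3)
    (h1 : p1 ≤ p3) (h2 : p2 ≤ p3) (h3 : g1 ≤ g3) (h4 : g2 ≤ g3)
    (c1 : p1 * g1 + 1 ≤ (p1 + p2 + p3) * A + (p1 + p2 + p3))
    (c2 : p1 * g2 + 1 ≤ (p1 + p2 + p3) * B + (p1 + p2 + p3))
    (c3 : p2 * g1 + 1 ≤ (p1 + p2 + p3) * C + (p1 + p2 + p3))
    (c4 : p2 * g2 + 1 ≤ (p1 + p2 + p3) * D + (p1 + p2 + p3)) :
    p1 + p2 ≤ g3 + (A + B + C + D) := by
  set R := p1 + p2 + p3 with hR
  have f1 : R ≤ 3 * p3 := by omega
  have f2 : R ≤ 3 * g3 := by omega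
  have f3 : 36 * R ≤ 9 * (p3 * g3) := by
    calc 36 * R ≤ R * R := Nat.mul_le_mul_right _ h36
      _ ≤ (3 * p3) * (3 * g3) := Nat.mul_le_mul f1 f2
      _ = 9 * (p3 * g3) := by ring
  have f4 : R * (p1 + p2) = (p1 * g1 + p1 * g2 + p2 * g1 + p2 * g2) + (p1 + p2) * g3 := by
    rw [h]; ring
  have f5 : R * g3 = (p1 + p2) * g3 + p3 * g3 := by rw [hR]; ring
  have f6 : R * (g3 + (A + B + C + D)) = R * g3 + (R * A + R * B + R * C + R * D) := by ring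
  have f7 : R * (p1 + p2) ≤ R * (g3 + (A + B + C + D)) := by
    rw [f4, f6, f5]
    omega
  exact Nat.le_of_mul_le_mul_left f7 (by omega)

theorem acc (p1 p2 p3 g1 g2 g3 : ℕ) (h : p1 + p2 + p3 = g1 + g2 + g3) (h1 : p1 ≤ p3)
    (h2 : p2 ≤ p3) (h3 : g1 ≤ g3) (h4 : g2 ≤ g3)
    (hne : ((Bx p1 p2 g1 g2).filter (Val p1 p2 g1 g2 g3)).Nonempty) :
    (Bx p1 p2 g1 g2).card ≤ 36 ^ 4 * ((Bx p1 p2 g1 g2).filter (Val p1 p2 g1 g2 g3)).card := by
  have hcard : (Bx p1 p2 g1 g2).card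
      = (min p1 g1 + 1) * ((min p1 g2 + 1) * ((min p2 g1 + 1) * (min p2 g2 + 1))) := by
    simp [Bx, Finset.card_product]
  set R := p1 + p2 + p3 with hR
  rcases Nat.lt_or_ge R 36 with hlt | hge
  · have a1 : min p1 g1 + 1 ≤ 36 := by omega
    have a2 : min p1 g2 + 1 ≤ 36 := by omega
    have a3 : min p2 g1 + 1 ≤ 36 := by omega
    have a4 : min p2 g2 + 1 ≤ 36 := by omega
    rw [hcard]
    have hpos := hne.card_pos
    calc _ ≤ 36 * (36 * (36 * 36)) := Nat.mul_le_mul a1 (Nat.mul_le_mul a2 (Nat.mul_le_mul a3 a4))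
      _ = 36 ^ 4 * 1 := by norm_num
      _ ≤ _ := Nat.mul_le_mul_left _ hpos
  · have hR0 : 0 < R := by omega
    -- the sub-box
    set O : Finset (ℕ × ℕ × ℕ × ℕ) := range (min p1 g1 / 6 + 1) ×ˢ range (min p1 g2 / 6 + 1) ×ˢ
      range (min p2 g1 / 6 + 1) ×ˢ range (min p2 g2 / 6 + 1) with hO
    have hOcard : O.card = (min p1 g1 / 6 + 1) * ((min p1 g2 / 6 + 1) *
        ((min p2 g1 / 6 + 1) * (min p2 g2 / 6 + 1))) := by
      simp [hO, Finset.card_product]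
    have hinj : O.card ≤ ((Bx p1 p2 g1 g2).filter (Val p1 p2 g1 g2 g3)).card := by
      apply Finset.card_le_card_of_injOn
        (fun δ => (p1 * g1 / R + δ.1, p1 * g2 / R + δ.2.1, p2 * g1 / R + δ.2.2.1,
          p2 * g2 / R + δ.2.2.2))
      · rintro ⟨d1, d2, d3, d4⟩ hδ
        simp only [hO, Finset.coe_product, Set.mem_prod, Finset.mem_coe, Finset.mem_range] at hδ
        obtain ⟨k1, k2, k3, k4⟩ := hδ
        have e1 : 6 * d1 ≤ min p1 g1 := by omega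
        have e2 : 6 * d2 ≤ min p1 g2 := by omega
        have e3 : 6 * d3 ≤ min p2 g1 := by omega
        have e4 : 6 * d4 ≤ min p2 g2 := by omega
        have b1 := acc_div_le p1 g1 R
        have b2 := acc_div_le p1 g2 R
        have b3 := acc_div_le p2 g1 R
        have b4 := acc_div_le p2 g2 R
        have c1 := acc_div_ge p1 g1 R hR0
        have c2 := acc_div_ge p1 g2 R hR0
        have c3 := acc_div_ge p2 g1 R hR0
        have c4 := acc_div_ge p2 g2 R hR0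
        set A := p1 * g1 / R with hA
        set B := p1 * g2 / R with hB
        set C := p2 * g1 / R with hC
        set D := p2 * g2 / R with hD
        have r1 : 3 * (g1 + g2) ≤ 2 * R := by omega
        have r2 : 3 * (p1 + p2) ≤ 2 * R := by omega
        -- rows
        have row1 : 3 * (A + B) ≤ 2 * p1 := acc_two R p1 g1 g2 A B hR0 b1 b2 r1
        have row2 : 3 * (C + D) ≤ 2 * p2 := acc_two R p2 g1 g2 C D hR0 b3 b4 r1
        have col1 : 3 * (A + C) ≤ 2 * g1 := acc_two R g1 p1 p2 A C hR0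
          (by rw [Nat.mul_comm g1 p1]; exact b1) (by rw [Nat.mul_comm g1 p2]; exact b3) r2
        have col2 : 3 * (B + D) ≤ 2 * g2 := acc_two R g2 p1 p2 B D hR0
          (by rw [Nat.mul_comm g2 p1]; exact b2) (by rw [Nat.mul_comm g2 p2]; exact b4) r2
        have tot : p1 + p2 ≤ g3 + (A + B + C + D) :=
          acc_tot p1 p2 p3 g1 g2 g3 A B C D h hge h1 h2 h3 h4 c1 c2 c3 c4
        clear b1 b2 b3 b4 c1 c2 c3 c4
        clear_value A B C D
        simp only [Finset.coe_filter, Set.mem_ofPred_eq, Bx, Finset.mem_product, Finset.mem_range,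
          Val]
        refine ⟨⟨?_, ?_, ?_, ?_⟩, ?_, ?_, ?_, ?_, ?_⟩ <;> omega
      · rintro ⟨d1, d2, d3, d4⟩ _ ⟨d1', d2', d3', d4'⟩ _ heq
        simp only [Prod.mk.injEq] at heq ⊢
        omega
    have hmul : (min p1 g1 + 1) * ((min p1 g2 + 1) * ((min p2 g1 + 1) * (min p2 g2 + 1)))
        ≤ (6 * (min p1 g1 / 6 + 1)) * ((6 * (min p1 g2 / 6 + 1)) *
          ((6 * (min p2 g1 / 6 + 1)) * (6 * (min p2 g2 / 6 + 1)))) := by
      apply Nat.mul_le_mul (by omega)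
      apply Nat.mul_le_mul (by omega)
      apply Nat.mul_le_mul (by omega) (by omega)
    rw [hcard]
    calc _ ≤ _ := hmul
      _ = 6 ^ 4 * O.card := by rw [hOcard]; ring
      _ ≤ 36 ^ 4 * O.card := Nat.mul_le_mul_right _ (by norm_num)
      _ ≤ _ := Nat.mul_le_mul_left _ hinj

end CT2
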