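import Vale.Agent.CT2.XBrA

/-! # Bridge: the acceptance probability (pieces BR4, BR5) -/

namespace CTSampler

open Finset
open scoped Classical

variable {m n : ℕ}

theorem br4_table {r : Fin m → ℕ} {c : Fin n → ℕ} {T : Fin m → Fin n → ℕ}
    (hT : T ∈ tables r c) : IsTable r c T := by
  unfold tables at hT
  exact (Finset.mem_filter.mp hT).2

theorem br4_sum3 {q : ℕ} {a b d : Fin q} (h1 : a ≠ b) (h2 : a ≠ d) (h3 : b ≠ d) (f : Fin q → ℕ) :
    ∑ y ∈ ({a, b, d} : Finset (Fin q)), f y = f a + f b + f d := by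
  rw [Finset.sum_insert (by simp [h1, h2]), Finset.sum_insert (by simp [h3]),
    Finset.sum_singleton]
  ring

theorem br4_eq3 {q : ℕ} {a b d : Fin q} (h1 : a ≠ b) (h2 : a ≠ d) (h3 : b ≠ d)
    (f g : Fin q → ℕ) (hs : ∑ y, f y = ∑ y, g y)
    (ho : ∀ y, y ∉ ({a, b, d} : Finset (Fin q)) → f y = g y) :
    f a + f b + f d = g a + g b + g d := by
  have e1 := Finset.sum_add_sum_compl ({a, b, d} : Finset (Fin q)) f
  have e2 := Finset.sum_add_sum_compl ({a, b, d} : Finset (Fin q)) g
  have e3 : ∑ y ∈ ({a, b, d} : Finset (Fin q))ᶜ, f y = ∑ y ∈ ({a, b, d} : Finset (Fin q))ᶜ, g y :=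
    Finset.sum_congr rfl fun y hy => ho y (Finset.mem_compl.mp hy)
  rw [br4_sum3 h1 h2 h3] at e1 e2
  omega

theorem br4_rs {r : Fin m → ℕ} {c : Fin n → ℕ} {T S : Fin m → Fin n → ℕ}
    (hT : T ∈ tables r c) (hS : S ∈ tables r c) {i j k : Fin m} {a b d : Fin n}
    (hd : Dst i j k a b d) (h : Rel ((i, j, k), (a, b, d)) T S) (x : Fin m) :
    rs T x a b d = rs S x a b d := by
  unfold rs
  refine br4_eq3 hd.2.1 hd.2.2.1 hd.2.2.2 (fun y => T x y) (fun y => S x y) ?_ ?_
  · rw [(br4_table hT).1 x, (br4_table hS).1 x]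
  · intro y hy
    refine h x y ?_
    intro hm
    exact hy (Finset.mem_product.mp hm).2

theorem br4_cs {r : Fin m → ℕ} {c : Fin n → ℕ} {T S : Fin m → Fin n → ℕ}
    (hT : T ∈ tables r c) (hS : S ∈ tables r c) {i j k : Fin m} {a b d : Fin n}
    (hd : Dst i j k a b d) (h : Rel ((i, j, k), (a, b, d)) T S) (y : Fin n) :
    cs T i j k y = cs S i j k y := by
  unfold cs
  refine br4_eq3 hd.1.1 hd.1.2.1 hd.1.2.2 (fun x => T x y) (fun x => S x y) ?_ ?_
  · rw [(br4_table hT).2 y, (br4_table hS).2 y]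
  · intro x hx
    refine h x y ?_
    intro hm
    exact hx (Finset.mem_product.mp hm).1

/-- BR4: `lam` is a class function -/
theorem lam_classA (r : Fin m → ℕ) (c : Fin n → ℕ)
    (p : (Fin m × Fin m × Fin m) × (Fin n × Fin n × Fin n)) {T S : Fin m → Fin n → ℕ}
    (hT : T ∈ tables r c) (hS : S ∈ tables r c) (h : Rel p T S) : lam r c p T = lam r c p S := by
  obtain ⟨⟨i, j, k⟩, ⟨a, b, d⟩⟩ := p
  unfold lam
  by_cases hd : Dst i j k a b d
  · simp only [hd, if_true]
    rw [br4_rs hT hS hd h i, br4_rs hT hS hd h j, br4_cs hT hS hd h a, br4_cs hT hS hd h b]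
    have hf : CT.fib r c (blk i j k a b d) T = CT.fib r c (blk i j k a b d) S := by
      ext U
      simp only [CT.fib, Finset.mem_filter]
      constructor
      · rintro ⟨hU1, hU⟩
        refine ⟨hU1, fun x y hxy => ?_⟩
        rw [hU x y hxy]
        exact h x y hxy
      · rintro ⟨hU1, hU⟩
        refine ⟨hU1, fun x y hxy => ?_⟩
        rw [hU x y hxy]
        exact (h x y hxy).symm
    rw [hf]
  · simp only [hd, if_false]

/-- BR5: lower bound of the acceptance probability -/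
theorem lam_geA (r : Fin m → ℕ) (c : Fin n → ℕ) {T : Fin m → Fin n → ℕ} (hT : T ∈ tables r c)
    {i j k : Fin m} {a b d : Fin n} (h : Dst i j k a b d)
    (h1 : rs T i a b d ≤ rs T k a b d) (h2 : rs T j a b d ≤ rs T k a b d)
    (h3 : cs T i j k a ≤ cs T i j k d) (h4 : cs T i j k b ≤ cs T i j k d) :
    1 ≤ 36 ^ 4 * lam r c ((i, j, k), (a, b, d)) T := by
  have hc := fib_cardA r c hT h
  have hT' : T ∈ CT.fib r c (blk i j k a b d) T := by
    simp only [CT.fib, Finset.mem_filter]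
    refine ⟨?_, fun x y _ => trivial⟩
    rw [← tables_eqA]
    exact hT
  have hpos : 0 < (CT.fib r c (blk i j k a b d) T).card := Finset.card_pos.mpr ⟨T, hT'⟩
  have hne : ((CT2.Bx (rs T i a b d) (rs T j a b d) (cs T i j k a) (cs T i j k b)).filter
        (CT2.Val (rs T i a b d) (rs T j a b d) (cs T i j k a) (cs T i j k b)
          (cs T i j k d))).Nonempty := by
    rw [← Finset.card_pos, ← hc]
    exact hpos
  have hsum : rs T i a b d + rs T j a b d + rs T k a b d
      = cs T i j k a + cs T i j k b + cs T i j k d := by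
    unfold rs cs; ring
  have hacc := CT2.acc (rs T i a b d) (rs T j a b d) (rs T k a b d) (cs T i j k a) (cs T i j k b)
    (cs T i j k d) hsum h1 h2 h3 h4 (by convert hne)
  have hB : 0 < (CT2.Bx (rs T i a b d) (rs T j a b d) (cs T i j k a) (cs T i j k b)).card := by
    obtain ⟨u, hu⟩ := hne
    exact Finset.card_pos.mpr ⟨u, (Finset.mem_filter.mp hu).1⟩
  have hacc' : ((CT2.Bx (rs T i a b d) (rs T j a b d) (cs T i j k a) (cs T i j k b)).card : ℝ)
      ≤ 36 ^ 4 * ((CT.fib r c (blk i j k a b d) T).card : ℝ) := by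
    rw [hc]
    have := hacc
    exact_mod_cast (by convert this)
  have hB' : (0 : ℝ) < ((CT2.Bx (rs T i a b d) (rs T j a b d) (cs T i j k a)
      (cs T i j k b)).card : ℝ) := by exact_mod_cast hB
  unfold lam
  simp only [h, if_true]
  rw [← mul_div_assoc, le_div_iff₀ hB']
  linarith

end CTSampler
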