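import Vale.Agent.CT2.Sampler
import Vale.Agent.CT2.XAcc
import Vale.Agent.CT2.HB
import Vale.Agent.CT.BDefs
import Vale.Agent.CT.Mix

/-! # Bridge: the proposals and the fibres (pieces BR1, BR2) -/

namespace CTSampler

open Finset
open scoped Classical

variable {m n : ℕ}

theorem mem_tables {r : Fin m → ℕ} {c : Fin n → ℕ} {T : Fin m → Fin n → ℕ} :
    T ∈ tables r c ↔ IsTable r c T := by
  unfold tables
  rw [mem_filter]
  refine ⟨fun h => h.2, fun h => ⟨?_, h⟩⟩
  rw [Fintype.mem_piFinset]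
  intro i
  rw [Fintype.mem_piFinset]
  intro j
  rw [mem_range, Nat.lt_succ_iff, ← h.2 j]
  exact single_le_sum (f := fun i => T i j) (fun _ _ => Nat.zero_le _) (mem_univ i)

theorem tables_eqA (r : Fin m → ℕ) (c : Fin n → ℕ) : tables r c = CT.TT r c := by
  ext T
  rw [mem_tables, CT.mem_TT]
  unfold IsTable CT.sz
  refine and_congr Iff.rfl ?_
  constructor
  · intro h
    funext j
    rw [Finset.sum_apply]
    exact h j
  · intro h j
    have := congrFun h j
    rw [Finset.sum_apply] at this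
    exact this

/-- the block -/
def blk (i j k : Fin m) (a b d : Fin n) : Finset (Fin m × Fin n) :=
  ({i, j, k} : Finset (Fin m)) ×ˢ ({a, b, d} : Finset (Fin n))

/-- distinct rows and columns -/
def Dst (i j k : Fin m) (a b d : Fin n) : Prop :=
  (i ≠ j ∧ i ≠ k ∧ j ≠ k) ∧ (a ≠ b ∧ a ≠ d ∧ b ≠ d)

theorem mem_blk {i j k : Fin m} {a b d : Fin n} {p : Fin m} {q : Fin n} :
    (p, q) ∈ blk i j k a b d ↔ (p = i ∨ p = j ∨ p = k) ∧ (q = a ∨ q = b ∨ q = d) := by
  simp [blk]

/-- the proposed table -/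
def nw (T : Fin m → Fin n → ℕ) (i j k : Fin m) (a b d : Fin n) (u : ℕ × ℕ × ℕ × ℕ) :
    Fin m → Fin n → ℕ :=
  fun p q =>
      if p = i then
        if q = a then u.1 else if q = b then u.2.1
        else if q = d then rs T i a b d - (u.1 + u.2.1) else T p q
      else if p = j then
        if q = a then u.2.2.1 else if q = b then u.2.2.2
        else if q = d then rs T j a b d - (u.2.2.1 + u.2.2.2) else T p q
      else if p = k then
        if q = a then cs T i j k a - (u.1 + u.2.2.1) else if q = b then cs T i j k b - (u.2.1 + u.2.2.2)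
        else if q = d then
          cs T i j k d + (u.1 + u.2.1 + u.2.2.1 + u.2.2.2) - (rs T i a b d + rs T j a b d) else T p q
      else T p q

theorem nxt_eq (T : Fin m → Fin n → ℕ) {i j k : Fin m} {a b d : Fin n} (h : Dst i j k a b d)
    (u : ℕ × ℕ × ℕ × ℕ) :
    nxt T i j k a b d u.1 u.2.1 u.2.2.1 u.2.2.2
      = if CT2.Val (rs T i a b d) (rs T j a b d) (cs T i j k a) (cs T i j k b) (cs T i j k d) u
        then nw T i j k a b d u else T := by
  by_cases hv : CT2.Val (rs T i a b d) (rs T j a b d) (cs T i j k a) (cs T i j k b)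
      (cs T i j k d) u
  · rw [if_pos hv]
    unfold nxt
    rw [if_pos ⟨h.1, h.2, hv⟩]
    rfl
  · rw [if_neg hv]
    unfold nxt
    rw [if_neg (fun h' => hv h'.2.2)]

/-- splitting off three distinct indices -/
theorem sum_three {N : ℕ} (f : Fin N → ℕ) {a b d : Fin N} (hab : a ≠ b) (had : a ≠ d)
    (hbd : b ≠ d) :
    ∑ q, f q = f a + f b + f d + ∑ q ∈ univ.filter (fun q => q ≠ a ∧ q ≠ b ∧ q ≠ d), f q := by
  rw [← Finset.sum_filter_add_sum_filter_not univ (fun q => q ≠ a ∧ q ≠ b ∧ q ≠ d) f, add_comm]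
  congr 1
  have : univ.filter (fun q : Fin N => ¬ (q ≠ a ∧ q ≠ b ∧ q ≠ d)) = {a, b, d} := by
    ext q
    simp only [mem_filter, mem_univ, true_and, mem_insert, mem_singleton]
    tauto
  rw [this, Finset.sum_insert (by simp [hab, had]), Finset.sum_insert (by simp [hbd]),
    Finset.sum_singleton]
  ring

/-- block row sums are constant on the fibre -/
theorem rs_eq {r : Fin m → ℕ} {c : Fin n → ℕ} {T S : Fin m → Fin n → ℕ} (hT : IsTable r c T)
    (hS : IsTable r c S) {i j k : Fin m} {a b d : Fin n} (h : Dst i j k a b d)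
    (hoff : ∀ x y, (x, y) ∉ blk i j k a b d → S x y = T x y) (p : Fin m) :
    rs S p a b d = rs T p a b d := by
  have h1 := hT.1 p
  have h2 := hS.1 p
  rw [sum_three _ h.2.1 h.2.2.1 h.2.2.2] at h1 h2
  have h3 : ∑ q ∈ univ.filter (fun q => q ≠ a ∧ q ≠ b ∧ q ≠ d), S p q
      = ∑ q ∈ univ.filter (fun q => q ≠ a ∧ q ≠ b ∧ q ≠ d), T p q := by
    apply Finset.sum_congr rfl
    intro q hq
    simp only [mem_filter, mem_univ, true_and] at hq
    apply hoff
    rw [mem_blk]
    rintro ⟨-, h5 | h5 | h5⟩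
    · exact hq.1 h5
    · exact hq.2.1 h5
    · exact hq.2.2 h5
  unfold rs
  omega

theorem cs_eq {r : Fin m → ℕ} {c : Fin n → ℕ} {T S : Fin m → Fin n → ℕ} (hT : IsTable r c T)
    (hS : IsTable r c S) {i j k : Fin m} {a b d : Fin n} (h : Dst i j k a b d)
    (hoff : ∀ x y, (x, y) ∉ blk i j k a b d → S x y = T x y) (q : Fin n) :
    cs S i j k q = cs T i j k q := by
  have h1 := hT.2 q
  have h2 := hS.2 q
  rw [sum_three _ h.1.1 h.1.2.1 h.1.2.2] at h1 h2
  have h3 : ∑ p ∈ univ.filter (fun p => p ≠ i ∧ p ≠ j ∧ p ≠ k), S p q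
      = ∑ p ∈ univ.filter (fun p => p ≠ i ∧ p ≠ j ∧ p ≠ k), T p q := by
    apply Finset.sum_congr rfl
    intro p hp
    simp only [mem_filter, mem_univ, true_and] at hp
    apply hoff
    rw [mem_blk]
    rintro ⟨h5 | h5 | h5, -⟩
    · exact hp.1 h5
    · exact hp.2.1 h5
    · exact hp.2.2 h5
  unfold cs
  omega

theorem nw_off (T : Fin m → Fin n → ℕ) (i j k : Fin m) (a b d : Fin n) (u : ℕ × ℕ × ℕ × ℕ)
    (x : Fin m) (y : Fin n) (h : (x, y) ∉ blk i j k a b d) : nw T i j k a b d u x y = T x y := by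
  rw [mem_blk] at h
  unfold nw
  split_ifs <;> first | rfl | (exfalso; apply h; tauto)

theorem nw_table {r : Fin m → ℕ} {c : Fin n → ℕ} {T : Fin m → Fin n → ℕ} (hT : IsTable r c T)
    {i j k : Fin m} {a b d : Fin n} (h : Dst i j k a b d) (u : ℕ × ℕ × ℕ × ℕ)
    (hu : CT2.Val (rs T i a b d) (rs T j a b d) (cs T i j k a) (cs T i j k b) (cs T i j k d) u) :
    IsTable r c (nw T i j k a b d u) := by
  obtain ⟨⟨hij, hik, hjk⟩, hab, had, hbd⟩ := h
  obtain ⟨u1, u2, u3, u4⟩ := u
  obtain ⟨v1, v2, v3, v4, v5⟩ := hu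
  simp only at v1 v2 v3 v4 v5
  have hoffrow : ∀ p, ∑ q ∈ univ.filter (fun q => q ≠ a ∧ q ≠ b ∧ q ≠ d),
      nw T i j k a b d (u1, u2, u3, u4) p q
      = ∑ q ∈ univ.filter (fun q => q ≠ a ∧ q ≠ b ∧ q ≠ d), T p q := by
    intro p
    apply Finset.sum_congr rfl
    intro q hq
    simp only [mem_filter, mem_univ, true_and] at hq
    apply nw_off
    rw [mem_blk]
    rintro ⟨-, h5 | h5 | h5⟩
    · exact hq.1 h5
    · exact hq.2.1 h5
    · exact hq.2.2 h5
  have hoffcol : ∀ q, ∑ p ∈ univ.filter (fun p => p ≠ i ∧ p ≠ j ∧ p ≠ k),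
      nw T i j k a b d (u1, u2, u3, u4) p q
      = ∑ p ∈ univ.filter (fun p => p ≠ i ∧ p ≠ j ∧ p ≠ k), T p q := by
    intro q
    apply Finset.sum_congr rfl
    intro p hp
    simp only [mem_filter, mem_univ, true_and] at hp
    apply nw_off
    rw [mem_blk]
    rintro ⟨h5 | h5 | h5, -⟩
    · exact hp.1 h5
    · exact hp.2.1 h5
    · exact hp.2.2 h5
  constructor
  · intro p
    have h1 := hT.1 p
    rw [sum_three _ hab had hbd] at h1 ⊢
    rw [hoffrow p]
    by_cases hp1 : p = i
    · subst hp1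
      simp only [nw, if_true, hab.symm, had.symm, hbd.symm, if_false]
      unfold rs cs at *
      omega
    · by_cases hp2 : p = j
      · subst hp2
        simp only [nw, if_true, hp1, hab.symm, had.symm, hbd.symm, if_false]
        unfold rs cs at *
        omega
      · by_cases hp3 : p = k
        · subst hp3
          simp only [nw, if_true, hp1, hp2, hab.symm, had.symm, hbd.symm, if_false]
          unfold rs cs at *
          omega
        · simp only [nw, hp1, hp2, hp3, if_false]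
          exact h1
  · intro q
    have h1 := hT.2 q
    rw [sum_three _ hij hik hjk] at h1 ⊢
    rw [hoffcol q]
    by_cases hq1 : q = a
    · subst hq1
      simp only [nw, if_true, hij.symm, hik.symm, hjk.symm, if_false]
      unfold rs cs at *
      omega
    · by_cases hq2 : q = b
      · subst hq2
        simp only [nw, if_true, hq1, hij.symm, hik.symm, hjk.symm, if_false]
        unfold rs cs at *
        omega
      · by_cases hq3 : q = d
        · subst hq3
          simp only [nw, if_true, hq1, hq2, hij.symm, hik.symm, hjk.symm, if_false]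
          unfold rs cs at *
          omega
        · simp only [nw, if_true, hq1, hq2, hq3, hij.symm, hik.symm, hjk.symm, if_false]
          exact h1

/-- the coordinates of a table of the fibre -/
def crd (i j : Fin m) (a b : Fin n) (S : Fin m → Fin n → ℕ) : ℕ × ℕ × ℕ × ℕ :=
  (S i a, S i b, S j a, S j b)

theorem crd_nw (T : Fin m → Fin n → ℕ) {i j k : Fin m} {a b d : Fin n} (h : Dst i j k a b d)
    (u : ℕ × ℕ × ℕ × ℕ) : crd i j a b (nw T i j k a b d u) = u := by
  obtain ⟨⟨hij, hik, hjk⟩, hab, had, hbd⟩ := h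
  obtain ⟨u1, u2, u3, u4⟩ := u
  simp [crd, nw, hij.symm, hab.symm]

theorem crd_val {r : Fin m → ℕ} {c : Fin n → ℕ} {T S : Fin m → Fin n → ℕ} (hT : IsTable r c T)
    (hS : IsTable r c S) {i j k : Fin m} {a b d : Fin n} (h : Dst i j k a b d)
    (hoff : ∀ x y, (x, y) ∉ blk i j k a b d → S x y = T x y) :
    CT2.Val (rs T i a b d) (rs T j a b d) (cs T i j k a) (cs T i j k b) (cs T i j k d)
      (crd i j a b S) ∧
    crd i j a b S ∈ CT2.Bx (rs T i a b d) (rs T j a b d) (cs T i j k a) (cs T i j k b) := by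
  rw [← rs_eq hT hS h hoff i, ← rs_eq hT hS h hoff j, ← cs_eq hT hS h hoff a,
    ← cs_eq hT hS h hoff b, ← cs_eq hT hS h hoff d]
  constructor
  · unfold CT2.Val crd rs cs
    simp only
    omega
  · unfold CT2.Bx crd rs cs
    simp only [Finset.mem_product, Finset.mem_range]
    omega

theorem nw_crd {r : Fin m → ℕ} {c : Fin n → ℕ} {T S : Fin m → Fin n → ℕ} (hT : IsTable r c T)
    (hS : IsTable r c S) {i j k : Fin m} {a b d : Fin n} (h : Dst i j k a b d)
    (hoff : ∀ x y, (x, y) ∉ blk i j k a b d → S x y = T x y) :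
    nw T i j k a b d (crd i j a b S) = S := by
  have e1 := rs_eq hT hS h hoff i
  have e2 := rs_eq hT hS h hoff j
  have e3 := cs_eq hT hS h hoff a
  have e4 := cs_eq hT hS h hoff b
  have e5 := cs_eq hT hS h hoff d
  funext p q
  by_cases hb : (p, q) ∈ blk i j k a b d
  · obtain ⟨⟨hij, hik, hjk⟩, hab, had, hbd⟩ := h
    rw [mem_blk] at hb
    unfold nw crd
    rw [← e1, ← e2, ← e3, ← e4, ← e5]
    unfold rs cs
    rcases hb with ⟨rfl | rfl | rfl, rfl | rfl | rfl⟩ <;>
      simp only [if_true, hij.symm, hik.symm, hjk.symm, hab.symm, had.symm, hbd.symm, if_false] <;>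
      omega
  · rw [nw_off _ _ _ _ _ _ _ _ _ _ hb, hoff p q hb]

theorem fib_cardA (r : Fin m → ℕ) (c : Fin n → ℕ) {T : Fin m → Fin n → ℕ} (hT : T ∈ tables r c)
    {i j k : Fin m} {a b d : Fin n} (h : Dst i j k a b d) :
    (CT.fib r c (blk i j k a b d) T).card
      = ((CT2.Bx (rs T i a b d) (rs T j a b d) (cs T i j k a) (cs T i j k b)).filter
        (CT2.Val (rs T i a b d) (rs T j a b d) (cs T i j k a) (cs T i j k b)
          (cs T i j k d))).card := by
  rw [mem_tables] at hT
  refine Finset.card_nbij' (crd i j a b) (nw T i j k a b d) ?_ ?_ ?_ ?_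
  · intro S hS
    simp only [CT.fib, Finset.coe_filter, Set.mem_ofPred_eq, ← tables_eqA, mem_tables] at hS ⊢
    obtain ⟨h1, h2⟩ := crd_val hT hS.1 h hS.2
    exact ⟨h2, h1⟩
  · intro u hu
    simp only [CT.fib, Finset.coe_filter, Set.mem_ofPred_eq, ← tables_eqA, mem_tables] at hu ⊢
    exact ⟨nw_table hT h u hu.2, fun x y hxy => nw_off _ _ _ _ _ _ _ _ _ _ hxy⟩
  · intro S hS
    simp only [CT.fib, Finset.coe_filter, Set.mem_ofPred_eq, ← tables_eqA, mem_tables] at hS
    exact nw_crd hT hS.1 h hS.2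
  · intro u hu
    exact crd_nw T h u

theorem four_sum (p1 p2 g1 g2 : ℕ) (F : ℕ × ℕ × ℕ × ℕ → ℝ) :
    (∑ u1 ∈ range (min p1 g1 + 1), ∑ u2 ∈ range (min p1 g2 + 1), ∑ u3 ∈ range (min p2 g1 + 1),
      ∑ u4 ∈ range (min p2 g2 + 1), F (u1, u2, u3, u4)) = ∑ u ∈ CT2.Bx p1 p2 g1 g2, F u := by
  unfold CT2.Bx
  rw [Finset.sum_product]
  refine Finset.sum_congr rfl fun u1 _ => ?_
  rw [Finset.sum_product]
  refine Finset.sum_congr rfl fun u2 _ => ?_
  rw [Finset.sum_product]

theorem nxt_countA (r : Fin m → ℕ) (c : Fin n → ℕ) {T S : Fin m → Fin n → ℕ}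
    (hT : T ∈ tables r c) (hS : S ∈ tables r c) {i j k : Fin m} {a b d : Fin n}
    (h : Dst i j k a b d) :
    (∑ u1 ∈ range (min (rs T i a b d) (cs T i j k a) + 1),
      ∑ u2 ∈ range (min (rs T i a b d) (cs T i j k b) + 1),
        ∑ u3 ∈ range (min (rs T j a b d) (cs T i j k a) + 1),
          ∑ u4 ∈ range (min (rs T j a b d) (cs T i j k b) + 1),
            if nxt T i j k a b d u1 u2 u3 u4 = S then (1 : ℝ) else 0)
      = (if S ∈ CT.fib r c (blk i j k a b d) T then 1 else 0)
        + (((CT2.Bx (rs T i a b d) (rs T j a b d) (cs T i j k a) (cs T i j k b)).card : ℝ)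
          - ((CT.fib r c (blk i j k a b d) T).card : ℝ)) * (if T = S then 1 else 0) := by
  rw [fib_cardA r c hT h]
  rw [four_sum (rs T i a b d) (rs T j a b d) (cs T i j k a) (cs T i j k b)
    (fun u => if nxt T i j k a b d u.1 u.2.1 u.2.2.1 u.2.2.2 = S then (1 : ℝ) else 0)]
  rw [← Finset.sum_filter_add_sum_filter_not _ (CT2.Val (rs T i a b d) (rs T j a b d)
    (cs T i j k a) (cs T i j k b) (cs T i j k d))]
  have hT' := mem_tables.1 hT
  have hS' := mem_tables.1 hS
  congr 1
  · have h1 : ∀ u ∈ (CT2.Bx (rs T i a b d) (rs T j a b d) (cs T i j k a) (cs T i j k b)).filter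
        (CT2.Val (rs T i a b d) (rs T j a b d) (cs T i j k a) (cs T i j k b) (cs T i j k d)),
        (if nxt T i j k a b d u.1 u.2.1 u.2.2.1 u.2.2.2 = S then (1 : ℝ) else 0)
        = if u = crd i j a b S then (if S ∈ CT.fib r c (blk i j k a b d) T then (1 : ℝ) else 0)
          else 0 := by
      intro u hu
      rw [mem_filter] at hu
      rw [nxt_eq T h u, if_pos hu.2]
      by_cases hf : S ∈ CT.fib r c (blk i j k a b d) T
      · rw [if_pos hf]
        have hf' := hf
        simp only [CT.fib, mem_filter] at hf'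
        by_cases hu2 : u = crd i j a b S
        · rw [if_pos hu2, if_pos]
          rw [hu2]
          exact nw_crd hT' hS' h hf'.2
        · rw [if_neg hu2, if_neg]
          intro h5
          apply hu2
          rw [← h5, crd_nw T h u]
      · rw [if_neg hf]
        rw [if_neg]
        · simp
        · intro h5
          apply hf
          simp only [CT.fib, mem_filter]
          refine ⟨by rw [← tables_eqA]; exact hS, ?_⟩
          intro x y hxy
          rw [← h5]
          exact nw_off _ _ _ _ _ _ _ _ _ _ hxy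
    rw [Finset.sum_congr rfl h1, Finset.sum_ite_eq']
    by_cases hf : S ∈ CT.fib r c (blk i j k a b d) T
    · have hf' := hf
      simp only [CT.fib, mem_filter] at hf'
      obtain ⟨h6, h7⟩ := crd_val hT' hS' h hf'.2
      rw [if_pos (mem_filter.2 ⟨h7, h6⟩)]
    · rw [if_neg hf]; simp
  · have h1 : ∀ u ∈ (CT2.Bx (rs T i a b d) (rs T j a b d) (cs T i j k a) (cs T i j k b)).filter
        (fun u => ¬ CT2.Val (rs T i a b d) (rs T j a b d) (cs T i j k a) (cs T i j k b)
          (cs T i j k d) u),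
        (if nxt T i j k a b d u.1 u.2.1 u.2.2.1 u.2.2.2 = S then (1 : ℝ) else 0)
        = (if T = S then (1 : ℝ) else 0) := by
      intro u hu
      rw [mem_filter] at hu
      rw [nxt_eq T h u, if_neg hu.2]
    rw [Finset.sum_congr rfl h1, Finset.sum_const, nsmul_eq_mul]
    congr 1
    have h2 := Finset.card_filter_add_card_filter_not
      (s := CT2.Bx (rs T i a b d) (rs T j a b d) (cs T i j k a) (cs T i j k b))
      (CT2.Val (rs T i a b d) (rs T j a b d) (cs T i j k a) (cs T i j k b) (cs T i j k d))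
    rw [← h2]
    push_cast
    ring

/-- agree off the block -/
def Rel (p : (Fin m × Fin m × Fin m) × (Fin n × Fin n × Fin n)) (T S : Fin m → Fin n → ℕ) :
    Prop :=
  ∀ x y, (x, y) ∉ blk p.1.1 p.1.2.1 p.1.2.2 p.2.1 p.2.2.1 p.2.2.2 → T x y = S x y

/-- acceptance probability -/
noncomputable def lam (r : Fin m → ℕ) (c : Fin n → ℕ)
    (p : (Fin m × Fin m × Fin m) × (Fin n × Fin n × Fin n)) (T : Fin m → Fin n → ℕ) : ℝ :=
  if Dst p.1.1 p.1.2.1 p.1.2.2 p.2.1 p.2.2.1 p.2.2.2 then
    ((CT.fib r c (blk p.1.1 p.1.2.1 p.1.2.2 p.2.1 p.2.2.1 p.2.2.2) T).card : ℝ) /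
    ((CT2.Bx (rs T p.1.1 p.2.1 p.2.2.1 p.2.2.2) (rs T p.1.2.1 p.2.1 p.2.2.1 p.2.2.2)
      (cs T p.1.1 p.1.2.1 p.1.2.2 p.2.1) (cs T p.1.1 p.1.2.1 p.1.2.2 p.2.2.1)).card : ℝ)
  else 0

theorem Bx_card (p1 p2 g1 g2 : ℕ) : ((CT2.Bx p1 p2 g1 g2).card : ℝ)
    = ((min p1 g1 + 1 : ℕ) : ℝ) * ((min p1 g2 + 1 : ℕ) : ℝ) * ((min p2 g1 + 1 : ℕ) : ℝ)
      * ((min p2 g2 + 1 : ℕ) : ℝ) := by
  simp only [CT2.Bx, Finset.card_product, Finset.card_range]
  push_cast
  ring

theorem Bx_pos (p1 p2 g1 g2 : ℕ) : (0 : ℝ) < ((CT2.Bx p1 p2 g1 g2).card : ℝ) := by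
  rw [Bx_card]; positivity

theorem lam_leA (r : Fin m → ℕ) (c : Fin n → ℕ)
    (p : (Fin m × Fin m × Fin m) × (Fin n × Fin n × Fin n)) {T : Fin m → Fin n → ℕ}
    (hT : T ∈ tables r c) : 0 ≤ lam r c p T ∧ lam r c p T ≤ 1 := by
  unfold lam
  split_ifs with h
  · constructor
    · positivity
    · rw [div_le_one (Bx_pos _ _ _ _), fib_cardA r c hT h]
      exact_mod_cast Finset.card_le_card (Finset.filter_subset _ _)
  · constructor <;> norm_num

theorem trans_eqA (r : Fin m → ℕ) (c : Fin n → ℕ)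
    {T S : Fin m → Fin n → ℕ} (hT : T ∈ tables r c) (hS : S ∈ tables r c) :
    trans T S = (∑ p : (Fin m × Fin m × Fin m) × (Fin n × Fin n × Fin n),
      (lam r c p T * CT2.kb (tables r c) (Rel p) T S + (1 - lam r c p T) * (if T = S then 1 else 0)))
      / (Fintype.card ((Fin m × Fin m × Fin m) × (Fin n × Fin n × Fin n)) : ℝ) := by
  have hcard : (Fintype.card ((Fin m × Fin m × Fin m) × (Fin n × Fin n × Fin n)) : ℝ)
      = (m : ℝ) ^ 3 * (n : ℝ) ^ 3 := by
    simp only [Fintype.card_prod, Fintype.card_fin]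
    push_cast
    ring
  rw [hcard]
  unfold trans
  congr 1
  simp only [Fintype.sum_prod_type]
  refine Finset.sum_congr rfl fun i _ => Finset.sum_congr rfl fun j _ =>
    Finset.sum_congr rfl fun k _ => Finset.sum_congr rfl fun a _ =>
    Finset.sum_congr rfl fun b _ => Finset.sum_congr rfl fun d _ => ?_
  rw [← Bx_card]
  have hB := Bx_pos (rs T i a b d) (rs T j a b d) (cs T i j k a) (cs T i j k b)
  by_cases h : Dst i j k a b d
  · rw [nxt_countA r c hT hS h]
    have hfe : (tables r c).filter (fun z => Rel ((i, j, k), (a, b, d)) T z)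
        = CT.fib r c (blk i j k a b d) T := by
      ext z
      simp only [CT.fib, mem_filter, ← tables_eqA]
      exact ⟨fun h1 => ⟨h1.1, fun x y hxy => (h1.2 x y hxy).symm⟩,
        fun h1 => ⟨h1.1, fun x y hxy => (h1.2 x y hxy).symm⟩⟩
    have hf0 : (0 : ℝ) < ((CT.fib r c (blk i j k a b d) T).card : ℝ) := by
      have : 0 < (CT.fib r c (blk i j k a b d) T).card := by
        apply Finset.card_pos.2
        refine ⟨T, ?_⟩
        simp only [CT.fib, mem_filter, ← tables_eqA]
        exact ⟨hT, fun _ _ _ => trivial⟩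
      exact_mod_cast this
    unfold CT2.kb
    rw [hfe]
    unfold lam
    simp only [if_pos h]
    have hiff : S ∈ CT.fib r c (blk i j k a b d) T ↔ Rel ((i, j, k), (a, b, d)) T S := by
      rw [← hfe, mem_filter]
      exact ⟨fun h1 => h1.2, fun h1 => ⟨hS, h1⟩⟩
    by_cases hr : Rel ((i, j, k), (a, b, d)) T S
    · rw [if_pos (hiff.2 hr), if_pos hr]
      field_simp
    · rw [if_neg (fun h1 => hr (hiff.1 h1)), if_neg hr]
      field_simp
      ring
  · have h1 : ∀ u1 u2 u3 u4, nxt T i j k a b d u1 u2 u3 u4 = T := by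
      intro u1 u2 u3 u4
      unfold nxt
      rw [if_neg]
      intro h2
      exact h ⟨h2.1, h2.2.1⟩
    simp only [h1]
    rw [four_sum (rs T i a b d) (rs T j a b d) (cs T i j k a) (cs T i j k b)
      (fun _ => if T = S then (1 : ℝ) else 0), Finset.sum_const, nsmul_eq_mul]
    unfold lam
    simp only [if_neg h]
    field_simp
    ring

end CTSampler
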