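import Vale.Agent.CT2.HB

/-! # Mixing of lazy mixtures of class averages (piece LAZY)

`A_p f = λ_p E_p f + (1 - λ_p) f`, `λ_p ∈ [0,1]` constant on the classes of `R p`, `P` = average of the
`A_p`.  `‖A_p f‖² = ‖f‖² - ∑ (2λ - λ²) (f - E_p f)² ≤ ‖f‖² - ∑ λ (f - E_p f)²`, hence
`‖P f‖² ≤ (1 - 1/(K |ι|)) ‖f‖²` on mean zero functions. Same structure as `hb_mix`. -/

namespace CT2

open Finset
open scoped Classical

theorem lz_av_cls {α : Type} {X : Finset α} {R : α → α → Prop} (hR : Equivalence R) {x : α}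
    (hx : x ∈ X) (f : α → ℝ) (h : ∀ y ∈ X, R x y → f y = f x) : av X R f x = f x := by
  unfold av
  have h1 : ∑ y ∈ X.filter (fun y => R x y), f y
      = ∑ _y ∈ X.filter (fun y => R x y), f x := by
    apply sum_congr rfl
    intro y hy
    rw [mem_filter] at hy
    exact h y hy.1 hy.2
  rw [h1, sum_const, nsmul_eq_mul]
  have := card_class_pos hR hx
  field_simp

/-- the norm of one lazy class average -/
theorem lz_norm {α : Type} {X : Finset α} {R : α → α → Prop} (hR : Equivalence R)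
    (l : α → ℝ) (h0 : ∀ x ∈ X, 0 ≤ l x) (h1 : ∀ x ∈ X, l x ≤ 1)
    (hcl : ∀ x ∈ X, ∀ y ∈ X, R x y → l x = l y) (g : α → ℝ) :
    ∑ x ∈ X, (l x * av X R g x + (1 - l x) * g x) ^ 2
      ≤ ∑ x ∈ X, g x ^ 2 - ∑ x ∈ X, l x * (g x - av X R g x) ^ 2 := by
  have hort : ∑ x ∈ X, (l x * av X R g x) * (g x - av X R g x) = 0 := by
    have e1 := av_symm X hR (fun x => l x * av X R g x) g
    have e2 : ∀ x ∈ X, av X R (fun x => l x * av X R g x) x = l x * av X R g x := by
      intro x hx
      refine lz_av_cls hR hx (fun x => l x * av X R g x) ?_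
      intro y hy hxy
      rw [← hcl x hx y hy hxy, av_class X hR g hxy]
    have e3 : ∑ x ∈ X, av X R (fun x => l x * av X R g x) x * g x
        = ∑ x ∈ X, (l x * av X R g x) * g x :=
      sum_congr rfl fun x hx => by rw [e2 x hx]
    rw [e3] at e1
    have e4 : ∑ x ∈ X, (l x * av X R g x) * (g x - av X R g x)
        = ∑ x ∈ X, (l x * av X R g x) * g x - ∑ x ∈ X, (l x * av X R g x) * av X R g x := by
      rw [← sum_sub_distrib]
      exact sum_congr rfl fun x _ => by ring
    rw [e4]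
    linarith
  have hpt : ∀ x ∈ X, (l x * av X R g x + (1 - l x) * g x) ^ 2
      ≤ g x ^ 2 - l x * (g x - av X R g x) ^ 2
        - 2 * ((l x * av X R g x) * (g x - av X R g x)) := by
    intro x hx
    have a0 := h0 x hx
    have a1 := h1 x hx
    have e : g x ^ 2 - l x * (g x - av X R g x) ^ 2
        - 2 * ((l x * av X R g x) * (g x - av X R g x))
        - (l x * av X R g x + (1 - l x) * g x) ^ 2
        = l x * (1 - l x) * (g x - av X R g x) ^ 2 := by ring
    have h2 : 0 ≤ l x * (1 - l x) * (g x - av X R g x) ^ 2 :=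
      mul_nonneg (mul_nonneg a0 (by linarith)) (sq_nonneg _)
    linarith
  calc ∑ x ∈ X, (l x * av X R g x + (1 - l x) * g x) ^ 2
      ≤ ∑ x ∈ X, (g x ^ 2 - l x * (g x - av X R g x) ^ 2
        - 2 * ((l x * av X R g x) * (g x - av X R g x))) := sum_le_sum hpt
    _ = ∑ x ∈ X, g x ^ 2 - ∑ x ∈ X, l x * (g x - av X R g x) ^ 2
        - 2 * ∑ x ∈ X, (l x * av X R g x) * (g x - av X R g x) := by
        rw [sum_sub_distrib, sum_sub_distrib, mul_sum]
    _ = _ := by rw [hort]; ring

theorem lazy_mix {α ι : Type} [Fintype ι] [Nonempty ι] (X : Finset α) {R : ι → α → α → Prop}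
    (hR : ∀ p, Equivalence (R p)) (lam : ι → α → ℝ) (h0 : ∀ p, ∀ x ∈ X, 0 ≤ lam p x)
    (h1 : ∀ p, ∀ x ∈ X, lam p x ≤ 1)
    (hcl : ∀ p, ∀ x ∈ X, ∀ y ∈ X, R p x y → lam p x = lam p y)
    (st : α → α → ℝ)
    (hst : ∀ x ∈ X, ∀ y ∈ X, st x y = (∑ p, (lam p x * kb X (R p) x y
      + (1 - lam p x) * (if x = y then 1 else 0))) / (Fintype.card ι : ℝ))
    (K : ℝ) (hK : 1 ≤ K)
    (hP : ∀ f : α → ℝ, ∑ x ∈ X, f x = 0 →
      ∑ x ∈ X, f x ^ 2 ≤ K * ∑ p, ∑ x ∈ X, lam p x * (f x - av X (R p) f x) ^ 2)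
    (x0 : α) (hx0 : x0 ∈ X) (law : ℕ → α → ℝ)
    (hl0 : ∀ y ∈ X, law 0 y = if y = x0 then 1 else 0)
    (hl1 : ∀ t, ∀ y ∈ X, law (t + 1) y = ∑ x ∈ X, law t x * st x y)
    (eps : ℝ) (he : 0 < eps) (t : ℕ)
    (ht : 2 * K * (Fintype.card ι : ℝ) * ((1 / 2) * Real.log (X.card : ℝ) + Real.log (1 / eps))
      ≤ t) :
    (1 / 2) * ∑ x ∈ X, |law t x - 1 / (X.card : ℝ)| ≤ eps := by
  have hc : (1 : ℝ) ≤ (Fintype.card ι : ℝ) := by exact_mod_cast Fintype.card_pos (α := ι)
  have hcpos : (0 : ℝ) < (Fintype.card ι : ℝ) := by linarith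
  have hXpos : (0 : ℝ) < X.card := by exact_mod_cast card_pos.2 ⟨x0, hx0⟩
  have hKc : 1 ≤ K * (Fintype.card ι : ℝ) := by nlinarith
  have hKcpos : 0 < K * (Fintype.card ι : ℝ) := by linarith
  set rho : ℝ := 1 - 1 / (K * (Fintype.card ι : ℝ)) with hrho
  have hrnn : 0 ≤ rho := by
    have : 1 / (K * (Fintype.card ι : ℝ)) ≤ 1 := by
      rw [div_le_one hKcpos]
      exact hKc
    rw [hrho]
    linarith
  -- one step
  have hstep : ∀ n, ∀ y ∈ X, law (n + 1) y
      = (∑ p, (lam p y * av X (R p) (law n) y + (1 - lam p y) * law n y))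
        / (Fintype.card ι : ℝ) := by
    intro n y hy
    rw [hl1 n y hy]
    have e1 : ∀ x ∈ X, law n x * st x y
        = (∑ p, (lam p y * (kb X (R p) y x * law n x)
          + (1 - lam p y) * (if x = y then law n x else 0))) / (Fintype.card ι : ℝ) := by
      intro x hx
      rw [hst x hx y hy, mul_div_assoc', mul_sum]
      congr 1
      apply sum_congr rfl
      intro p _
      have e2 : lam p x * kb X (R p) x y = lam p y * kb X (R p) y x := by
        rw [kb_symm X (hR p) x y]
        by_cases hxy : R p x y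
        · rw [hcl p x hx y hy hxy]
        · have e3 : kb X (R p) y x = 0 := by
            unfold kb
            rw [if_neg (fun h => hxy ((hR p).symm h))]
          rw [e3, mul_zero, mul_zero]
      by_cases hxy : x = y
      · subst hxy
        rw [if_pos rfl, if_pos rfl]
        rw [mul_add, e2]
        ring
      · rw [if_neg hxy, if_neg hxy, mul_zero, mul_zero, add_zero, add_zero, e2]
        ring
    rw [sum_congr rfl e1, ← sum_div]
    congr 1
    rw [sum_comm]
    apply sum_congr rfl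
    intro p _
    rw [sum_add_distrib, ← mul_sum, ← av_eq, ← mul_sum, sum_ite_eq', if_pos hy]
  set g : ℕ → α → ℝ := fun n y => law n y - 1 / (X.card : ℝ) with hg
  have hgstep : ∀ n, ∀ y ∈ X, g (n + 1) y
      = (∑ p, (lam p y * av X (R p) (g n) y + (1 - lam p y) * g n y))
        / (Fintype.card ι : ℝ) := by
    intro n y hy
    rw [hg]
    simp only
    rw [hstep n y hy]
    have e1 : ∀ p, av X (R p) (fun y => law n y - 1 / (X.card : ℝ)) y
        = av X (R p) (law n) y - 1 / (X.card : ℝ) := by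
      intro p
      rw [av_sub X (R p) (law n) (fun _ => 1 / (X.card : ℝ)) y, av_one (hR p) hy]
    simp_rw [e1]
    have e2 : ∀ p, lam p y * (av X (R p) (law n) y - 1 / (X.card : ℝ))
        + (1 - lam p y) * (law n y - 1 / (X.card : ℝ))
        = (lam p y * av X (R p) (law n) y + (1 - lam p y) * law n y) - 1 / (X.card : ℝ) := by
      intro p
      ring
    simp_rw [e2]
    rw [sum_sub_distrib, sum_const, card_univ, nsmul_eq_mul, sub_div]
    congr 1
    field_simp
  -- sums
  have hsum : ∀ n, ∑ y ∈ X, g n y = 0 := by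
    intro n
    induction n with
    | zero =>
      have e1 : ∑ y ∈ X, law 0 y = 1 := by
        rw [sum_congr rfl hl0, sum_ite_eq', if_pos hx0]
      have e2 : ∑ y ∈ X, g 0 y = ∑ y ∈ X, law 0 y - ∑ _y ∈ X, 1 / (X.card : ℝ) := by
        rw [← sum_sub_distrib]
      rw [e2, e1, sum_const, nsmul_eq_mul]
      field_simp
      ring
    | succ n ih =>
      rw [sum_congr rfl (hgstep n), ← sum_div, sum_comm]
      have e1 : ∀ p, ∑ y ∈ X, (lam p y * av X (R p) (g n) y + (1 - lam p y) * g n y) = 0 := by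
        intro p
        have e2 := av_symm X (hR p) (lam p) (g n)
        have e3 : ∑ x ∈ X, av X (R p) (lam p) x * g n x = ∑ x ∈ X, lam p x * g n x := by
          apply sum_congr rfl
          intro x hx
          rw [lz_av_cls (hR p) hx (lam p) (fun y hy hxy => (hcl p x hx y hy hxy).symm)]
        have e4 : ∑ y ∈ X, (lam p y * av X (R p) (g n) y + (1 - lam p y) * g n y)
            = ∑ y ∈ X, lam p y * av X (R p) (g n) y - ∑ y ∈ X, lam p y * g n y
              + ∑ y ∈ X, g n y := by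
          rw [← sum_sub_distrib, ← sum_add_distrib]
          exact sum_congr rfl fun y _ => by ring
        rw [e4, e2, e3, ih]
        ring
      rw [sum_congr rfl fun p _ => e1 p, sum_const_zero, zero_div]
  -- norms
  have hnorm : ∀ n, ∑ y ∈ X, g n y ^ 2 ≤ rho ^ n := by
    intro n
    induction n with
    | zero =>
      have e1 : ∑ y ∈ X, g 0 y ^ 2 = 1 - 1 / (X.card : ℝ) := by
        have e2 : ∀ y ∈ X, g 0 y ^ 2 = (if y = x0 then (1 : ℝ) else 0)
            - 2 * (1 / (X.card : ℝ)) * (if y = x0 then (1 : ℝ) else 0)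
            + (1 / (X.card : ℝ)) ^ 2 := by
          intro y hy
          rw [hg]
          simp only
          rw [hl0 y hy]
          split_ifs <;> ring
        rw [sum_congr rfl e2, sum_add_distrib, sum_sub_distrib, ← mul_sum, sum_ite_eq',
          if_pos hx0, sum_const, nsmul_eq_mul]
        field_simp
        ring
      rw [e1, pow_zero]
      have : 0 < 1 / (X.card : ℝ) := by positivity
      linarith
    | succ n ih =>
      have e1 : ∀ y ∈ X, g (n + 1) y ^ 2
          ≤ (∑ p, (lam p y * av X (R p) (g n) y + (1 - lam p y) * g n y) ^ 2)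
            / (Fintype.card ι : ℝ) := by
        intro y hy
        rw [hgstep n y hy, div_pow]
        have e2 := sq_sum_le_card_mul_sum_sq (s := (univ : Finset ι))
          (f := fun p => lam p y * av X (R p) (g n) y + (1 - lam p y) * g n y)
        rw [card_univ] at e2
        rw [div_le_div_iff₀ (by positivity) hcpos]
        calc (∑ p, (lam p y * av X (R p) (g n) y + (1 - lam p y) * g n y)) ^ 2
              * (Fintype.card ι : ℝ)
            ≤ ((Fintype.card ι : ℝ) * ∑ p, (lam p y * av X (R p) (g n) y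
              + (1 - lam p y) * g n y) ^ 2) * (Fintype.card ι : ℝ) :=
              mul_le_mul_of_nonneg_right e2 hcpos.le
          _ = _ := by ring
      have e3 : ∑ y ∈ X, g (n + 1) y ^ 2
          ≤ (∑ p, (∑ x ∈ X, g n x ^ 2 - ∑ x ∈ X, lam p x * (g n x - av X (R p) (g n) x) ^ 2))
            / (Fintype.card ι : ℝ) := by
        refine (sum_le_sum e1).trans ?_
        rw [← sum_div, sum_comm]
        apply div_le_div_of_nonneg_right _ hcpos.le
        exact sum_le_sum fun p _ => lz_norm (hR p) (lam p) (h0 p) (h1 p) (hcl p) (g n)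
      have e4 := hP (g n) (hsum n)
      have e5 : (∑ p, (∑ x ∈ X, g n x ^ 2 - ∑ x ∈ X, lam p x * (g n x - av X (R p) (g n) x) ^ 2))
            / (Fintype.card ι : ℝ)
          = ∑ x ∈ X, g n x ^ 2
            - (∑ p, ∑ x ∈ X, lam p x * (g n x - av X (R p) (g n) x) ^ 2)
              / (Fintype.card ι : ℝ) := by
        rw [sum_sub_distrib, sum_const, card_univ, nsmul_eq_mul, sub_div]
        congr 1
        field_simp
      rw [e5] at e3
      set Q : ℝ := ∑ p, ∑ x ∈ X, lam p x * (g n x - av X (R p) (g n) x) ^ 2 with hQ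
      have e6 : 1 / (K * (Fintype.card ι : ℝ)) * ∑ x ∈ X, g n x ^ 2
          ≤ Q / (Fintype.card ι : ℝ) := by
        calc 1 / (K * (Fintype.card ι : ℝ)) * ∑ x ∈ X, g n x ^ 2
            ≤ 1 / (K * (Fintype.card ι : ℝ)) * (K * Q) :=
              mul_le_mul_of_nonneg_left e4 (by positivity)
          _ = Q / (Fintype.card ι : ℝ) := by
              have hK0 : K ≠ 0 := by linarith
              field_simp
      calc ∑ y ∈ X, g (n + 1) y ^ 2 ≤ ∑ x ∈ X, g n x ^ 2 - Q / (Fintype.card ι : ℝ) := e3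
        _ ≤ ∑ x ∈ X, g n x ^ 2
            - 1 / (K * (Fintype.card ι : ℝ)) * ∑ x ∈ X, g n x ^ 2 := by linarith
        _ = rho * ∑ x ∈ X, g n x ^ 2 := by rw [hrho]; ring
        _ ≤ rho * rho ^ n := mul_le_mul_of_nonneg_left ih hrnn
        _ = rho ^ (n + 1) := by ring
  -- exponential decay
  have hexp : rho ^ t ≤ Real.exp (-(t : ℝ) / (K * (Fintype.card ι : ℝ))) := by
    have e1 : rho ≤ Real.exp (-(1 / (K * (Fintype.card ι : ℝ)))) := by
      have := Real.add_one_le_exp (-(1 / (K * (Fintype.card ι : ℝ))))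
      rw [hrho]
      linarith
    calc rho ^ t ≤ (Real.exp (-(1 / (K * (Fintype.card ι : ℝ))))) ^ t :=
          pow_le_pow_left₀ hrnn e1 t
      _ = Real.exp (-(t : ℝ) / (K * (Fintype.card ι : ℝ))) := by
          rw [← Real.exp_nat_mul]
          congr 1
          ring
  have hcs : (∑ x ∈ X, |g t x|) ^ 2 ≤ (X.card : ℝ) * ∑ x ∈ X, g t x ^ 2 := by
    have := sq_sum_le_card_mul_sum_sq (s := X) (f := fun x => |g t x|)
    simpa [sq_abs] using this
  have hfin : (X.card : ℝ) * ∑ x ∈ X, g t x ^ 2 ≤ eps ^ 2 := by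
    have e1 : (X.card : ℝ) * ∑ x ∈ X, g t x ^ 2
        ≤ (X.card : ℝ) * Real.exp (-(t : ℝ) / (K * (Fintype.card ι : ℝ))) :=
      mul_le_mul_of_nonneg_left ((hnorm t).trans hexp) hXpos.le
    refine e1.trans ?_
    have e2 : Real.log (X.card : ℝ) + 2 * Real.log (1 / eps)
        ≤ (t : ℝ) / (K * (Fintype.card ι : ℝ)) := by
      rw [le_div_iff₀ hKcpos]
      calc (Real.log (X.card : ℝ) + 2 * Real.log (1 / eps)) * (K * (Fintype.card ι : ℝ))
          = 2 * K * (Fintype.card ι : ℝ)
            * ((1 / 2) * Real.log (X.card : ℝ) + Real.log (1 / eps)) := by ring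
        _ ≤ t := ht
    have e3 : (X.card : ℝ) = Real.exp (Real.log (X.card : ℝ)) := (Real.exp_log hXpos).symm
    have e4 : eps ^ 2 = Real.exp (2 * Real.log eps) := by
      rw [show (2 : ℝ) * Real.log eps = ((2 : ℕ) : ℝ) * Real.log eps by norm_num,
        Real.exp_nat_mul, Real.exp_log he]
    rw [e4, e3, ← Real.exp_add]
    apply Real.exp_le_exp.2
    have e5 : Real.log (1 / eps) = - Real.log eps := by
      rw [one_div, Real.log_inv]
    rw [e5] at e2
    have e6 : -(t : ℝ) / (K * (Fintype.card ι : ℝ)) = -((t : ℝ) / (K * (Fintype.card ι : ℝ))) := by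
      ring
    rw [e6]
    linarith
  have hle : ∑ x ∈ X, |g t x| ≤ eps := by
    apply abs_le_of_sq_le_sq' _ he.le |>.2
    exact hcs.trans hfin
  have hnn : 0 ≤ ∑ x ∈ X, |g t x| := sum_nonneg fun x _ => abs_nonneg _
  calc (1 / 2) * ∑ x ∈ X, |law t x - 1 / (X.card : ℝ)| = (1 / 2) * ∑ x ∈ X, |g t x| := rfl
    _ ≤ eps := by linarith

end CT2
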