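import Vale.Agent.CT2.Sampler
import Vale.Agent.CT.BMixA
import Vale.Agent.CT.BP3A24

/-! # Poincare inequality with acceptance probabilities (piece X-PO, helper18) -/

namespace CTSampler

open Finset
open scoped Classical

section gen

variable {I J : Type} [Fintype I] [DecidableEq I] [Fintype J] [DecidableEq J]

theorem po18_mono (r : I → ℕ) (c : J → ℕ) {B B' : Finset (I × J)} (hB : B ⊆ B')
    (f : (I → J → ℕ) → ℝ) : CT.VV r c B f ≤ CT.VV r c B' f := by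
  rw [CT.VV, CT.VV, ← CT.p3_avg B (fun T => (f T - CT.CE r c B f T) ^ 2),
    ← CT.p3_avg B (fun T => (f T - CT.CE r c B' f T) ^ 2)]
  refine sum_le_sum fun T0 hT0 => mul_le_mul_of_nonneg_left ?_ (by positivity)
  have h1 : ∀ T ∈ CT.fib r c B T0, CT.CE r c B f T = CT.CE r c B f T0 := by
    intro T hT
    rw [CT.CE, CT.CE, CT.p3_fib_eq B hT]
  have h2 : ∀ T ∈ CT.fib r c B T0, CT.CE r c B' f T = CT.CE r c B' f T0 := by
    intro T hT
    have hT' : T ∈ CT.fib r c B' T0 := by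
      rw [CT.fib, mem_filter] at hT ⊢
      exact ⟨hT.1, fun i j hij => hT.2 i j (fun h => hij (hB h))⟩
    rw [CT.CE, CT.CE, CT.p3_fib_eq B' hT']
  have hpos := CT.p3_card_pos B hT0
  have e1 : ∑ T ∈ CT.fib r c B T0, (f T - CT.CE r c B f T) ^ 2
      = ∑ T ∈ CT.fib r c B T0, (f T - CT.CE r c B f T0) ^ 2 :=
    sum_congr rfl fun T hT => by rw [h1 T hT]
  have e2 : ∑ T ∈ CT.fib r c B T0, (f T - CT.CE r c B' f T) ^ 2
      = ∑ T ∈ CT.fib r c B T0, (f T - CT.CE r c B' f T0) ^ 2 :=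
    sum_congr rfl fun T hT => by rw [h2 T hT]
  rw [e1, e2]
  have hs : ∑ T ∈ CT.fib r c B T0, f T
      = CT.CE r c B f T0 * ((CT.fib r c B T0).card : ℝ) := by
    rw [CT.CE]
    field_simp
  generalize CT.CE r c B' f T0 = β
  generalize CT.CE r c B f T0 = α at hs ⊢
  have e3 : ∀ γ : ℝ, ∑ T ∈ CT.fib r c B T0, (f T - γ) ^ 2
      = ∑ T ∈ CT.fib r c B T0, f T ^ 2 - 2 * γ * ∑ T ∈ CT.fib r c B T0, f T
        + γ ^ 2 * ((CT.fib r c B T0).card : ℝ) := by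
    intro γ
    have : ∀ T ∈ CT.fib r c B T0, (f T - γ) ^ 2 = f T ^ 2 - 2 * γ * f T + γ ^ 2 := by
      intro T _; ring
    rw [sum_congr rfl this, sum_add_distrib, sum_sub_distrib, ← mul_sum, sum_const, nsmul_eq_mul]
    ring
  rw [e3, e3, hs]
  nlinarith [mul_nonneg hpos.le (sq_nonneg (α - β))]

theorem po18_mem_fib {r : I → ℕ} {c : J → ℕ} {B : Finset (I × J)} {T S : I → J → ℕ} :
    S ∈ CT.fib r c B T ↔ S ∈ CT.TT r c ∧ ∀ i j, (i, j) ∉ B → S i j = T i j := by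
  unfold CT.fib
  exact mem_filter

/-- rotations of triples -/
def rt {α : Type} (s : Fin 3) (x : α × α × α) : α × α × α :=
  if s = 0 then x else if s = 1 then (x.2.1, x.2.2, x.1) else (x.2.2, x.1, x.2.1)

theorem rt_rt {α : Type} (s : Fin 3) (x : α × α × α) : rt (-s) (rt s x) = x := by
  fin_cases s <;> rfl

theorem rt_rt' {α : Type} (s : Fin 3) (x : α × α × α) : rt s (rt (-s) x) = x := by
  fin_cases s <;> rfl

/-- the rotation as a bijection -/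
def rtE {α : Type} (s : Fin 3) : α × α × α ≃ α × α × α where
  toFun := rt s
  invFun := rt (-s)
  left_inv := rt_rt s
  right_inv := rt_rt' s

theorem rt_set {α : Type} [DecidableEq α] (s : Fin 3) (x : α × α × α) :
    ({(rt s x).1, (rt s x).2.1, (rt s x).2.2} : Finset α) = {x.1, x.2.1, x.2.2} := by
  fin_cases s
  · rfl
  · ext y
    simp only [rt, mem_insert, mem_singleton]
    simp
    tauto
  · ext y
    simp only [rt, mem_insert, mem_singleton]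
    simp
    tauto

theorem rt_dist {α : Type} (s : Fin 3) (x : α × α × α)
    (h : x.1 ≠ x.2.1 ∧ x.1 ≠ x.2.2 ∧ x.2.1 ≠ x.2.2) :
    (rt s x).1 ≠ (rt s x).2.1 ∧ (rt s x).1 ≠ (rt s x).2.2 ∧ (rt s x).2.1 ≠ (rt s x).2.2 := by
  obtain ⟨h1, h2, h3⟩ := h
  fin_cases s
  · exact ⟨h1, h2, h3⟩
  · exact ⟨h3, h1.symm, h2.symm⟩
  · exact ⟨h2.symm, h3.symm, h1⟩

theorem rt_sum {α : Type} (s : Fin 3) (x : α × α × α) (g : α → ℕ) :
    g (rt s x).1 + g (rt s x).2.1 + g (rt s x).2.2 = g x.1 + g x.2.1 + g x.2.2 := by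
  fin_cases s
  · rfl
  · change g x.2.1 + g x.2.2 + g x.1 = _
    ring
  · change g x.2.2 + g x.1 + g x.2.1 = _
    ring

theorem rt_max {α : Type} (x : α × α × α) (g : α → ℕ) :
    ∃ s : Fin 3, g (rt s x).1 ≤ g (rt s x).2.2 ∧ g (rt s x).2.1 ≤ g (rt s x).2.2 := by
  by_cases h1 : g x.1 ≤ g x.2.2 ∧ g x.2.1 ≤ g x.2.2
  · exact ⟨0, h1⟩
  · by_cases h2 : g x.2.1 ≤ g x.1 ∧ g x.2.2 ≤ g x.1
    · exact ⟨1, h2⟩
    · refine ⟨2, ?_, ?_⟩
      · change g x.2.2 ≤ g x.2.1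
        omega
      · change g x.1 ≤ g x.2.1
        omega

end gen

variable {m n : ℕ}

/-- three distinct indices containing three given ones -/
theorem ext3 (hm : 3 ≤ m) (x : Fin m × Fin m × Fin m) :
    ∃ y : Fin m × Fin m × Fin m, (y.1 ≠ y.2.1 ∧ y.1 ≠ y.2.2 ∧ y.2.1 ≠ y.2.2) ∧
      ({x.1, x.2.1, x.2.2} : Finset (Fin m)) ⊆ {y.1, y.2.1, y.2.2} := by
  have h1 : ({x.1, x.2.1, x.2.2} : Finset (Fin m)).card ≤ 3 := card_le_three
  obtain ⟨S, hS, hc⟩ := Finset.exists_superset_card_eq h1 (by rw [Fintype.card_fin]; exact hm)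
  obtain ⟨a, b, d, hab, had, hbd, rfl⟩ := card_eq_three.mp hc
  exact ⟨(a, b, d), ⟨hab, had, hbd⟩, hS⟩

theorem po18 (hm : 3 ≤ m) (hn : 3 ≤ n) (r : Fin m → ℕ) (c : Fin n → ℕ) (C : ℝ) (hC : 1 ≤ C)
    (h : CT.P3 r c C)
    (lam : (Fin m × Fin m × Fin m) × (Fin n × Fin n × Fin n) → (Fin m → Fin n → ℕ) → ℝ)
    (h0 : ∀ p, ∀ T ∈ CT.TT r c, 0 ≤ lam p T)
    (hge : ∀ T ∈ CT.TT r c, ∀ (i j k : Fin m) (a b d : Fin n),
      ((i ≠ j ∧ i ≠ k ∧ j ≠ k) ∧ (a ≠ b ∧ a ≠ d ∧ b ≠ d)) →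
      rs T i a b d ≤ rs T k a b d → rs T j a b d ≤ rs T k a b d →
      cs T i j k a ≤ cs T i j k d → cs T i j k b ≤ cs T i j k d →
      1 ≤ 36 ^ 4 * lam ((i, j, k), (a, b, d)) T)
    (f : (Fin m → Fin n → ℕ) → ℝ) (hf : ∑ T ∈ CT.TT r c, f T = 0) :
    ∑ T ∈ CT.TT r c, f T ^ 2 ≤ (729 * 9 * 36 ^ 4 * C) *
      ∑ p : (Fin m × Fin m × Fin m) × (Fin n × Fin n × Fin n), ∑ T ∈ CT.TT r c,
        lam p T * (f T - CT.CE r c (CT.bk p) f T) ^ 2 := by
  have hC0 : (0 : ℝ) ≤ C := by linarith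
  have hVnn : ∀ p : (Fin m × Fin m × Fin m) × (Fin n × Fin n × Fin n),
      0 ≤ CT.VV r c (CT.bk p) f := fun p => sum_nonneg fun _ _ => sq_nonneg _
  have s1 : ∑ T ∈ CT.TT r c, f T ^ 2
      ≤ C * ∑ p : (Fin m × Fin m × Fin m) × (Fin n × Fin n × Fin n), CT.VV r c (CT.bk p) f := by
    by_cases hne : (CT.TT r c).Nonempty
    · obtain ⟨T0, hT0⟩ := hne
      refine (CT.P3_poincare h hT0 f hf).trans (le_of_eq ?_)
      congr 1
      refine sum_congr rfl fun p _ => sum_congr rfl fun T _ => ?_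
      rw [CT.av_eq_CE]
    · rw [not_nonempty_iff_eq_empty.mp hne, sum_empty]
      exact mul_nonneg hC0 (sum_nonneg fun p _ => hVnn p)
  have s2 : ∑ p : (Fin m × Fin m × Fin m) × (Fin n × Fin n × Fin n), CT.VV r c (CT.bk p) f
      ≤ 729 * ∑ p ∈ univ.filter (fun p : (Fin m × Fin m × Fin m) × (Fin n × Fin n × Fin n) =>
        (p.1.1 ≠ p.1.2.1 ∧ p.1.1 ≠ p.1.2.2 ∧ p.1.2.1 ≠ p.1.2.2) ∧
          (p.2.1 ≠ p.2.2.1 ∧ p.2.1 ≠ p.2.2.2 ∧ p.2.2.1 ≠ p.2.2.2)), CT.VV r c (CT.bk p) f := by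
    choose Φ hΦ1 hΦ2 using ext3 hm
    choose Ψ hΨ1 hΨ2 using ext3 hn
    calc ∑ p : (Fin m × Fin m × Fin m) × (Fin n × Fin n × Fin n), CT.VV r c (CT.bk p) f
        ≤ ∑ p : (Fin m × Fin m × Fin m) × (Fin n × Fin n × Fin n),
            CT.VV r c (CT.bk (Φ p.1, Ψ p.2)) f := by
          refine sum_le_sum fun p _ => po18_mono r c ?_ f
          exact product_subset_product (hΦ2 p.1) (hΨ2 p.2)
      _ = ∑ q ∈ univ.filter (fun p : (Fin m × Fin m × Fin m) × (Fin n × Fin n × Fin n) =>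
        (p.1.1 ≠ p.1.2.1 ∧ p.1.1 ≠ p.1.2.2 ∧ p.1.2.1 ≠ p.1.2.2) ∧
          (p.2.1 ≠ p.2.2.1 ∧ p.2.1 ≠ p.2.2.2 ∧ p.2.2.1 ≠ p.2.2.2)),
            ∑ p ∈ univ.filter (fun p : (Fin m × Fin m × Fin m) × (Fin n × Fin n × Fin n) =>
              (Φ p.1, Ψ p.2) = q), CT.VV r c (CT.bk (Φ p.1, Ψ p.2)) f := by
          refine (sum_fiberwise_of_maps_to (fun p _ => ?_) _).symm
          rw [mem_filter]
          exact ⟨mem_univ _, hΦ1 p.1, hΨ1 p.2⟩
      _ ≤ ∑ q ∈ univ.filter (fun p : (Fin m × Fin m × Fin m) × (Fin n × Fin n × Fin n) =>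
        (p.1.1 ≠ p.1.2.1 ∧ p.1.1 ≠ p.1.2.2 ∧ p.1.2.1 ≠ p.1.2.2) ∧
          (p.2.1 ≠ p.2.2.1 ∧ p.2.1 ≠ p.2.2.2 ∧ p.2.2.1 ≠ p.2.2.2)),
            729 * CT.VV r c (CT.bk q) f := by
          refine sum_le_sum fun q _ => ?_
          have e1 : ∑ p ∈ univ.filter (fun p : (Fin m × Fin m × Fin m) × (Fin n × Fin n × Fin n) =>
              (Φ p.1, Ψ p.2) = q), CT.VV r c (CT.bk (Φ p.1, Ψ p.2)) f
              = ∑ p ∈ univ.filter (fun p : (Fin m × Fin m × Fin m) × (Fin n × Fin n × Fin n) =>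
              (Φ p.1, Ψ p.2) = q), CT.VV r c (CT.bk q) f :=
            sum_congr rfl fun p hp => by rw [(mem_filter.mp hp).2]
          rw [e1, sum_const, nsmul_eq_mul]
          refine mul_le_mul_of_nonneg_right ?_ (hVnn q)
          have e2 : univ.filter (fun p : (Fin m × Fin m × Fin m) × (Fin n × Fin n × Fin n) =>
              (Φ p.1, Ψ p.2) = q)
              ⊆ ((({q.1.1, q.1.2.1, q.1.2.2} : Finset (Fin m)) ×ˢ
                  ({q.1.1, q.1.2.1, q.1.2.2} : Finset (Fin m)) ×ˢ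
                  ({q.1.1, q.1.2.1, q.1.2.2} : Finset (Fin m))) ×ˢ
                (({q.2.1, q.2.2.1, q.2.2.2} : Finset (Fin n)) ×ˢ
                  ({q.2.1, q.2.2.1, q.2.2.2} : Finset (Fin n)) ×ˢ
                  ({q.2.1, q.2.2.1, q.2.2.2} : Finset (Fin n)))) := by
            intro p hp
            have hq := (mem_filter.mp hp).2
            have a1 := hΦ2 p.1
            have a2 := hΨ2 p.2
            have q1 : Φ p.1 = q.1 := by rw [← hq]
            have q2 : Ψ p.2 = q.2 := by rw [← hq]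
            rw [q1] at a1
            rw [q2] at a2
            rw [mem_product, mem_product, mem_product, mem_product, mem_product]
            refine ⟨⟨a1 ?_, a1 ?_, a1 ?_⟩, a2 ?_, a2 ?_, a2 ?_⟩ <;> simp
          have e3 := card_le_card e2
          rw [card_product, card_product, card_product, card_product, card_product] at e3
          have c1 : ({q.1.1, q.1.2.1, q.1.2.2} : Finset (Fin m)).card ≤ 3 := card_le_three
          have c2 : ({q.2.1, q.2.2.1, q.2.2.2} : Finset (Fin n)).card ≤ 3 := card_le_three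
          have e4 : (univ.filter (fun p : (Fin m × Fin m × Fin m) × (Fin n × Fin n × Fin n) =>
              (Φ p.1, Ψ p.2) = q)).card ≤ 729 := by
            refine e3.trans ?_
            calc _ ≤ (3 * (3 * 3)) * (3 * (3 * 3)) :=
                  Nat.mul_le_mul (Nat.mul_le_mul c1 (Nat.mul_le_mul c1 c1))
                    (Nat.mul_le_mul c2 (Nat.mul_le_mul c2 c2))
              _ = 729 := by norm_num
          exact_mod_cast e4
      _ = _ := by rw [mul_sum]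
  have s3 : ∑ p ∈ univ.filter (fun p : (Fin m × Fin m × Fin m) × (Fin n × Fin n × Fin n) =>
        (p.1.1 ≠ p.1.2.1 ∧ p.1.1 ≠ p.1.2.2 ∧ p.1.2.1 ≠ p.1.2.2) ∧
          (p.2.1 ≠ p.2.2.1 ∧ p.2.1 ≠ p.2.2.2 ∧ p.2.2.1 ≠ p.2.2.2)), CT.VV r c (CT.bk p) f
      ≤ 9 * 36 ^ 4 * ∑ p : (Fin m × Fin m × Fin m) × (Fin n × Fin n × Fin n), ∑ T ∈ CT.TT r c,
        lam p T * (f T - CT.CE r c (CT.bk p) f T) ^ 2 := by
    have hG : ∀ p : (Fin m × Fin m × Fin m) × (Fin n × Fin n × Fin n), ∀ T ∈ CT.TT r c,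
        0 ≤ lam p T * (f T - CT.CE r c (CT.bk p) f T) ^ 2 :=
      fun p T hT => mul_nonneg (h0 p T hT) (sq_nonneg _)
    have hpt : ∀ p ∈ univ.filter (fun p : (Fin m × Fin m × Fin m) × (Fin n × Fin n × Fin n) =>
        (p.1.1 ≠ p.1.2.1 ∧ p.1.1 ≠ p.1.2.2 ∧ p.1.2.1 ≠ p.1.2.2) ∧
          (p.2.1 ≠ p.2.2.1 ∧ p.2.1 ≠ p.2.2.2 ∧ p.2.2.1 ≠ p.2.2.2)), CT.VV r c (CT.bk p) f
        ≤ 36 ^ 4 * ∑ s : Fin 3, ∑ t : Fin 3, ∑ T ∈ CT.TT r c,
          lam (rt s p.1, rt t p.2) T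
            * (f T - CT.CE r c (CT.bk (rt s p.1, rt t p.2)) f T) ^ 2 := by
      intro p hp
      have hd := (mem_filter.mp hp).2
      have e1 : ∑ s : Fin 3, ∑ t : Fin 3, ∑ T ∈ CT.TT r c,
          lam (rt s p.1, rt t p.2) T
            * (f T - CT.CE r c (CT.bk (rt s p.1, rt t p.2)) f T) ^ 2
          = ∑ T ∈ CT.TT r c, ∑ s : Fin 3, ∑ t : Fin 3, lam (rt s p.1, rt t p.2) T
            * (f T - CT.CE r c (CT.bk (rt s p.1, rt t p.2)) f T) ^ 2 := by
        rw [sum_comm]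
        have : ∀ s : Fin 3, ∑ t : Fin 3, ∑ T ∈ CT.TT r c, lam (rt s p.1, rt t p.2) T
            * (f T - CT.CE r c (CT.bk (rt s p.1, rt t p.2)) f T) ^ 2
            = ∑ T ∈ CT.TT r c, ∑ t : Fin 3, lam (rt s p.1, rt t p.2) T
            * (f T - CT.CE r c (CT.bk (rt s p.1, rt t p.2)) f T) ^ 2 := fun s => sum_comm
        rw [sum_comm, sum_congr rfl fun s _ => this s, sum_comm]
      rw [e1, mul_sum, CT.VV]
      refine sum_le_sum fun T hT => ?_
      obtain ⟨s, hs1, hs2⟩ := rt_max p.1 (fun i => rs T i p.2.1 p.2.2.1 p.2.2.2)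
      obtain ⟨t, ht1, ht2⟩ := rt_max p.2 (fun a => cs T p.1.1 p.1.2.1 p.1.2.2 a)
      have hbk : CT.bk (rt s p.1, rt t p.2) = CT.bk p := by
        unfold CT.bk
        rw [rt_set s p.1, rt_set t p.2]
      have hrs : ∀ i, rs T i (rt t p.2).1 (rt t p.2).2.1 (rt t p.2).2.2
          = rs T i p.2.1 p.2.2.1 p.2.2.2 := fun i => rt_sum t p.2 (fun a => T i a)
      have hcs : ∀ a, cs T (rt s p.1).1 (rt s p.1).2.1 (rt s p.1).2.2 a
          = cs T p.1.1 p.1.2.1 p.1.2.2 a := fun a => rt_sum s p.1 (fun i => T i a)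
      have hl : 1 ≤ 36 ^ 4 * lam (rt s p.1, rt t p.2) T := by
        refine hge T hT (rt s p.1).1 (rt s p.1).2.1 (rt s p.1).2.2 (rt t p.2).1 (rt t p.2).2.1
          (rt t p.2).2.2 ⟨rt_dist s p.1 hd.1, rt_dist t p.2 hd.2⟩ ?_ ?_ ?_ ?_
        · rw [hrs, hrs]; exact hs1
        · rw [hrs, hrs]; exact hs2
        · rw [hcs, hcs]; exact ht1
        · rw [hcs, hcs]; exact ht2
      have k1 : (f T - CT.CE r c (CT.bk p) f T) ^ 2
          ≤ 36 ^ 4 * (lam (rt s p.1, rt t p.2) T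
            * (f T - CT.CE r c (CT.bk (rt s p.1, rt t p.2)) f T) ^ 2) := by
        rw [hbk]
        nlinarith [sq_nonneg (f T - CT.CE r c (CT.bk p) f T)]
      refine k1.trans (mul_le_mul_of_nonneg_left ?_ (by norm_num))
      calc lam (rt s p.1, rt t p.2) T
            * (f T - CT.CE r c (CT.bk (rt s p.1, rt t p.2)) f T) ^ 2
          ≤ ∑ t : Fin 3, lam (rt s p.1, rt t p.2) T
            * (f T - CT.CE r c (CT.bk (rt s p.1, rt t p.2)) f T) ^ 2 :=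
            single_le_sum (f := fun t : Fin 3 => lam (rt s p.1, rt t p.2) T
            * (f T - CT.CE r c (CT.bk (rt s p.1, rt t p.2)) f T) ^ 2)
              (fun t _ => hG _ T hT) (mem_univ t)
        _ ≤ _ := single_le_sum (f := fun s : Fin 3 => ∑ t : Fin 3, lam (rt s p.1, rt t p.2) T
            * (f T - CT.CE r c (CT.bk (rt s p.1, rt t p.2)) f T) ^ 2)
              (fun s _ => sum_nonneg fun t _ => hG _ T hT) (mem_univ s)
    have hG' : ∀ p : (Fin m × Fin m × Fin m) × (Fin n × Fin n × Fin n),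
        0 ≤ ∑ T ∈ CT.TT r c, lam p T * (f T - CT.CE r c (CT.bk p) f T) ^ 2 :=
      fun p => sum_nonneg fun T hT => hG p T hT
    refine (sum_le_sum hpt).trans ?_
    refine (sum_le_sum_of_subset_of_nonneg (subset_univ _) (fun p _ _ =>
      mul_nonneg (by norm_num) (sum_nonneg fun s _ => sum_nonneg fun t _ => hG' _))).trans ?_
    rw [← mul_sum, sum_comm]
    have e5 : ∀ s t : Fin 3, ∑ p : (Fin m × Fin m × Fin m) × (Fin n × Fin n × Fin n),
        ∑ T ∈ CT.TT r c, lam (rt s p.1, rt t p.2) T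
            * (f T - CT.CE r c (CT.bk (rt s p.1, rt t p.2)) f T) ^ 2
        = ∑ p : (Fin m × Fin m × Fin m) × (Fin n × Fin n × Fin n),
        ∑ T ∈ CT.TT r c, lam p T * (f T - CT.CE r c (CT.bk p) f T) ^ 2 := by
      intro s t
      exact Equiv.sum_comp (Equiv.prodCongr (rtE s) (rtE t))
        (fun p => ∑ T ∈ CT.TT r c, lam p T * (f T - CT.CE r c (CT.bk p) f T) ^ 2)
    have e6 : ∀ s : Fin 3, ∑ p : (Fin m × Fin m × Fin m) × (Fin n × Fin n × Fin n),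
        ∑ t : Fin 3, ∑ T ∈ CT.TT r c, lam (rt s p.1, rt t p.2) T
            * (f T - CT.CE r c (CT.bk (rt s p.1, rt t p.2)) f T) ^ 2
        = 3 * ∑ p : (Fin m × Fin m × Fin m) × (Fin n × Fin n × Fin n),
        ∑ T ∈ CT.TT r c, lam p T * (f T - CT.CE r c (CT.bk p) f T) ^ 2 := by
      intro s
      rw [sum_comm, sum_congr rfl fun t _ => e5 s t, sum_const, card_univ, Fintype.card_fin,
        nsmul_eq_mul]
      norm_num
    rw [sum_congr rfl fun s _ => e6 s, sum_const, card_univ, Fintype.card_fin, nsmul_eq_mul]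
    refine le_of_eq ?_
    push_cast
    ring
  calc ∑ T ∈ CT.TT r c, f T ^ 2
      ≤ C * (729 * (9 * 36 ^ 4 *
        ∑ p : (Fin m × Fin m × Fin m) × (Fin n × Fin n × Fin n), ∑ T ∈ CT.TT r c,
        lam p T * (f T - CT.CE r c (CT.bk p) f T) ^ 2)) :=
        s1.trans (mul_le_mul_of_nonneg_left
          (s2.trans (mul_le_mul_of_nonneg_left s3 (by norm_num))) hC0)
    _ = _ := by ring

end CTSampler
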