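import Vale.Agent.CT2.XBrA
import Vale.Agent.CT2.XBr4
import Vale.Agent.CT2.XLazy
import Vale.Agent.CT.BMix
import Vale.Agent.CT2.XPo18

/-! # Bridge between the sampler and the blocks (piece BR)

Definitions `blk`, `Dst`, `Rel`, `lam` and the pieces BR1, BR2, BR3 are in `XBrA.lean`. -/

namespace CTSampler

open Finset
open scoped Classical

variable {m n : ℕ}

theorem tables_eq (r : Fin m → ℕ) (c : Fin n → ℕ) : tables r c = CT.TT r c :=
  tables_eqA r c

/-- BR1: valid proposals correspond to the tables of the fibre (`u = (S i a, S i b, S j a, S j b)`) -/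
theorem fib_card (r : Fin m → ℕ) (c : Fin n → ℕ) {T : Fin m → Fin n → ℕ} (hT : T ∈ tables r c)
    {i j k : Fin m} {a b d : Fin n} (h : Dst i j k a b d) :
    (CT.fib r c (blk i j k a b d) T).card
      = ((CT2.Bx (rs T i a b d) (rs T j a b d) (cs T i j k a) (cs T i j k b)).filter
        (CT2.Val (rs T i a b d) (rs T j a b d) (cs T i j k a) (cs T i j k b)
          (cs T i j k d))).card :=
  fib_cardA r c hT h

/-- BR3: transition probabilities -/
theorem trans_eq (r : Fin m → ℕ) (c : Fin n → ℕ)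
    {T S : Fin m → Fin n → ℕ} (hT : T ∈ tables r c) (hS : S ∈ tables r c) :
    trans T S = (∑ p : (Fin m × Fin m × Fin m) × (Fin n × Fin n × Fin n),
      (lam r c p T * CT2.kb (tables r c) (Rel p) T S + (1 - lam r c p T) * (if T = S then 1 else 0)))
      / (Fintype.card ((Fin m × Fin m × Fin m) × (Fin n × Fin n × Fin n)) : ℝ) :=
  trans_eqA r c hT hS

theorem lam_le (r : Fin m → ℕ) (c : Fin n → ℕ)
    (p : (Fin m × Fin m × Fin m) × (Fin n × Fin n × Fin n)) {T : Fin m → Fin n → ℕ}
    (hT : T ∈ tables r c) : 0 ≤ lam r c p T ∧ lam r c p T ≤ 1 :=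
  lam_leA r c p hT

/-- BR4: `lam` is a class function -/
theorem lam_class (r : Fin m → ℕ) (c : Fin n → ℕ)
    (p : (Fin m × Fin m × Fin m) × (Fin n × Fin n × Fin n)) {T S : Fin m → Fin n → ℕ}
    (hT : T ∈ tables r c) (hS : S ∈ tables r c) (h : Rel p T S) : lam r c p T = lam r c p S :=
  lam_classA r c p hT hS h

/-- BR5: lower bound when `k`, `d` are the largest row and column of the block (`acc`) -/
theorem lam_ge (r : Fin m → ℕ) (c : Fin n → ℕ) {T : Fin m → Fin n → ℕ} (hT : T ∈ tables r c)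
    {i j k : Fin m} {a b d : Fin n} (h : Dst i j k a b d)
    (h1 : rs T i a b d ≤ rs T k a b d) (h2 : rs T j a b d ≤ rs T k a b d)
    (h3 : cs T i j k a ≤ cs T i j k d) (h4 : cs T i j k b ≤ cs T i j k d) :
    1 ≤ 36 ^ 4 * lam r c ((i, j, k), (a, b, d)) T :=
  lam_geA r c hT h h1 h2 h3 h4

/-- BR6: Poincare inequality with the acceptance probabilities.  `P3` bounds the variance by all blocks;
for `m, n ≥ 3` every block is contained in a block with distinct rows and columns (27 x 27 tuples each,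
block variances are monotone), and one of the 3 x 3 cyclic rotations has its largest row and column
last. -/
theorem po (hm : 3 ≤ m) (hn : 3 ≤ n) (r : Fin m → ℕ) (c : Fin n → ℕ) (C : ℝ) (hC : 1 ≤ C)
    (h : CT.P3 r c C) (f : (Fin m → Fin n → ℕ) → ℝ) (hf : ∑ T ∈ tables r c, f T = 0) :
    ∑ T ∈ tables r c, f T ^ 2 ≤ (729 * 9 * 36 ^ 4 * C) *
      ∑ p : (Fin m × Fin m × Fin m) × (Fin n × Fin n × Fin n), ∑ T ∈ tables r c,
        lam r c p T * (f T - CT2.av (tables r c) (Rel p) f T) ^ 2 := by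
  have key := po18 hm hn r c C hC h (lam r c)
    (fun p T hT => (lam_le r c p (by rw [tables_eq]; exact hT)).1)
    (fun T hT i j k a b d hd h1 h2 h3 h4 => lam_ge r c (by rw [tables_eq]; exact hT) hd h1 h2 h3 h4)
    f (by rw [← tables_eq]; exact hf)
  rw [tables_eq]
  refine key.trans (le_of_eq ?_)
  congr 1
  refine sum_congr rfl fun p _ => sum_congr rfl fun T _ => ?_
  have h1 : (CT.TT r c).filter (fun S => Rel p T S) = CT.fib r c (CT.bk p) T := by
    ext S
    rw [po18_mem_fib]
    have e1 : S ∈ (CT.TT r c).filter (fun S => Rel p T S) ↔ S ∈ CT.TT r c ∧ Rel p T S :=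
      mem_filter
    rw [e1]
    refine and_congr Iff.rfl ?_
    exact ⟨fun hS x y hxy => (hS x y hxy).symm, fun hS x y hxy => (hS x y hxy).symm⟩
  unfold CT2.av CT.CE
  rw [h1]

end CTSampler
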