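import Vale.Agent.CT2.XBridge

/-! # X-FIN: mixing of the explicit sampler from the bridge lemmas -/

namespace CTSampler

open Finset
open scoped Classical

variable {m n : ℕ}

theorem xf_mem_tables {r : Fin m → ℕ} {c : Fin n → ℕ} {T : Fin m → Fin n → ℕ} :
    T ∈ tables r c ↔ IsTable r c T := by
  unfold tables
  rw [mem_filter]
  refine ⟨fun h => h.2, fun h => ⟨?_, h⟩⟩
  rw [Fintype.mem_piFinset]
  intro i
  rw [Fintype.mem_piFinset]
  intro j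
  rw [mem_range, Nat.lt_succ_iff, ← h.2 j]
  exact single_le_sum (f := fun i => T i j) (fun _ _ => Nat.zero_le _) (mem_univ i)

theorem xf_Rel_equiv (p : (Fin m × Fin m × Fin m) × (Fin n × Fin n × Fin n)) :
    Equivalence (Rel p) := by
  refine ⟨fun T x y _ => rfl, fun h x y hl => (h x y hl).symm, fun h1 h2 x y hl => ?_⟩
  rw [h1 x y hl, h2 x y hl]

theorem xf_card_tables_le (r : Fin m → ℕ) (c : Fin n → ℕ) (N : ℕ) (hc : ∑ j, c j = N) :
    ((tables r c).card : ℝ) ≤ ((N : ℝ) + 1) ^ (m * n) := by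
  have h1 : (tables r c).card ≤ (N + 1) ^ (m * n) := by
    unfold tables
    refine (card_filter_le _ _).trans ?_
    rw [Fintype.card_piFinset, prod_const, Fintype.card_piFinset, card_univ, Fintype.card_fin]
    have h2 : ∏ j : Fin n, (range (c j + 1)).card ≤ (N + 1) ^ n := by
      calc ∏ j : Fin n, (range (c j + 1)).card ≤ ∏ _j : Fin n, (N + 1) := by
            apply prod_le_prod'
            intro j _
            rw [card_range, ← hc]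
            have := single_le_sum (f := c) (fun _ _ => Nat.zero_le _) (mem_univ j)
            omega
        _ = (N + 1) ^ n := by rw [prod_const, card_univ, Fintype.card_fin]
    calc (∏ j : Fin n, (range (c j + 1)).card) ^ m ≤ ((N + 1) ^ n) ^ m :=
          Nat.pow_le_pow_left h2 m
      _ = (N + 1) ^ (m * n) := by rw [← pow_mul, mul_comm]
  exact_mod_cast h1

theorem xf_card : (Fintype.card ((Fin m × Fin m × Fin m) × (Fin n × Fin n × Fin n)) : ℝ)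
    = (m : ℝ) ^ 3 * (n : ℝ) ^ 3 := by
  rw [Fintype.card_prod, Fintype.card_prod, Fintype.card_prod, Fintype.card_prod,
    Fintype.card_prod, Fintype.card_fin, Fintype.card_fin]
  push_cast
  ring

theorem xf_law_zero (r : Fin m → ℕ) (c : Fin n → ℕ) (T₀ y : Fin m → Fin n → ℕ) :
    law r c T₀ 0 y = if y = T₀ then 1 else 0 := by
  unfold law
  split_ifs <;> rfl

theorem xf_law_succ (r : Fin m → ℕ) (c : Fin n → ℕ) (T₀ : Fin m → Fin n → ℕ) (t : ℕ)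
    (y : Fin m → Fin n → ℕ) :
    law r c T₀ (t + 1) y = ∑ x ∈ tables r c, law r c T₀ t x * trans x y := by
  rw [law]

theorem xf_arith (x y l G E X : ℝ) (hx : 1 ≤ x) (hy : 1 ≤ y) (hl : 0 ≤ l) (hG : 0 ≤ G)
    (hE : 0 ≤ E) (hX : X ≤ x * y * l) :
    2 * (729 * 9 * 36 ^ 4 * (10 ^ 25 * (x + 1) ^ 2 * (y + 1) ^ 13 * G ^ 4)) * (x ^ 3 * y ^ 3)
        * ((1 / 2) * X + E)
      ≤ 10 ^ 37 * (x + 1) ^ 6 * (y + 1) ^ 17 * G ^ 4 * (1 + l + E) := by
  have hxy : 1 ≤ x * y := one_le_mul_of_one_le_of_one_le hx hy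
  have hB : (1 / 2) * X + E ≤ (x * y) * (1 + l + E) := by
    have e1 : E ≤ x * y * E := le_mul_of_one_le_left hE hxy
    have e3 : 0 ≤ x * y * l := by positivity
    have e2 : x * y * (1 + l + E) = x * y + x * y * l + x * y * E := by ring
    rw [e2]
    linarith
  have hB0 : 0 ≤ 1 + l + E := by linarith
  obtain ⟨B, hBd⟩ : ∃ B, B = 1 + l + E := ⟨_, rfl⟩
  obtain ⟨k1, hk1⟩ : ∃ k : ℝ, k = 2 * (729 * 9 * 36 ^ 4) * 10 ^ 25 := ⟨_, rfl⟩
  obtain ⟨k2, hk2⟩ : ∃ k : ℝ, k = 10 ^ 37 := ⟨_, rfl⟩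
  have a1 : k1 ≤ k2 := by
    rw [hk1, hk2]
    norm_num
  have hk0 : 0 ≤ k1 := by
    rw [hk1]
    positivity
  rw [← hBd] at hB hB0 ⊢
  rw [show 2 * (729 * 9 * 36 ^ 4 * (10 ^ 25 * (x + 1) ^ 2 * (y + 1) ^ 13 * G ^ 4)) * (x ^ 3 * y ^ 3)
        * ((1 / 2) * X + E) = (2 * (729 * 9 * 36 ^ 4) * 10 ^ 25) * ((x + 1) ^ 2 * (y + 1) ^ 13 * G ^ 4)
        * (x ^ 3 * y ^ 3) * ((1 / 2) * X + E) by ring, ← hk1, ← hk2]
  clear hk1 hk2 hBd
  have hc : 0 ≤ k1 * ((x + 1) ^ 2 * (y + 1) ^ 13 * G ^ 4) * (x ^ 3 * y ^ 3) := by positivity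
  refine (mul_le_mul_of_nonneg_left hB hc).trans ?_
  have a2 : x ^ 4 ≤ (x + 1) ^ 4 := pow_le_pow_left₀ (by linarith) (by linarith) 4
  have a3 : y ^ 4 ≤ (y + 1) ^ 4 := pow_le_pow_left₀ (by linarith) (by linarith) 4
  have a5 : k1 * x ^ 4 * y ^ 4 ≤ k2 * (x + 1) ^ 4 * (y + 1) ^ 4 := by
    have := mul_le_mul a1 a2 (by positivity) (by linarith)
    exact mul_le_mul this a3 (by positivity) (mul_nonneg (by linarith) (by positivity))
  have hD : 0 ≤ (x + 1) ^ 2 * (y + 1) ^ 13 * G ^ 4 * B := by positivity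
  have := mul_le_mul_of_nonneg_right a5 hD
  calc _ = k1 * x ^ 4 * y ^ 4 * ((x + 1) ^ 2 * (y + 1) ^ 13 * G ^ 4 * B) := by ring
    _ ≤ k2 * (x + 1) ^ 4 * (y + 1) ^ 4 * ((x + 1) ^ 2 * (y + 1) ^ 13 * G ^ 4 * B) := this
    _ = _ := by ring

theorem xf_one_le (x y G : ℝ) (hx : 1 ≤ x) (hy : 1 ≤ y) (hG : 1 ≤ G) :
    1 ≤ 10 ^ 25 * (x + 1) ^ 2 * (y + 1) ^ 13 * G ^ 4 := by
  have ha : (1 : ℝ) ≤ (x + 1) ^ 2 := one_le_pow₀ (by linarith)
  have hb : (1 : ℝ) ≤ (y + 1) ^ 13 := one_le_pow₀ (by linarith)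
  have hd : (1 : ℝ) ≤ G ^ 4 := one_le_pow₀ hG
  have h10 : (1 : ℝ) ≤ 10 ^ 25 := by norm_num
  exact one_le_mul_of_one_le_of_one_le (one_le_mul_of_one_le_of_one_le
    (one_le_mul_of_one_le_of_one_le h10 ha) hb) hd

theorem xf_log_card (r : Fin m → ℕ) (c : Fin n → ℕ) (N : ℕ) (hc : ∑ j, c j = N)
    {T₀ : Fin m → Fin n → ℕ} (hT' : T₀ ∈ tables r c) :
    Real.log ((tables r c).card : ℝ) ≤ (m : ℝ) * n * Real.log ((N : ℝ) + 1) := by
  have hXpos : (0 : ℝ) < (tables r c).card := by exact_mod_cast card_pos.2 ⟨T₀, hT'⟩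
  have := Real.log_le_log hXpos (xf_card_tables_le r c N hc)
  rw [Real.log_pow] at this
  push_cast at this
  exact this

theorem xf_mix (hm1 : 1 ≤ m) (hn1 : 1 ≤ n) (r : Fin m → ℕ) (c : Fin n → ℕ)
    (K : ℝ) (hK : 1 ≤ K)
    (hP : ∀ f : (Fin m → Fin n → ℕ) → ℝ, ∑ T ∈ tables r c, f T = 0 →
      ∑ T ∈ tables r c, f T ^ 2 ≤ K *
        ∑ p : (Fin m × Fin m × Fin m) × (Fin n × Fin n × Fin n), ∑ T ∈ tables r c,
          lam r c p T * (f T - CT2.av (tables r c) (Rel p) f T) ^ 2)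
    (T₀ : Fin m → Fin n → ℕ) (hT' : T₀ ∈ tables r c)
    (ε : ℝ) (h0 : 0 < ε) (t : ℕ)
    (ht : 2 * K * ((m : ℝ) ^ 3 * (n : ℝ) ^ 3) *
      ((1 / 2) * Real.log ((tables r c).card : ℝ) + Real.log (1 / ε)) ≤ t) :
    tvUnif r c (law r c T₀ t) ≤ ε := by
  have hmI : Nonempty (Fin m) := ⟨⟨0, hm1⟩⟩
  have hnJ : Nonempty (Fin n) := ⟨⟨0, hn1⟩⟩
  refine CT2.lazy_mix (ι := (Fin m × Fin m × Fin m) × (Fin n × Fin n × Fin n))
    (tables r c) (R := Rel) xf_Rel_equiv (lam r c)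
    (fun p x hx => (lam_le r c p hx).1) (fun p x hx => (lam_le r c p hx).2)
    (fun p x hx y hy h => lam_class r c p hx hy h) trans ?_ K hK hP T₀ hT' (law r c T₀)
    ?_ (fun t y _ => xf_law_succ r c T₀ t y) ε h0 t
    (by rw [xf_card]; exact ht)
  · intro x hx y hy
    rw [trans_eq r c hx hy]
    congr 1
    refine Finset.sum_congr rfl fun p _ => ?_
    by_cases hxy : x = y
    · rw [if_pos hxy, if_pos hxy]
    · rw [if_neg hxy, if_neg hxy]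
  · intro y _
    rw [xf_law_zero]
    by_cases hxy : y = T₀
    · rw [if_pos hxy, if_pos hxy]
    · rw [if_neg hxy, if_neg hxy]

/-- FIN -/
theorem sampler_mix (hm : 3 ≤ m) (hn : 3 ≤ n) (r : Fin m → ℕ) (c : Fin n → ℕ) (N : ℕ)
    (hr : ∑ i, r i = N) (hc : ∑ j, c j = N) (T₀ : Fin m → Fin n → ℕ) (hT : IsTable r c T₀)
    (ε : ℝ) (h0 : 0 < ε) (h1 : ε < 1) (t : ℕ)
    (ht : 10 ^ 37 * ((m : ℝ) + 1) ^ 6 * ((n : ℝ) + 1) ^ 17 * (1 + Real.log ((N : ℝ) + 1)) ^ 4 *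
      (1 + Real.log ((N : ℝ) + 1) + Real.log (1 / ε)) ≤ t) :
    tvUnif r c (law r c T₀ t) ≤ ε := by
  have hm1 : 1 ≤ m := by omega
  have hn1 : 1 ≤ n := by omega
  have hszc : CT.sz c = N := hc
  have hg := CT.p3_all r c (by rw [hr, hszc])
  rw [hszc, Fintype.card_fin, Fintype.card_fin] at hg
  have hT' : T₀ ∈ tables r c := xf_mem_tables.2 hT
  have hmR : (1 : ℝ) ≤ m := by exact_mod_cast hm1
  have hnR : (1 : ℝ) ≤ n := by exact_mod_cast hn1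
  have hlogN : 0 ≤ Real.log ((N : ℝ) + 1) := Real.log_nonneg (by
    have : (0 : ℝ) ≤ N := Nat.cast_nonneg _
    linarith)
  have hlogε : 0 ≤ Real.log (1 / ε) := Real.log_nonneg (by
    rw [le_div_iff₀ h0]
    linarith)
  have hlg : (1 : ℝ) ≤ CT.lg N := by
    unfold CT.lg
    linarith
  have hC := xf_one_le (m : ℝ) n (CT.lg N) hmR hnR hlg
  refine xf_mix hm1 hn1 r c _ ?_ (fun f hf => po hm hn r c _ hC hg f hf) T₀ hT' ε h0 t ?_
  · have h2 : (1 : ℝ) ≤ 729 * 9 * 36 ^ 4 := by norm_num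
    exact one_le_mul_of_one_le_of_one_le h2 hC
  · refine (xf_arith (m : ℝ) n (Real.log ((N : ℝ) + 1)) (CT.lg N) (Real.log (1 / ε))
      (Real.log ((tables r c).card : ℝ)) hmR hnR hlogN (by linarith) hlogε
      (xf_log_card r c N hc hT')).trans ?_
    unfold CT.lg
    exact ht

end CTSampler
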