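import Vale.Agent.CT2.XPadDef
import Vale.Agent.CT2.XFin26

/-! # The sampler for all dimensions: zero padding -/

namespace CTSampler

open Finset
open scoped Classical

variable {m n : ℕ}

theorem pad_left (r : Fin m → ℕ) (i : Fin m) : pad r (Fin.castAdd 2 i) = r i := by
  simp [pad]

theorem pad_right (r : Fin m → ℕ) (i : Fin 2) : pad r (Fin.natAdd m i) = 0 := by
  simp [pad]

theorem padT_left (T : Fin m → Fin n → ℕ) (i : Fin m) :
    padT T (Fin.castAdd 2 i) = pad (T i) := by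
  simp [padT]

theorem padT_right (T : Fin m → Fin n → ℕ) (i : Fin 2) :
    padT T (Fin.natAdd m i) = fun _ => 0 := by
  simp [padT]

theorem xpad_sum_pad (r : Fin m → ℕ) : ∑ i, pad r i = ∑ i, r i := by
  rw [Fin.sum_univ_add]
  simp [pad_left, pad_right]

theorem padT_inj : Function.Injective (padT : (Fin m → Fin n → ℕ) → _) := by
  intro T S h
  funext i j
  have h1 := congrFun (congrFun h (Fin.castAdd 2 i)) (Fin.castAdd 2 j)
  rwa [padT_left, padT_left, pad_left, pad_left] at h1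

theorem isTable_padT {r : Fin m → ℕ} {c : Fin n → ℕ} {T : Fin m → Fin n → ℕ}
    (hT : IsTable r c T) : IsTable (pad r) (pad c) (padT T) := by
  constructor
  · intro i
    refine Fin.addCases (fun i => ?_) (fun i => ?_) i
    · rw [padT_left, pad_left, xpad_sum_pad]; exact hT.1 i
    · rw [padT_right, pad_right]; simp
  · intro j
    rw [Fin.sum_univ_add]
    have h2 : ∑ i : Fin 2, padT T (Fin.natAdd m i) j = 0 := by
      apply Finset.sum_eq_zero; intro i _; rw [padT_right]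
    rw [h2, add_zero]
    refine Fin.addCases (fun j => ?_) (fun j => ?_) j
    · rw [pad_left, ← hT.2 j]
      apply Finset.sum_congr rfl; intro i _; rw [padT_left, pad_left]
    · rw [pad_right]
      apply Finset.sum_eq_zero; intro i _; rw [padT_left, pad_right]

theorem padT_surj {r : Fin m → ℕ} {c : Fin n → ℕ} {S : Fin (m + 2) → Fin (n + 2) → ℕ}
    (hS : IsTable (pad r) (pad c) S) : ∃ T, IsTable r c T ∧ padT T = S := by
  have h1 : ∀ (i : Fin 2) (j : Fin (n + 2)), S (Fin.natAdd m i) j = 0 := by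
    intro i j
    have := hS.1 (Fin.natAdd m i)
    rw [pad_right, Finset.sum_eq_zero_iff] at this
    exact this j (mem_univ _)
  have h2 : ∀ (i : Fin (m + 2)) (j : Fin 2), S i (Fin.natAdd n j) = 0 := by
    intro i j
    have := hS.2 (Fin.natAdd n j)
    rw [pad_right, Finset.sum_eq_zero_iff] at this
    exact this i (mem_univ _)
  refine ⟨fun i j => S (Fin.castAdd 2 i) (Fin.castAdd 2 j), ⟨?_, ?_⟩, ?_⟩
  · intro i
    have := hS.1 (Fin.castAdd 2 i)
    rw [Fin.sum_univ_add, pad_left] at this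
    simpa [h2] using this
  · intro j
    have := hS.2 (Fin.castAdd 2 j)
    rw [Fin.sum_univ_add, pad_left] at this
    simpa [h1] using this
  · funext i j
    refine Fin.addCases (fun i => ?_) (fun i => ?_) i
    · rw [padT_left]
      refine Fin.addCases (fun j => ?_) (fun j => ?_) j
      · rw [pad_left]
      · rw [pad_right, h2]
    · rw [padT_right, h1]

theorem xpad_mem_tables {r : Fin m → ℕ} {c : Fin n → ℕ} {T : Fin m → Fin n → ℕ} :
    T ∈ tables r c ↔ IsTable r c T := by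
  unfold tables
  rw [mem_filter]
  constructor
  · exact fun h => h.2
  · intro h
    refine ⟨?_, h⟩
    simp only [Fintype.mem_piFinset, mem_range]
    intro i j
    have h3 : T i j ≤ ∑ k, T k j :=
      Finset.single_le_sum (f := fun k => T k j) (fun _ _ => Nat.zero_le _) (mem_univ i)
    have h4 := h.2 j
    omega

theorem tables_pad (r : Fin m → ℕ) (c : Fin n → ℕ) :
    tables (pad r) (pad c) = (tables r c).image padT := by
  ext S
  rw [mem_image]
  constructor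
  · intro h
    obtain ⟨T, h1, h2⟩ := padT_surj (xpad_mem_tables.1 h)
    exact ⟨T, xpad_mem_tables.2 h1, h2⟩
  · rintro ⟨T, h1, rfl⟩
    exact xpad_mem_tables.2 (isTable_padT (xpad_mem_tables.1 h1))

theorem tvUnif_pad (r : Fin m → ℕ) (c : Fin n → ℕ) (mu : (Fin (m + 2) → Fin (n + 2) → ℕ) → ℝ) :
    tvUnif r c (fun T => mu (padT T)) = tvUnif (pad r) (pad c) mu := by
  unfold tvUnif
  rw [tables_pad, Finset.sum_image (fun _ _ _ _ h => padT_inj h),
    Finset.card_image_of_injective _ padT_inj]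

/-- the sampler for all dimensions -/
theorem sampler_mix_pad (hm : 1 ≤ m) (hn : 1 ≤ n) (r : Fin m → ℕ) (c : Fin n → ℕ) (N : ℕ)
    (hr : ∑ i, r i = N) (hc : ∑ j, c j = N) (T₀ : Fin m → Fin n → ℕ) (hT : IsTable r c T₀)
    (ε : ℝ) (h0 : 0 < ε) (h1 : ε < 1) (t : ℕ)
    (ht : 10 ^ 44 * ((m : ℝ) + 1) ^ 6 * ((n : ℝ) + 1) ^ 17 * (1 + Real.log ((N : ℝ) + 1)) ^ 4 *
      (1 + Real.log ((N : ℝ) + 1) + Real.log (1 / ε)) ≤ t) :
    tvUnif r c (fun T => law (pad r) (pad c) (padT T₀) t (padT T)) ≤ ε := by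
  rw [tvUnif_pad r c (law (pad r) (pad c) (padT T₀) t)]
  apply sampler_mix (by omega) (by omega) (pad r) (pad c) N (by rw [xpad_sum_pad]; exact hr)
    (by rw [xpad_sum_pad]; exact hc) (padT T₀) (isTable_padT hT) ε h0 h1 t
  refine le_trans ?_ ht
  have hL : 0 ≤ Real.log ((N : ℝ) + 1) := Real.log_nonneg (by linarith [Nat.cast_nonneg (α := ℝ) N])
  have hE : 0 ≤ Real.log (1 / ε) := Real.log_nonneg (by rw [le_div_iff₀ h0]; linarith)
  have hm' : (1 : ℝ) ≤ m := by exact_mod_cast hm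
  have hn' : (1 : ℝ) ≤ n := by exact_mod_cast hn
  have e1 : (((m + 2 : ℕ) : ℝ) + 1) ^ 6 ≤ (2 * ((m : ℝ) + 1)) ^ 6 := by
    apply pow_le_pow_left₀ (by positivity); push_cast; linarith
  have e2 : (((n + 2 : ℕ) : ℝ) + 1) ^ 17 ≤ (2 * ((n : ℝ) + 1)) ^ 17 := by
    apply pow_le_pow_left₀ (by positivity); push_cast; linarith
  have e3 : (((m + 2 : ℕ) : ℝ) + 1) ^ 6 * (((n + 2 : ℕ) : ℝ) + 1) ^ 17
      ≤ (2 * ((m : ℝ) + 1)) ^ 6 * (2 * ((n : ℝ) + 1)) ^ 17 := by
    apply mul_le_mul e1 e2 (by positivity) (by positivity)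
  have e4 : 0 ≤ (1 + Real.log ((N : ℝ) + 1)) ^ 4 *
      (1 + Real.log ((N : ℝ) + 1) + Real.log (1 / ε)) := by positivity
  calc 10 ^ 37 * (((m + 2 : ℕ) : ℝ) + 1) ^ 6 * (((n + 2 : ℕ) : ℝ) + 1) ^ 17 *
        (1 + Real.log ((N : ℝ) + 1)) ^ 4 * (1 + Real.log ((N : ℝ) + 1) + Real.log (1 / ε))
      = 10 ^ 37 * ((((m + 2 : ℕ) : ℝ) + 1) ^ 6 * (((n + 2 : ℕ) : ℝ) + 1) ^ 17) *
        ((1 + Real.log ((N : ℝ) + 1)) ^ 4 * (1 + Real.log ((N : ℝ) + 1) + Real.log (1 / ε))) := by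
        ring
    _ ≤ 10 ^ 37 * ((2 * ((m : ℝ) + 1)) ^ 6 * (2 * ((n : ℝ) + 1)) ^ 17) *
        ((1 + Real.log ((N : ℝ) + 1)) ^ 4 * (1 + Real.log ((N : ℝ) + 1) + Real.log (1 / ε))) := by
        apply mul_le_mul_of_nonneg_right _ e4
        apply mul_le_mul_of_nonneg_left e3 (by positivity)
    _ = (10 ^ 37 * 2 ^ 23) * ((m : ℝ) + 1) ^ 6 * ((n : ℝ) + 1) ^ 17 *
        ((1 + Real.log ((N : ℝ) + 1)) ^ 4 * (1 + Real.log ((N : ℝ) + 1) + Real.log (1 / ε))) := by
        ring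
    _ ≤ 10 ^ 44 * ((m : ℝ) + 1) ^ 6 * ((n : ℝ) + 1) ^ 17 *
        ((1 + Real.log ((N : ℝ) + 1)) ^ 4 * (1 + Real.log ((N : ℝ) + 1) + Real.log (1 / ε))) := by
        apply mul_le_mul_of_nonneg_right _ e4
        apply mul_le_mul_of_nonneg_right _ (by positivity)
        apply mul_le_mul_of_nonneg_right _ (by positivity)
        norm_num
    _ = _ := by ring

end CTSampler
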