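import Vale.Agent.CT2.Sampler

/-! # Padding by two zero rows and two zero columns (definitions) -/

namespace CTSampler

/-- the margin `r` followed by two zeros -/
def pad {m : ℕ} (r : Fin m → ℕ) : Fin (m + 2) → ℕ := Fin.append r (fun _ => 0)

/-- the table `T` with two zero columns and two zero rows added -/
def padT {m n : ℕ} (T : Fin m → Fin n → ℕ) : Fin (m + 2) → Fin (n + 2) → ℕ :=
  Fin.append (fun i => pad (T i)) (fun _ _ => 0)

end CTSampler
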