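import Vale.Agent.CT2.StartDef26
import Vale.Agent.CT2.XFin26

/-! # The start table; the transition probabilities sum to one -/

namespace CTSampler

open Finset
open scoped Classical

variable {m n : ℕ}

theorem xs_cum_zero (r : Fin m → ℕ) : cum r 0 = 0 := by
  simp [cum]

theorem xs_cum_succ (r : Fin m → ℕ) (i : Fin m) : cum r (i + 1) = cum r i + r i := by
  unfold cum
  have h : ∀ l : Fin m, (if (l : ℕ) < (i : ℕ) + 1 then r l else 0)
      = (if (l : ℕ) < (i : ℕ) then r l else 0) + (if l = i then r l else 0) := by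
    intro l
    by_cases h1 : l = i
    · subst h1
      simp
    · have h2 : (l : ℕ) ≠ (i : ℕ) := fun h => h1 (Fin.ext h)
      rw [if_neg h1, add_zero]
      by_cases h3 : (l : ℕ) < (i : ℕ)
      · rw [if_pos h3, if_pos (by omega)]
      · rw [if_neg h3, if_neg (by omega)]
  rw [Finset.sum_congr rfl fun l _ => h l, Finset.sum_add_distrib]
  congr 1
  rw [Finset.sum_ite_eq' univ i r, if_pos (mem_univ i)]

theorem xs_cum_top (r : Fin m → ℕ) : cum r m = ∑ i, r i := by
  unfold cum
  exact Finset.sum_congr rfl fun l _ => by rw [if_pos l.isLt]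

theorem xs_cum_mono (r : Fin m → ℕ) : Monotone (cum r) := by
  intro a b hab
  unfold cum
  refine Finset.sum_le_sum fun l _ => ?_
  split_ifs with h1 h2
  · exact le_rfl
  · omega
  · exact Nat.zero_le _
  · exact le_rfl

theorem xs_row (r : Fin m → ℕ) (c : Fin n → ℕ) (h : ∑ i, r i = ∑ j, c j) (i : Fin m) :
    ∑ j, start r c i j = r i := by
  have hR : cum r i ≤ cum r (i + 1) := xs_cum_mono r (Nat.le_succ _)
  have hN : cum r (i + 1) ≤ cum c n := by
    rw [xs_cum_top, ← h, ← xs_cum_top r]
    exact xs_cum_mono r i.isLt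
  set g : ℕ → ℕ := fun k => min (cum r (i + 1)) (max (cum r i) (cum c k)) with hg
  have hgm : Monotone g := by
    intro a b hab
    have := xs_cum_mono c hab
    simp only [hg]
    omega
  have e1 : ∀ j : Fin n, start r c i j = g ((j : ℕ) + 1) - g (j : ℕ) := by
    intro j
    have := xs_cum_mono c (Nat.le_succ (j : ℕ))
    simp only [hg, start]
    omega
  rw [Finset.sum_congr rfl fun j _ => e1 j,
    Fin.sum_univ_eq_sum_range (fun k => g (k + 1) - g k) n, Finset.sum_range_tsub hgm]
  have h3 := xs_cum_succ r i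
  have h4 := xs_cum_zero c
  simp only [hg]
  omega

theorem xs_start_comm (r : Fin m → ℕ) (c : Fin n → ℕ) (i : Fin m) (j : Fin n) :
    start r c i j = start c r j i := by
  unfold start
  rw [min_comm, max_comm]

/-- the north-west corner table is a table -/
theorem start_isTable (r : Fin m → ℕ) (c : Fin n → ℕ) (h : ∑ i, r i = ∑ j, c j) :
    IsTable r c (start r c) := by
  refine ⟨fun i => xs_row r c h i, fun j => ?_⟩
  rw [← xs_row c r h.symm j]
  exact Finset.sum_congr rfl fun i _ => xs_start_comm r c i j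

theorem trans_nonneg (T S : Fin m → Fin n → ℕ) : 0 ≤ trans T S := by
  unfold trans
  refine div_nonneg ?_ (by positivity)
  refine sum_nonneg fun i _ => sum_nonneg fun j _ => sum_nonneg fun k _ => sum_nonneg fun a _ =>
    sum_nonneg fun b _ => sum_nonneg fun d _ => ?_
  refine div_nonneg ?_ (by positivity)
  refine sum_nonneg fun u1 _ => sum_nonneg fun u2 _ => sum_nonneg fun u3 _ =>
    sum_nonneg fun u4 _ => ?_
  split_ifs
  · exact zero_le_one
  · exact le_rfl

/-- the transition probabilities out of a table sum to one over the tables -/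
theorem trans_sum (hm : 1 ≤ m) (hn : 1 ≤ n) (r : Fin m → ℕ) (c : Fin n → ℕ)
    {T : Fin m → Fin n → ℕ} (hT : T ∈ tables r c) : ∑ S ∈ tables r c, trans T S = 1 := by
  have hmI : Nonempty (Fin m) := ⟨⟨0, hm⟩⟩
  have hnJ : Nonempty (Fin n) := ⟨⟨0, hn⟩⟩
  rw [Finset.sum_congr rfl fun S hS => trans_eq r c hT hS, ← Finset.sum_div, Finset.sum_comm]
  have e : ∀ p : (Fin m × Fin m × Fin m) × (Fin n × Fin n × Fin n),
      ∑ S ∈ tables r c, (lam r c p T * CT2.kb (tables r c) (Rel p) T S
        + (1 - lam r c p T) * (if T = S then 1 else 0)) = 1 := by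
    intro p
    rw [Finset.sum_add_distrib, ← Finset.mul_sum, ← Finset.mul_sum]
    have h1 : ∑ S ∈ tables r c, CT2.kb (tables r c) (Rel p) T S = 1 := by
      have h2 := CT2.av_eq (tables r c) (Rel p) (fun _ => 1) T
      rw [CT2.av_one (xf_Rel_equiv p) hT] at h2
      simp only [mul_one] at h2
      exact h2.symm
    have h3 : ∑ S ∈ tables r c, (if T = S then (1 : ℝ) else 0) = 1 := by
      rw [Finset.sum_ite_eq, if_pos hT]
    rw [h1, h3]
    ring
  rw [Finset.sum_congr rfl fun p _ => e p, Finset.sum_const, Finset.card_univ, nsmul_eq_mul,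
    mul_one, div_self]
  have : 0 < Fintype.card ((Fin m × Fin m × Fin m) × (Fin n × Fin n × Fin n)) :=
    Fintype.card_pos
  exact_mod_cast this.ne'

end CTSampler
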